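import Vale.Agent.P371.Calc

open MeasureTheory Matrix
open scoped ENNReal ComplexOrder

namespace Vale.Agent.P371.Kin

/-- absolutely continuous functions with complex values on `[a, b]` -/
abbrev AC (f : ℝ → ℂ) (a b : ℝ) : Prop := AbsolutelyContinuousOnInterval f a b

lemma ac_const (z : ℂ) (a b : ℝ) : AC (fun _ => z) a b := by
  have : LipschitzOnWith 0 (fun _ : ℝ => z) (Set.uIcc a b) :=
    (LipschitzWith.const z).lipschitzOnWith
  exact this.absolutelyContinuousOnInterval

lemma ac_mul {f g : ℝ → ℂ} {a b : ℝ} (hf : AC f a b) (hg : AC g a b) :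
    AC (fun x => f x * g x) a b := by
  have := AbsolutelyContinuousOnInterval.smul (M := ℂ) (F := ℂ) hf hg
  exact this

lemma ac_add {f g : ℝ → ℂ} {a b : ℝ} (hf : AC f a b) (hg : AC g a b) :
    AC (fun x => f x + g x) a b :=
  AbsolutelyContinuousOnInterval.add hf hg

lemma ac_sum {ι : Type*} (s : Finset ι) {f : ι → ℝ → ℂ} {a b : ℝ}
    (hf : ∀ i ∈ s, AC (f i) a b) : AC (fun x => ∑ i ∈ s, f i x) a b := by
  classical
  induction s using Finset.induction_on with
  | empty => simpa using ac_const 0 a b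
  | insert i s hi ih =>
    simp only [Finset.sum_insert hi]
    exact ac_add (hf i (Finset.mem_insert_self i s))
      (ih fun j hj => hf j (Finset.mem_insert_of_mem hj))

/-- a function whose distances are dominated is absolutely continuous -/
lemma ac_of_dist_le {E F : Type*} [PseudoMetricSpace E] [PseudoMetricSpace F] {f : ℝ → E}
    {g : ℝ → F} {a b : ℝ}
    (hg : AbsolutelyContinuousOnInterval g a b) (h : ∀ x y, dist (f x) (f y) ≤ dist (g x) (g y)) :
    AbsolutelyContinuousOnInterval f a b := by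
  rw [absolutelyContinuousOnInterval_iff] at *
  intro ε hε
  obtain ⟨δ, hδ, H⟩ := hg ε hε
  refine ⟨δ, hδ, fun E hE hE' => ?_⟩
  exact (Finset.sum_le_sum fun i _ => h _ _).trans_lt (H E hE hE')

lemma ac_star {f : ℝ → ℂ} {a b : ℝ} (hf : AC f a b) : AC (fun x => star (f x)) a b :=
  ac_of_dist_le hf fun x y => by
    rw [dist_eq_norm, dist_eq_norm, ← star_sub, norm_star]

lemma ac_re {f : ℝ → ℂ} {a b : ℝ} (hf : AC f a b) :
    AbsolutelyContinuousOnInterval (fun x => (f x).re) a b :=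
  ac_of_dist_le hf fun x y => by
    rw [dist_eq_norm, dist_eq_norm, ← Complex.sub_re]
    exact Complex.abs_re_le_norm _

lemma ac_ofReal {f : ℝ → ℝ} {a b : ℝ} (hf : AbsolutelyContinuousOnInterval f a b) :
    AC (fun x => (f x : ℂ)) a b :=
  ac_of_dist_le hf fun x y => by
    rw [Complex.dist_of_im_eq (by simp)]
    simp

/-- a primitive is absolutely continuous -/
lemma ac_primitive {f f' : ℝ → ℂ} (hf' : ∀ a b, IntervalIntegrable f' volume a b)
    (h : ∀ x y, f y - f x = ∫ t in x..y, f' t) (a b : ℝ) : AC f a b := by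
  have hre : ∀ a b, IntervalIntegrable (fun t => (f' t).re) volume a b := by
    intro a b
    have := hf' a b
    rw [intervalIntegrable_iff] at *
    exact this.re
  have him : ∀ a b, IntervalIntegrable (fun t => (f' t).im) volume a b := by
    intro a b
    have := hf' a b
    rw [intervalIntegrable_iff] at *
    exact this.im
  have h1 := (hre a b).absolutelyContinuousOnInterval_intervalIntegral (c := a) Set.left_mem_uIcc
  have h2 := (him a b).absolutelyContinuousOnInterval_intervalIntegral (c := a) Set.left_mem_uIcc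
  have h3 : AC (fun x => f a + (((∫ t in a..x, (f' t).re : ℝ) : ℂ) +
      ((∫ t in a..x, (f' t).im : ℝ) : ℂ) * Complex.I)) a b :=
    ac_add (ac_const _ _ _) (ac_add (ac_ofReal h1) (ac_mul (ac_ofReal h2) (ac_const _ _ _)))
  convert h3 using 1
  funext x
  have e1 : ∫ t in a..x, (f' t).re = (∫ t in a..x, f' t).re :=
    Complex.reCLM.intervalIntegral_comp_comm (hf' a x)
  have e2 : ∫ t in a..x, (f' t).im = (∫ t in a..x, f' t).im :=
    Complex.imCLM.intervalIntegral_comp_comm (hf' a x)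
  rw [e1, e2, Complex.re_add_im, ← h a x]
  ring

/-- matrix version -/
def MAC {m n : ℕ} (F : ℝ → Matrix (Fin m) (Fin n) ℂ) (a b : ℝ) : Prop :=
  ∀ i j, AC (fun x => F x i j) a b

lemma MAC.mul {l m n : ℕ} {F : ℝ → Matrix (Fin l) (Fin m) ℂ} {G : ℝ → Matrix (Fin m) (Fin n) ℂ}
    {a b : ℝ} (hF : MAC F a b) (hG : MAC G a b) : MAC (fun y => F y * G y) a b := by
  intro i j
  simp only [mul_apply]
  exact ac_sum _ fun k _ => ac_mul (hF i k) (hG k j)

lemma MAC.add {m n : ℕ} {F G : ℝ → Matrix (Fin m) (Fin n) ℂ} {a b : ℝ} (hF : MAC F a b)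
    (hG : MAC G a b) : MAC (fun y => F y + G y) a b :=
  fun i j => ac_add (hF i j) (hG i j)

lemma MAC.smul {m n : ℕ} {F : ℝ → Matrix (Fin m) (Fin n) ℂ} {a b : ℝ} (c : ℂ)
    (hF : MAC F a b) : MAC (fun y => c • F y) a b :=
  fun i j => by
    simpa only [Matrix.smul_apply, smul_eq_mul] using ac_mul (ac_const c a b) (hF i j)

lemma MAC.sum {m n : ℕ} {ι : Type*} (s : Finset ι) {F : ι → ℝ → Matrix (Fin m) (Fin n) ℂ}
    {a b : ℝ} (hF : ∀ k ∈ s, MAC (F k) a b) : MAC (fun y => ∑ k ∈ s, F k y) a b :=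
  fun i j => by
    simp only [Matrix.sum_apply]
    exact ac_sum _ fun k hk => hF k hk i j

lemma MAC.conjTranspose {m n : ℕ} {F : ℝ → Matrix (Fin m) (Fin n) ℂ} {a b : ℝ}
    (hF : MAC F a b) : MAC (fun y => (F y)ᴴ) a b :=
  fun i j => by
    simpa only [conjTranspose_apply] using ac_star (hF j i)

lemma MAC.trace_re {n : ℕ} {F : ℝ → Matrix (Fin n) (Fin n) ℂ} {a b : ℝ} (hF : MAC F a b) :
    AbsolutelyContinuousOnInterval (fun y => (F y).trace.re) a b := by
  apply ac_re (f := fun y => (F y).trace)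
  simp only [trace, diag_apply]
  exact ac_sum _ fun k _ => hF k k

lemma MAC.Z {N : ℕ} {A P : ℝ → Matrix (Fin N) (Fin N) ℂ} {a b : ℝ} (hA : MAC A a b)
    (hP : MAC P a b) (n : ℕ) : MAC (fun y => Z (A y) (P y) n) a b := by
  induction n with
  | zero => exact hP
  | succ n ih => exact ((hA.mul ih).add (ih.mul hA)).smul (1 / 2)

lemma MAC.X {N : ℕ} {A P : ℝ → Matrix (Fin N) (Fin N) ℂ} {a b : ℝ} (hA : MAC A a b)
    (hP : MAC P a b) (d : ℕ) (c : ℕ → ℝ) : MAC (fun y => X d c (A y) (P y)) a b :=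
  MAC.sum _ fun n _ => (hA.Z hP n).smul _

end Vale.Agent.P371.Kin
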