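import Vale.Agent.P371.Iface

/-!
# P371, KIN: the algebraic inequality behind the Hamilton-Jacobi subsolution
-/

open MeasureTheory Matrix
open scoped ENNReal ComplexOrder

namespace Vale.Agent.P371.Kin

/-- `Zₙ = 𝓛ⁿ P` with `𝓛 X = (A X + X A) / 2`. -/
noncomputable def Z {N : ℕ} (A P : Matrix (Fin N) (Fin N) ℂ) : ℕ → Matrix (Fin N) (Fin N) ℂ
  | 0 => P
  | n + 1 => (1 / 2 : ℂ) • (A * Z A P n + Z A P n * A)

/-- `q(𝓛) P` for the polynomial `q = ∑ cₙ Xⁿ`. -/
noncomputable def X {N : ℕ} (d : ℕ) (c : ℕ → ℝ) (A P : Matrix (Fin N) (Fin N) ℂ) :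
    Matrix (Fin N) (Fin N) ℂ :=
  ∑ n ∈ Finset.range d, (c n : ℂ) • Z A P n

/-- the trace form coming from the derivative of `q(𝓛)`. -/
noncomputable def Q {N : ℕ} (d : ℕ) (c : ℕ → ℝ) (A P : Matrix (Fin N) (Fin N) ℂ) : ℝ :=
  ∑ n ∈ Finset.range d, c n * ∑ i ∈ Finset.range n, (Z A P i * P * Z A P (n - 1 - i)).trace.re

/-- the polynomial. -/
noncomputable def qv (d : ℕ) (c : ℕ → ℝ) (s : ℝ) : ℝ := ∑ n ∈ Finset.range d, c n * s ^ n

/-- its divided differences. -/
noncomputable def qd (d : ℕ) (c : ℕ → ℝ) (s t : ℝ) : ℝ :=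
  ∑ n ∈ Finset.range d, c n * ∑ i ∈ Finset.range n, s ^ i * t ^ (n - 1 - i)

lemma Z_diag {N : ℕ} (α : Fin N → ℝ) (P : Matrix (Fin N) (Fin N) ℂ) (n : ℕ) (a b : Fin N) :
    Z (diagonal fun i => (α i : ℂ)) P n a b = ((((α a + α b) / 2) ^ n : ℝ) : ℂ) * P a b := by
  induction n with
  | zero => simp [Z]
  | succ n ih =>
    simp only [Z, Matrix.smul_apply, Matrix.add_apply, diagonal_mul, mul_diagonal, ih, smul_eq_mul]
    push_cast
    ring

lemma trace_Z_diag {N : ℕ} (α : Fin N → ℝ) (P : Matrix (Fin N) (Fin N) ℂ) (i j : ℕ) :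
    (Z (diagonal fun i => (α i : ℂ)) P i * P * Z (diagonal fun i => (α i : ℂ)) P j).trace =
      ∑ b, ∑ a, ∑ c, P a b * P b c * P c a *
        (((((α b + α a) / 2) ^ i * ((α c + α a) / 2) ^ j : ℝ)) : ℂ) := by
  rw [Finset.sum_comm]
  simp only [trace, diag_apply, mul_apply, Finset.sum_mul, Z_diag]
  refine Finset.sum_congr rfl fun a _ => ?_
  rw [Finset.sum_comm]
  refine Finset.sum_congr rfl fun b _ => ?_
  refine Finset.sum_congr rfl fun c _ => ?_
  rw [add_comm (α b) (α a)]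
  push_cast
  ring

/-- In the diagonal case the whole form is a triple sum. -/
lemma form_diag {N : ℕ} (d : ℕ) (c : ℕ → ℝ) (α : Fin N → ℝ) (P : Matrix (Fin N) (Fin N) ℂ) :
    Q d c (diagonal fun i => (α i : ℂ)) P -
      (X d c (diagonal fun i => (α i : ℂ)) P * P *
        X d c (diagonal fun i => (α i : ℂ)) P).trace.re =
    (∑ i, ∑ j, ∑ k, P j i * P i k * P k j *
      ((qd d c ((α i + α j) / 2) ((α k + α j) / 2) -
        qv d c ((α i + α j) / 2) * qv d c ((α k + α j) / 2) : ℝ) : ℂ)).re := by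
  have h1 : (Q d c (diagonal fun i => (α i : ℂ)) P) =
      (∑ i, ∑ j, ∑ k, P j i * P i k * P k j *
      ((qd d c ((α i + α j) / 2) ((α k + α j) / 2) : ℝ) : ℂ)).re := by
    unfold Q qd
    simp only [trace_Z_diag]
    have : ∀ n : ℕ, c n * ∑ x ∈ Finset.range n, (∑ i, ∑ j, ∑ k, P j i * P i k * P k j *
        (((((α i + α j) / 2) ^ x * ((α k + α j) / 2) ^ (n - 1 - x) : ℝ)) : ℂ)).re =
        (∑ i, ∑ j, ∑ k, P j i * P i k * P k j * ((c n * ∑ x ∈ Finset.range n,
          ((α i + α j) / 2) ^ x * ((α k + α j) / 2) ^ (n - 1 - x) : ℝ) : ℂ)).re := by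
      intro n
      rw [← Complex.re_sum, ← Complex.re_ofReal_mul]
      congr 1
      rw [Finset.sum_comm, Finset.mul_sum]
      refine Finset.sum_congr rfl fun i _ => ?_
      rw [Finset.sum_comm, Finset.mul_sum]
      refine Finset.sum_congr rfl fun j _ => ?_
      rw [Finset.sum_comm, Finset.mul_sum]
      refine Finset.sum_congr rfl fun k _ => ?_
      rw [← Finset.mul_sum]
      push_cast
      ring
    rw [Finset.sum_congr rfl fun n _ => this n, ← Complex.re_sum]
    congr 1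
    rw [Finset.sum_comm]
    refine Finset.sum_congr rfl fun i _ => ?_
    rw [Finset.sum_comm]
    refine Finset.sum_congr rfl fun j _ => ?_
    rw [Finset.sum_comm]
    refine Finset.sum_congr rfl fun k _ => ?_
    rw [← Finset.mul_sum]
    push_cast
    ring
  have h2 : (X d c (diagonal fun i => (α i : ℂ)) P * P *
        X d c (diagonal fun i => (α i : ℂ)) P).trace =
      ∑ i, ∑ j, ∑ k, P j i * P i k * P k j *
      ((qv d c ((α i + α j) / 2) * qv d c ((α k + α j) / 2) : ℝ) : ℂ) := by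
    have hX : ∀ a b, X d c (diagonal fun i => (α i : ℂ)) P a b =
        ((qv d c ((α a + α b) / 2) : ℝ) : ℂ) * P a b := by
      intro a b
      unfold X qv
      rw [Matrix.sum_apply]
      simp only [Matrix.smul_apply, Z_diag, smul_eq_mul]
      push_cast
      rw [Finset.sum_mul]
      refine Finset.sum_congr rfl fun n _ => ?_
      ring
    rw [Finset.sum_comm]
    simp only [trace, diag_apply, mul_apply, Finset.sum_mul, hX]
    refine Finset.sum_congr rfl fun a _ => ?_
    rw [Finset.sum_comm]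
    refine Finset.sum_congr rfl fun b _ => ?_
    refine Finset.sum_congr rfl fun c _ => ?_
    rw [add_comm (α b) (α a)]
    push_cast
    ring
  rw [h1, h2, ← Complex.sub_re]
  congr 1
  simp only [← Finset.sum_sub_distrib]
  refine Finset.sum_congr rfl fun i _ => Finset.sum_congr rfl fun j _ =>
    Finset.sum_congr rfl fun k _ => ?_
  push_cast
  ring

end Vale.Agent.P371.Kin
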