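import Vale.Agent.P371.AlgTan

open MeasureTheory Matrix
open scoped ENNReal ComplexOrder

namespace Vale.Agent.P371.Kin

open scoped MatrixOrder Matrix.Norms.L2Operator in
lemma exists_factor {N : ℕ} {P : Matrix (Fin N) (Fin N) ℂ} (hP : P.PosSemidef) :
    ∃ B : Matrix (Fin N) (Fin N) ℂ, P = Bᴴ * B := by
  obtain ⟨B, hB⟩ := CStarAlgebra.nonneg_iff_eq_star_mul_self.mp
    (Matrix.nonneg_iff_posSemidef.mpr hP)
  exact ⟨B, hB⟩

lemma norm_entry_le {N : ℕ} {P : Matrix (Fin N) (Fin N) ℂ} (hP : P.PosSemidef) (a b : Fin N) :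
    ‖P a b‖ ≤ P.trace.re := by
  obtain ⟨B, rfl⟩ := exists_factor hP
  have hdiag : ∀ a, ((Bᴴ * B) a a).re = ∑ i, ‖B i a‖ ^ 2 := by
    intro a
    rw [mul_apply, Complex.re_sum]
    refine Finset.sum_congr rfl fun i _ => ?_
    rw [conjTranspose_apply, Complex.star_def, ← Complex.normSq_eq_conj_mul_self,
      Complex.ofReal_re, Complex.normSq_eq_norm_sq]
  have htr : (Bᴴ * B).trace.re = ∑ a, ∑ i, ‖B i a‖ ^ 2 := by
    rw [trace, Complex.re_sum]
    exact Finset.sum_congr rfl fun a _ => by rw [diag_apply, hdiag]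
  have hle : ∀ a, ∑ i, ‖B i a‖ ^ 2 ≤ ∑ a, ∑ i, ‖B i a‖ ^ 2 := by
    intro a
    exact Finset.single_le_sum (f := fun a => ∑ i, ‖B i a‖ ^ 2)
      (fun a _ => Finset.sum_nonneg fun i _ => by positivity) (Finset.mem_univ a)
  rw [htr]
  calc ‖(Bᴴ * B) a b‖ ≤ ∑ i, ‖B i a‖ * ‖B i b‖ := by
        rw [mul_apply]
        refine (norm_sum_le _ _).trans (Finset.sum_le_sum fun i _ => ?_)
        rw [norm_mul, conjTranspose_apply, norm_star]
    _ ≤ ∑ i, (1 / 2 * ‖B i a‖ ^ 2 + 1 / 2 * ‖B i b‖ ^ 2) := by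
        refine Finset.sum_le_sum fun i _ => ?_
        nlinarith [sq_nonneg (‖B i a‖ - ‖B i b‖)]
    _ = 1 / 2 * ∑ i, ‖B i a‖ ^ 2 + 1 / 2 * ∑ i, ‖B i b‖ ^ 2 := by
        rw [Finset.sum_add_distrib, Finset.mul_sum, Finset.mul_sum]
    _ ≤ _ := by linarith [hle a, hle b]

lemma trace_pow_eq {N : ℕ} {P : Matrix (Fin N) (Fin N) ℂ} (hP : P.IsHermitian) (n : ℕ) :
    (P ^ n).trace = ((∑ i, hP.eigenvalues i ^ n : ℝ) : ℂ) := by
  conv_lhs => rw [hP.spectral_theorem]
  rw [← map_pow, Unitary.conjStarAlgAut_apply, trace_mul_comm, ← mul_assoc,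
    Unitary.coe_star_mul_self, one_mul, diagonal_pow, trace_diagonal]
  push_cast
  rfl

lemma trace_nonneg {N : ℕ} {P : Matrix (Fin N) (Fin N) ℂ} (hP : P.PosSemidef) :
    0 ≤ P.trace.re := by
  have := trace_pow_eq hP.isHermitian 1
  rw [pow_one] at this
  rw [this, Complex.ofReal_re]
  exact Finset.sum_nonneg fun i _ => pow_nonneg (hP.eigenvalues_nonneg i) _

lemma trace_cube_nonneg {N : ℕ} {P : Matrix (Fin N) (Fin N) ℂ} (hP : P.PosSemidef) :
    0 ≤ (P ^ 3).trace.re := by
  rw [trace_pow_eq hP.isHermitian 3, Complex.ofReal_re]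
  exact Finset.sum_nonneg fun i _ => pow_nonneg (hP.eigenvalues_nonneg i) _

lemma trace_cube_ge {N : ℕ} {P : Matrix (Fin N) (Fin N) ℂ} (hP : P.PosSemidef) :
    P.trace.re ^ 3 ≤ (N : ℝ) ^ 2 * (P ^ 3).trace.re := by
  have h1 : P.trace.re = ∑ i, hP.isHermitian.eigenvalues i := by
    have := trace_pow_eq hP.isHermitian 1
    rw [pow_one] at this
    rw [this, Complex.ofReal_re]
    simp
  rw [trace_pow_eq hP.isHermitian 3, Complex.ofReal_re, h1]
  have := pow_sum_le_card_mul_sum_pow (s := Finset.univ) (f := hP.isHermitian.eigenvalues)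
    (fun i _ => hP.eigenvalues_nonneg i) 2
  simpa using this

/-- The diagonal case of the algebraic inequality. -/
theorem alg_diag (hMP : MPFact) (N : ℕ) {b : ℝ} (hb0 : 0 ≤ b) (hb : b < Real.pi / 2) {κ : ℝ}
    (hκ : κ < 1) :
    ∃ (d : ℕ) (c : ℕ → ℝ), ∀ (α : Fin N → ℝ) (P : Matrix (Fin N) (Fin N) ℂ),
      (∀ i, |α i| ≤ b) → P.PosSemidef →
      κ * (P ^ 3).trace.re ≤ Q d c (diagonal fun i => (α i : ℂ)) P -
      (X d c (diagonal fun i => (α i : ℂ)) P * P *
        X d c (diagonal fun i => (α i : ℂ)) P).trace.re := by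
  set T : ℝ := Real.tan b with hT
  have hT0 : 0 ≤ T := Real.tan_nonneg_of_nonneg_of_le_pi_div_two hb0 hb.le
  set M : ℝ := 1 + b * (2 * T + b) with hM
  have hM0 : 0 < M := by positivity
  set ε : ℝ := min 1 ((1 - κ) / (M * ((N : ℝ) ^ 5 + 1))) with hε
  have hε0 : 0 < ε := lt_min one_pos (div_pos (by linarith) (by positivity))
  have hε1 : ε ≤ 1 := min_le_left _ _
  have hε2 : ε * M * (N : ℝ) ^ 5 ≤ 1 - κ := by
    have h1 : ε ≤ (1 - κ) / (M * ((N : ℝ) ^ 5 + 1)) := min_le_right _ _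
    rw [le_div_iff₀ (by positivity)] at h1
    have h2 : ε * M * (N : ℝ) ^ 5 ≤ ε * (M * ((N : ℝ) ^ 5 + 1)) := by nlinarith [mul_pos hε0 hM0]
    exact h2.trans h1
  obtain ⟨d, c, h1, h2⟩ := exists_tan_approx hb0 hb hε0
  refine ⟨d, c, fun α P hα hP => ?_⟩
  rw [form_diag]
  have htan : ∀ s, |s| ≤ b → |Real.tan s| ≤ T := by
    intro s hs
    obtain ⟨hs1, hs2⟩ := abs_le.mp hs
    rw [abs_le]
    constructor
    · rw [hT, ← Real.tan_neg]
      exact Real.strictMonoOn_tan.monotoneOn ⟨by linarith, by linarith⟩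
        ⟨by linarith, by linarith⟩ hs1
    · exact Real.strictMonoOn_tan.monotoneOn ⟨by linarith, by linarith⟩
        ⟨by linarith, by linarith⟩ hs2
  -- the pointwise error
  have herr : ∀ s t, |s| ≤ b → |t| ≤ b →
      |(qd d c s t - qv d c s * qv d c t) - (tau s t - Real.tan s * Real.tan t)| ≤ ε * M := by
    intro s t hs ht
    have e1 := h1 s t hs ht
    have e2 := h2 s hs
    have e3 := h2 t ht
    have e4 : |qv d c s * qv d c t - Real.tan s * Real.tan t| ≤ ε * (b * (2 * T + b)) := by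
      have : qv d c s * qv d c t - Real.tan s * Real.tan t =
          (qv d c s - Real.tan s) * (qv d c t - Real.tan t) +
            (qv d c s - Real.tan s) * Real.tan t + Real.tan s * (qv d c t - Real.tan t) := by ring
      rw [this]
      have f1 : |(qv d c s - Real.tan s) * (qv d c t - Real.tan t)| ≤ ε * b * (ε * b) := by
        rw [abs_mul]
        exact mul_le_mul e2 e3 (abs_nonneg _) (by positivity)
      have f2 : |(qv d c s - Real.tan s) * Real.tan t| ≤ ε * b * T := by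
        rw [abs_mul]
        exact mul_le_mul e2 (htan t ht) (abs_nonneg _) (by positivity)
      have f3 : |Real.tan s * (qv d c t - Real.tan t)| ≤ T * (ε * b) := by
        rw [abs_mul]
        exact mul_le_mul (htan s hs) e3 (abs_nonneg _) hT0
      have f4 : ε * b * (ε * b) ≤ ε * b * (1 * b) := by gcongr
      calc _ ≤ |(qv d c s - Real.tan s) * (qv d c t - Real.tan t)| +
            |(qv d c s - Real.tan s) * Real.tan t| + |Real.tan s * (qv d c t - Real.tan t)| :=
            abs_add_three _ _ _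
        _ ≤ _ := by nlinarith
    calc _ = |(qd d c s t - tau s t) - (qv d c s * qv d c t - Real.tan s * Real.tan t)| := by
          congr 1; ring
      _ ≤ |qd d c s t - tau s t| + |qv d c s * qv d c t - Real.tan s * Real.tan t| := abs_sub _ _
      _ ≤ _ := by rw [hM]; nlinarith
  -- the exact kernel
  have hker : ∀ s t, |s| ≤ b → |t| ≤ b →
      (Real.sinc (s - t) - Real.cos (s - t)) / (Real.cos s * Real.cos t) =
        tau s t - Real.tan s * Real.tan t - 1 := by
    intro s t hs ht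
    have c1 := (cos_pos_of_abs_le hb hs).ne'
    have c2 := (cos_pos_of_abs_le hb ht).ne'
    unfold tau
    rw [Real.cos_sub, Real.tan_eq_sin_div_cos, Real.tan_eq_sin_div_cos]
    field_simp
    ring
  have hs : ∀ i j, |(α i + α j) / 2| ≤ b := by
    intro i j
    have a1 := abs_le.mp (hα i)
    have a2 := abs_le.mp (hα j)
    rw [abs_le]
    constructor <;> linarith
  -- everything as real sums
  set w : Fin N → Fin N → Fin N → ℝ := fun i j k => (P j i * P i k * P k j).re with hw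
  have hre : ∀ f : Fin N → Fin N → Fin N → ℝ,
      (∑ i, ∑ j, ∑ k, P j i * P i k * P k j * ((f i j k : ℝ) : ℂ)).re =
        ∑ i, ∑ j, ∑ k, w i j k * f i j k := by
    intro f
    simp only [Complex.re_sum, Complex.re_mul_ofReal, hw]
  have hmp := hMP N α P (fun i => (hα i).trans_lt hb) hP
  rw [hre fun i j k => _] at hmp
  rw [hre fun i j k => _]
  have hw3 : ∑ i, ∑ j, ∑ k, w i j k = (P ^ 3).trace.re := by
    rw [pow_succ, pow_two, trace, Complex.re_sum, Finset.sum_comm]
    refine Finset.sum_congr rfl fun j _ => ?_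
    rw [diag_apply, mul_apply, Complex.re_sum, Finset.sum_comm]
    refine Finset.sum_congr rfl fun k _ => ?_
    rw [mul_apply, Finset.sum_mul, Complex.re_sum]
  have hwabs : ∀ i j k, |w i j k| ≤ P.trace.re ^ 3 := by
    intro i j k
    have t0 := trace_nonneg hP
    calc |w i j k| ≤ ‖P j i * P i k * P k j‖ := Complex.abs_re_le_norm _
      _ = ‖P j i‖ * ‖P i k‖ * ‖P k j‖ := by rw [norm_mul, norm_mul]
      _ ≤ P.trace.re * P.trace.re * P.trace.re := by
          gcongr
          · exact norm_entry_le hP _ _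
          · exact norm_entry_le hP _ _
          · exact norm_entry_le hP _ _
      _ = _ := by ring
  have hcube := trace_cube_ge hP
  have hcube0 := trace_cube_nonneg hP
  have key : ∀ i j k, w i j k * (qd d c ((α i + α j) / 2) ((α k + α j) / 2) -
        qv d c ((α i + α j) / 2) * qv d c ((α k + α j) / 2)) ≥
      w i j k * ((Real.sinc ((α i - α k) / 2) - Real.cos ((α i - α k) / 2)) /
        (Real.cos ((α i + α j) / 2) * Real.cos ((α k + α j) / 2))) + w i j k -
        P.trace.re ^ 3 * (ε * M) := by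
    intro i j k
    have e1 := herr _ _ (hs i j) (hs k j)
    have e2 := hker _ _ (hs i j) (hs k j)
    rw [show (α i + α j) / 2 - (α k + α j) / 2 = (α i - α k) / 2 by ring] at e2
    rw [e2]
    set D := qd d c ((α i + α j) / 2) ((α k + α j) / 2) -
        qv d c ((α i + α j) / 2) * qv d c ((α k + α j) / 2)
    set E := tau ((α i + α j) / 2) ((α k + α j) / 2) -
        Real.tan ((α i + α j) / 2) * Real.tan ((α k + α j) / 2)
    have e3 : |w i j k * (D - E)| ≤ P.trace.re ^ 3 * (ε * M) := by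
      rw [abs_mul]
      exact mul_le_mul (hwabs i j k) e1 (abs_nonneg _) (pow_nonneg (trace_nonneg hP) 3)
    have e4 := (abs_le.mp e3).1
    nlinarith
  have hsum : ∑ i, ∑ j, ∑ k, w i j k * (qd d c ((α i + α j) / 2) ((α k + α j) / 2) -
        qv d c ((α i + α j) / 2) * qv d c ((α k + α j) / 2)) ≥
      ∑ i, ∑ j, ∑ k, (w i j k * ((Real.sinc ((α i - α k) / 2) - Real.cos ((α i - α k) / 2)) /
        (Real.cos ((α i + α j) / 2) * Real.cos ((α k + α j) / 2))) + w i j k -
        P.trace.re ^ 3 * (ε * M)) :=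
    Finset.sum_le_sum fun i _ => Finset.sum_le_sum fun j _ => Finset.sum_le_sum fun k _ =>
      key i j k
  simp only [Finset.sum_sub_distrib, Finset.sum_add_distrib, hw3, Finset.sum_const,
    Finset.card_univ, Fintype.card_fin, nsmul_eq_mul] at hsum
  have hfin : (N : ℝ) * ((N : ℝ) * ((N : ℝ) * (P.trace.re ^ 3 * (ε * M)))) ≤
      (1 - κ) * (P ^ 3).trace.re := by
    calc (N : ℝ) * ((N : ℝ) * ((N : ℝ) * (P.trace.re ^ 3 * (ε * M)))) =
          P.trace.re ^ 3 * ((N : ℝ) ^ 3 * (ε * M)) := by ring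
      _ ≤ ((N : ℝ) ^ 2 * (P ^ 3).trace.re) * ((N : ℝ) ^ 3 * (ε * M)) := by gcongr
      _ = (ε * M * (N : ℝ) ^ 5) * (P ^ 3).trace.re := by ring
      _ ≤ _ := by gcongr
  linarith

end Vale.Agent.P371.Kin
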