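import Vale.Agent.P371.AlgDiag

open MeasureTheory Matrix
open scoped ENNReal ComplexOrder

namespace Vale.Agent.P371.Kin

lemma Z_conj {N : ℕ} (V A P : Matrix (Fin N) (Fin N) ℂ) (hV : Vᴴ * V = 1) (n : ℕ) :
    Z (V * A * Vᴴ) (V * P * Vᴴ) n = V * Z A P n * Vᴴ := by
  induction n with
  | zero => rfl
  | succ n ih =>
    simp only [Z, ih]
    have h1 : V * A * Vᴴ * (V * Z A P n * Vᴴ) = V * (A * Z A P n) * Vᴴ := by
      calc V * A * Vᴴ * (V * Z A P n * Vᴴ) = V * A * (Vᴴ * V) * Z A P n * Vᴴ := by noncomm_ring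
        _ = _ := by rw [hV]; noncomm_ring
    have h2 : V * Z A P n * Vᴴ * (V * A * Vᴴ) = V * (Z A P n * A) * Vᴴ := by
      calc V * Z A P n * Vᴴ * (V * A * Vᴴ) = V * Z A P n * (Vᴴ * V) * A * Vᴴ := by noncomm_ring
        _ = _ := by rw [hV]; noncomm_ring
    rw [h1, h2, Matrix.mul_smul, Matrix.smul_mul, Matrix.mul_add, Matrix.add_mul]

lemma X_conj {N : ℕ} (V A P : Matrix (Fin N) (Fin N) ℂ) (hV : Vᴴ * V = 1) (d : ℕ) (c : ℕ → ℝ) :
    X d c (V * A * Vᴴ) (V * P * Vᴴ) = V * X d c A P * Vᴴ := by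
  unfold X
  rw [Matrix.mul_sum, Matrix.sum_mul]
  refine Finset.sum_congr rfl fun n _ => ?_
  rw [Z_conj V A P hV, Matrix.mul_smul, Matrix.smul_mul]

lemma trace_conj3 {N : ℕ} (V A B C : Matrix (Fin N) (Fin N) ℂ) (hV : Vᴴ * V = 1) :
    ((V * A * Vᴴ) * (V * B * Vᴴ) * (V * C * Vᴴ)).trace = (A * B * C).trace := by
  have h : (V * A * Vᴴ) * (V * B * Vᴴ) * (V * C * Vᴴ) = V * (A * B * C * Vᴴ) := by
    calc (V * A * Vᴴ) * (V * B * Vᴴ) * (V * C * Vᴴ) =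
          V * A * (Vᴴ * V) * B * (Vᴴ * V) * C * Vᴴ := by noncomm_ring
      _ = _ := by rw [hV]; noncomm_ring
  rw [h, trace_mul_comm, Matrix.mul_assoc, hV, Matrix.mul_one]

lemma Q_conj {N : ℕ} (V A P : Matrix (Fin N) (Fin N) ℂ) (hV : Vᴴ * V = 1) (d : ℕ) (c : ℕ → ℝ) :
    Q d c (V * A * Vᴴ) (V * P * Vᴴ) = Q d c A P := by
  unfold Q
  refine Finset.sum_congr rfl fun n _ => ?_
  congr 1
  refine Finset.sum_congr rfl fun i _ => ?_
  rw [Z_conj V A P hV, Z_conj V A P hV, trace_conj3 _ _ _ _ hV]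

/-- The algebraic inequality behind the Hamilton-Jacobi subsolution. -/
theorem alg_main (hMP : MPFact) (N : ℕ) {b : ℝ} (hb0 : 0 ≤ b) (hb : b < Real.pi / 2) {κ : ℝ}
    (hκ : κ < 1) :
    ∃ (d : ℕ) (c : ℕ → ℝ), ∀ (A P : Matrix (Fin N) (Fin N) ℂ) (hA : A.IsHermitian),
      (∀ i, |hA.eigenvalues i| ≤ b) → P.PosSemidef →
      κ * (P ^ 3).trace.re ≤ Q d c A P - (X d c A P * P * X d c A P).trace.re := by
  obtain ⟨d, c, h⟩ := alg_diag hMP N hb0 hb hκ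
  refine ⟨d, c, fun A P hA hev hP => ?_⟩
  set V : Matrix (Fin N) (Fin N) ℂ := (hA.eigenvectorUnitary : Matrix (Fin N) (Fin N) ℂ) with hVdef
  have hV1 : Vᴴ * V = 1 := by
    rw [hVdef, ← Matrix.star_eq_conjTranspose, Unitary.coe_star_mul_self]
  have hV2 : V * Vᴴ = 1 := mul_eq_one_comm.mp hV1
  set D : Matrix (Fin N) (Fin N) ℂ := diagonal fun i => ((hA.eigenvalues i : ℝ) : ℂ) with hD
  have hAeq : A = V * D * Vᴴ := by
    have := hA.spectral_theorem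
    rw [Unitary.conjStarAlgAut_apply] at this
    exact this
  obtain ⟨R, hR⟩ : ∃ R, R = Vᴴ * P * V := ⟨_, rfl⟩
  have hPeq : P = V * R * Vᴴ := by
    rw [hR]
    calc P = (V * Vᴴ) * P * (V * Vᴴ) := by rw [hV2]; simp
      _ = _ := by noncomm_ring
  have hP' : R.PosSemidef := hR ▸ hP.conjTranspose_mul_mul_same V
  have hmain := h hA.eigenvalues R hev hP'
  rw [← hD] at hmain
  have e1 : Q d c A P = Q d c D R := by
    conv_lhs => rw [hAeq, hPeq]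
    rw [Q_conj V _ _ hV1]
  have e2 : (X d c A P * P * X d c A P).trace = (X d c D R * R * X d c D R).trace := by
    have hX : X d c A P = V * X d c D R * Vᴴ := by
      conv_lhs => rw [hAeq, hPeq]
      rw [X_conj V _ _ hV1]
    rw [hX, ← trace_conj3 V (X d c D R) R (X d c D R) hV1, ← hPeq]
  have e3 : (P ^ 3).trace = (R ^ 3).trace := by
    rw [pow_succ, pow_two, pow_succ, pow_two, ← trace_conj3 V R R R hV1, ← hPeq]
  rw [e1, e2, e3]
  exact hmain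

end Vale.Agent.P371.Kin
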