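import Vale.Agent.P371.Alg

open MeasureTheory Matrix
open scoped ENNReal ComplexOrder

namespace Vale.Agent.P371.Kin

/-- divided differences of `tan`. -/
noncomputable def tau (s t : ℝ) : ℝ := Real.sinc (s - t) / (Real.cos s * Real.cos t)

lemma qd_mul_sub (d : ℕ) (c : ℕ → ℝ) (s t : ℝ) :
    qd d c s t * (s - t) = qv d c s - qv d c t := by
  unfold qd qv
  rw [Finset.sum_mul, ← Finset.sum_sub_distrib]
  refine Finset.sum_congr rfl fun n _ => ?_
  rw [mul_assoc, geom_sum₂_mul]
  ring

lemma qd_self (d : ℕ) (c : ℕ → ℝ) (s : ℝ) :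
    qd d c s s = ∑ n ∈ Finset.range d, c n * ((n : ℝ) * s ^ (n - 1)) := by
  unfold qd
  refine Finset.sum_congr rfl fun n _ => ?_
  congr 1
  have : ∀ i ∈ Finset.range n, s ^ i * s ^ (n - 1 - i) = s ^ (n - 1) := by
    intro i hi
    rw [← pow_add]
    congr 1
    have := Finset.mem_range.mp hi
    omega
  rw [Finset.sum_congr rfl this]
  simp

lemma hasDerivAt_qv (d : ℕ) (c : ℕ → ℝ) (s : ℝ) :
    HasDerivAt (qv d c) (qd d c s s) s := by
  rw [qd_self]
  unfold qv
  have := HasDerivAt.fun_sum (u := Finset.range d) (A := fun n (s : ℝ) => c n * s ^ n)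
    (A' := fun n => c n * ((n : ℝ) * s ^ (n - 1))) (x := s)
    (fun n _ => (hasDerivAt_pow n s).const_mul (c n))
  exact this

lemma tau_mul_sub {s t : ℝ} (hs : Real.cos s ≠ 0) (ht : Real.cos t ≠ 0) :
    tau s t * (s - t) = Real.tan s - Real.tan t := by
  unfold tau
  rcases eq_or_ne s t with rfl | h
  · simp
  · have h' : s - t ≠ 0 := sub_ne_zero.mpr h
    rw [Real.sinc_of_ne_zero h', Real.sin_sub, Real.tan_eq_sin_div_cos, Real.tan_eq_sin_div_cos]
    field_simp

lemma tau_self (s : ℝ) : tau s s = 1 / Real.cos s ^ 2 := by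
  unfold tau
  simp [sq]

lemma cos_pos_of_abs_le {b s : ℝ} (hb : b < Real.pi / 2) (hs : |s| ≤ b) : 0 < Real.cos s := by
  have := abs_le.mp hs
  exact Real.cos_pos_of_mem_Ioo ⟨by linarith, by linarith⟩

lemma exists_tan_approx {b : ℝ} (hb0 : 0 ≤ b) (hb : b < Real.pi / 2) {ε : ℝ} (hε : 0 < ε) :
    ∃ (d : ℕ) (c : ℕ → ℝ), (∀ s t, |s| ≤ b → |t| ≤ b → |qd d c s t - tau s t| ≤ ε) ∧
      (∀ s, |s| ≤ b → |qv d c s - Real.tan s| ≤ ε * b) := by
  have hcont : ContinuousOn (fun s : ℝ => 1 / Real.cos s ^ 2) (Set.Icc (-b) b) := by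
    apply ContinuousOn.div continuousOn_const (Real.continuous_cos.continuousOn.pow 2)
    intro s hs
    exact (pow_pos (cos_pos_of_abs_le hb (abs_le.mpr ⟨hs.1, hs.2⟩)) 2).ne'
  obtain ⟨p, hp⟩ := exists_polynomial_near_of_continuousOn (-b) b _ hcont ε hε
  set c : ℕ → ℝ := fun n => if n = 0 then 0 else p.coeff (n - 1) / n with hc
  set d : ℕ := p.natDegree + 2 with hd
  have hderiv : ∀ s, qd d c s s = p.eval s := by
    intro s
    rw [qd_self, hd, show p.natDegree + 2 = (p.natDegree + 1) + 1 from rfl,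
      Finset.sum_range_succ', Polynomial.eval_eq_sum_range]
    simp only [hc, if_true, zero_mul, add_zero]
    refine Finset.sum_congr rfl fun n _ => ?_
    simp only [Nat.add_eq_zero_iff, one_ne_zero, and_false, if_false, Nat.add_sub_cancel]
    have : ((n + 1 : ℕ) : ℝ) ≠ 0 := by positivity
    field_simp
  have hq0 : qv d c 0 = 0 := by
    unfold qv
    apply Finset.sum_eq_zero
    intro n _
    rcases Nat.eq_zero_or_pos n with rfl | hn
    · simp [hc]
    · simp [hn.ne']
  have hlip : ∀ s t, |s| ≤ b → |t| ≤ b →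
      |(qv d c s - Real.tan s) - (qv d c t - Real.tan t)| ≤ ε * |s - t| := by
    intro s t hs ht
    have := Convex.norm_image_sub_le_of_norm_hasDerivWithin_le
      (f := fun s => qv d c s - Real.tan s) (f' := fun s => qd d c s s - 1 / Real.cos s ^ 2)
      (s := Set.Icc (-b) b) (x := t) (y := s) (C := ε) ?_ ?_ (convex_Icc _ _) (abs_le.mp ht)
      (abs_le.mp hs)
    · simpa [Real.norm_eq_abs] using this
    · intro x hx
      exact ((hasDerivAt_qv d c x).sub
        (Real.hasDerivAt_tan (cos_pos_of_abs_le hb (abs_le.mpr hx)).ne')).hasDerivWithinAt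
    · intro x hx
      rw [hderiv, Real.norm_eq_abs]
      exact (hp x hx).le
  refine ⟨d, c, ?_, ?_⟩
  · intro s t hs ht
    rcases eq_or_ne s t with rfl | hst
    · rw [hderiv, tau_self]
      exact (hp s (abs_le.mp hs)).le
    · have hst' : 0 < |s - t| := abs_pos.mpr (sub_ne_zero.mpr hst)
      have h1 := hlip s t hs ht
      have h2 : (qd d c s t - tau s t) * (s - t) =
          (qv d c s - Real.tan s) - (qv d c t - Real.tan t) := by
        rw [sub_mul, qd_mul_sub, tau_mul_sub (cos_pos_of_abs_le hb hs).ne'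
          (cos_pos_of_abs_le hb ht).ne']
        ring
      rw [← h2, abs_mul] at h1
      exact le_of_mul_le_mul_right h1 hst'
  · intro s hs
    have h1 := hlip s 0 hs (by simpa using hb0)
    rw [hq0] at h1
    simp only [Real.tan_zero, sub_zero] at h1
    exact h1.trans (mul_le_mul_of_nonneg_left hs hε.le)

end Vale.Agent.P371.Kin
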