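import Vale.Agent.P371.Alg

open MeasureTheory Matrix
open scoped ENNReal ComplexOrder

namespace Vale.Agent.P371.Kin

/-- entrywise derivative of a matrix valued function. -/
def MD {m n : ℕ} (F : ℝ → Matrix (Fin m) (Fin n) ℂ) (F' : Matrix (Fin m) (Fin n) ℂ) (x : ℝ) :
    Prop :=
  ∀ i j, HasDerivAt (fun y => F y i j) (F' i j) x

lemma MD.mul {l m n : ℕ} {F : ℝ → Matrix (Fin l) (Fin m) ℂ} {F' : Matrix (Fin l) (Fin m) ℂ}
    {G : ℝ → Matrix (Fin m) (Fin n) ℂ} {G' : Matrix (Fin m) (Fin n) ℂ} {x : ℝ}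
    (hF : MD F F' x) (hG : MD G G' x) : MD (fun y => F y * G y) (F' * G x + F x * G') x := by
  intro i j
  simp only [mul_apply, Matrix.add_apply]
  rw [← Finset.sum_add_distrib]
  exact HasDerivAt.fun_sum fun k _ => (hF i k).mul (hG k j)

lemma MD.add {m n : ℕ} {F G : ℝ → Matrix (Fin m) (Fin n) ℂ} {F' G' : Matrix (Fin m) (Fin n) ℂ}
    {x : ℝ} (hF : MD F F' x) (hG : MD G G' x) : MD (fun y => F y + G y) (F' + G') x :=
  fun i j => (hF i j).add (hG i j)

lemma MD.smul {m n : ℕ} {F : ℝ → Matrix (Fin m) (Fin n) ℂ} {F' : Matrix (Fin m) (Fin n) ℂ}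
    {x : ℝ} (c : ℂ) (hF : MD F F' x) : MD (fun y => c • F y) (c • F') x :=
  fun i j => by
    simpa only [Matrix.smul_apply, smul_eq_mul] using (hF i j).const_mul c

lemma MD.conjTranspose {m n : ℕ} {F : ℝ → Matrix (Fin m) (Fin n) ℂ}
    {F' : Matrix (Fin m) (Fin n) ℂ} {x : ℝ} (hF : MD F F' x) :
    MD (fun y => (F y)ᴴ) F'ᴴ x :=
  fun i j => by
    simpa only [conjTranspose_apply] using (hF j i).star

lemma MD.trace_re {n : ℕ} {F : ℝ → Matrix (Fin n) (Fin n) ℂ} {F' : Matrix (Fin n) (Fin n) ℂ}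
    {x : ℝ} (hF : MD F F' x) : HasDerivAt (fun y => (F y).trace.re) F'.trace.re x := by
  have h : HasDerivAt (fun y => (F y).trace) F'.trace x := by
    simp only [trace, diag_apply]
    exact HasDerivAt.fun_sum fun k _ => hF k k
  exact (Complex.reCLM.hasFDerivAt.comp_hasDerivAt x h)

/-- the derivative of `Zₙ`. -/
noncomputable def DZ {N : ℕ} (A P A' P' : Matrix (Fin N) (Fin N) ℂ) :
    ℕ → Matrix (Fin N) (Fin N) ℂ
  | 0 => P'
  | n + 1 => (1 / 2 : ℂ) • ((A' * Z A P n + A * DZ A P A' P' n) +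
      (DZ A P A' P' n * A + Z A P n * A'))

lemma MD.Z {N : ℕ} {A P : ℝ → Matrix (Fin N) (Fin N) ℂ} {A' P' : Matrix (Fin N) (Fin N) ℂ} {x : ℝ}
    (hA : MD A A' x) (hP : MD P P' x) (n : ℕ) :
    MD (fun y => Z (A y) (P y) n) (DZ (A x) (P x) A' P' n) x := by
  induction n with
  | zero => exact hP
  | succ n ih =>
    exact ((hA.mul ih).add (ih.mul hA)).smul (1 / 2)

lemma Z_succ' {N : ℕ} (A P : Matrix (Fin N) (Fin N) ℂ) (n : ℕ) :
    Z A ((1 / 2 : ℂ) • (A * P + P * A)) n = Z A P (n + 1) := by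
  induction n with
  | zero => rfl
  | succ n ih => rw [Z, ih]; rfl

lemma Z_herm {N : ℕ} {A P : Matrix (Fin N) (Fin N) ℂ} (hA : A.IsHermitian) (hP : P.IsHermitian)
    (n : ℕ) : (Z A P n).IsHermitian := by
  induction n with
  | zero => exact hP
  | succ n ih =>
    rw [Matrix.IsHermitian] at *
    simp only [Z, conjTranspose_smul, conjTranspose_add, conjTranspose_mul, hA, ih]
    rw [add_comm]
    congr 1
    simp

lemma X_herm {N : ℕ} {A P : Matrix (Fin N) (Fin N) ℂ} (hA : A.IsHermitian) (hP : P.IsHermitian)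
    (d : ℕ) (c : ℕ → ℝ) : (X d c A P).IsHermitian := by
  rw [Matrix.IsHermitian, X, conjTranspose_sum]
  refine Finset.sum_congr rfl fun n _ => ?_
  rw [conjTranspose_smul, (Z_herm hA hP n).eq]
  simp

/-- the trace identity for the derivative of `Zₙ`. -/
lemma trace_mul_DZ {N : ℕ} (A P A' P' : Matrix (Fin N) (Fin N) ℂ) (n : ℕ) :
    ∀ Y : Matrix (Fin N) (Fin N) ℂ, (Y * DZ A P A' P' n).trace =
      (Z A Y n * P').trace + ∑ i ∈ Finset.range n,
        (Z A Y i * ((1 / 2 : ℂ) • (A' * Z A P (n - 1 - i) + Z A P (n - 1 - i) * A'))).trace := by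
  induction n with
  | zero => intro Y; simp [DZ, Z]
  | succ n ih =>
    intro Y
    have h1 : (Y * DZ A P A' P' (n + 1)).trace =
        (((1 / 2 : ℂ) • (A * Y + Y * A)) * DZ A P A' P' n).trace +
          (Y * ((1 / 2 : ℂ) • (A' * Z A P n + Z A P n * A'))).trace := by
      simp only [DZ, Matrix.mul_smul, Matrix.smul_mul, trace_smul, Matrix.mul_add, Matrix.add_mul,
        trace_add, smul_eq_mul]
      have e1 : (Y * (DZ A P A' P' n * A)).trace = (A * Y * DZ A P A' P' n).trace := by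
        rw [← Matrix.mul_assoc, trace_mul_comm, ← Matrix.mul_assoc]
      have e2 : (Y * (A * DZ A P A' P' n)).trace = (Y * A * DZ A P A' P' n).trace := by
        rw [← Matrix.mul_assoc]
      rw [e1, e2]
      ring
    rw [h1, ih, Finset.sum_range_succ']
    rw [Z_succ', show Z A Y 0 = Y from rfl, show n + 1 - 1 - 0 = n by omega]
    have h2 : ∀ i ∈ Finset.range n, (Z A ((1 / 2 : ℂ) • (A * Y + Y * A)) i * ((1 / 2 : ℂ) •
        (A' * Z A P (n - 1 - i) + Z A P (n - 1 - i) * A'))).trace =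
        (Z A Y (i + 1) * ((1 / 2 : ℂ) • (A' * Z A P (n + 1 - 1 - (i + 1)) +
          Z A P (n + 1 - 1 - (i + 1)) * A'))).trace := by
      intro i _
      rw [Z_succ', show n + 1 - 1 - (i + 1) = n - 1 - i by omega]
    rw [Finset.sum_congr rfl h2]
    ring

lemma re_trace_herm {N : ℕ} {A B C : Matrix (Fin N) (Fin N) ℂ} (hA : A.IsHermitian)
    (hB : B.IsHermitian) (hC : C.IsHermitian) : (A * B * C).trace.re = (A * C * B).trace.re := by
  have h1 : star (A * B * C).trace = (A * C * B).trace := by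
    rw [← trace_conjTranspose, conjTranspose_mul, conjTranspose_mul, hA.eq, hB.eq, hC.eq,
      ← Matrix.mul_assoc, trace_mul_comm, ← Matrix.mul_assoc]
  rw [← h1]
  simp

/-- The derivative of `tr (P q(𝓛_A) P)` when `A' = β P`. -/
theorem hasDerivAt_form {N : ℕ} {A P : ℝ → Matrix (Fin N) (Fin N) ℂ}
    {P' : Matrix (Fin N) (Fin N) ℂ} {x β : ℝ} (hA : MD A ((β : ℂ) • P x) x) (hP : MD P P' x)
    (hAh : (A x).IsHermitian) (hPh : (P x).IsHermitian) (d : ℕ) (c : ℕ → ℝ) :
    HasDerivAt (fun y => (P y * X d c (A y) (P y)).trace.re)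
      (2 * (P' * X d c (A x) (P x)).trace.re + β * Q d c (A x) (P x)) x := by
  have h1 : ∀ n, HasDerivAt (fun y => (P y * Z (A y) (P y) n).trace.re)
      (2 * (P' * Z (A x) (P x) n).trace.re + β * ∑ i ∈ Finset.range n,
        (Z (A x) (P x) i * P x * Z (A x) (P x) (n - 1 - i)).trace.re) x := by
    intro n
    convert (hP.mul (hA.Z hP n)).trace_re using 1
    rw [trace_add, Complex.add_re, trace_mul_DZ, Complex.add_re, trace_mul_comm (Z _ _ n) P',
      Complex.re_sum, Finset.mul_sum]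
    have h2 : ∀ i ∈ Finset.range n, β * (Z (A x) (P x) i * P x *
        Z (A x) (P x) (n - 1 - i)).trace.re =
        (Z (A x) (P x) i * ((1 / 2 : ℂ) • ((β : ℂ) • P x * Z (A x) (P x) (n - 1 - i) +
          Z (A x) (P x) (n - 1 - i) * (β : ℂ) • P x))).trace.re := by
      intro i _
      have e1 := re_trace_herm (Z_herm hAh hPh i) hPh (Z_herm hAh hPh (n - 1 - i))
      have e2 : (Z (A x) (P x) i * ((1 / 2 : ℂ) • ((β : ℂ) • P x * Z (A x) (P x) (n - 1 - i) +
          Z (A x) (P x) (n - 1 - i) * (β : ℂ) • P x))).trace = ((β / 2 : ℝ) : ℂ) *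
          ((Z (A x) (P x) i * P x * Z (A x) (P x) (n - 1 - i)).trace +
            (Z (A x) (P x) i * Z (A x) (P x) (n - 1 - i) * P x).trace) := by
        simp only [Matrix.mul_smul, Matrix.smul_mul, trace_smul, Matrix.mul_add,
          trace_add, smul_eq_mul, Matrix.mul_assoc]
        push_cast
        ring
      rw [e2, Complex.re_ofReal_mul, Complex.add_re, ← e1]
      ring
    rw [Finset.sum_congr rfl h2]
    ring
  have h3 : (fun y => (P y * X d c (A y) (P y)).trace.re) =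
      fun y => ∑ n ∈ Finset.range d, c n * (P y * Z (A y) (P y) n).trace.re := by
    funext y
    simp only [X, Matrix.mul_sum, trace_sum, Complex.re_sum, Matrix.mul_smul, trace_smul,
      smul_eq_mul, Complex.re_ofReal_mul]
  have h4 : 2 * (P' * X d c (A x) (P x)).trace.re + β * Q d c (A x) (P x) =
      ∑ n ∈ Finset.range d, c n * (2 * (P' * Z (A x) (P x) n).trace.re +
        β * ∑ i ∈ Finset.range n,
        (Z (A x) (P x) i * P x * Z (A x) (P x) (n - 1 - i)).trace.re) := by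
    simp only [X, Q, trace_sum, Complex.re_sum, Matrix.mul_smul, trace_smul,
      smul_eq_mul, Complex.re_ofReal_mul, mul_add, Finset.sum_add_distrib, Finset.mul_sum]
    congr 1
    · exact Finset.sum_congr rfl fun n _ => by ring
    · refine Finset.sum_congr rfl fun n _ => Finset.sum_congr rfl fun i _ => by ring
  rw [h3, h4]
  exact HasDerivAt.fun_sum fun n _ => (h1 n).const_mul (c n)

/-- The square completed. -/
lemma square_ge {m N : ℕ} (U V : Matrix (Fin m) (Fin N) ℂ) (Y : Matrix (Fin N) (Fin N) ℂ)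
    (hY : Y.IsHermitian) (r : ℝ) :
    - (2 * r * ((Vᴴ * U + Uᴴ * V) * Y).trace.re) ≤
      (Vᴴ * V).trace.re + (2 * r) ^ 2 * (Y * (Uᴴ * U) * Y).trace.re := by
  have h0 : 0 ≤ ((V + (2 * r : ℂ) • (U * Y))ᴴ * (V + (2 * r : ℂ) • (U * Y))).trace.re := by
    have := (posSemidef_conjTranspose_mul_self (V + (2 * r : ℂ) • (U * Y))).trace_nonneg
    exact (Complex.le_def.mp this).1
  have h1 : ((V + (2 * r : ℂ) • (U * Y))ᴴ * (V + (2 * r : ℂ) • (U * Y))) =
      Vᴴ * V + (2 * r : ℂ) • (Vᴴ * U * Y) + (2 * r : ℂ) • (Y * Uᴴ * V) +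
        ((2 * r : ℂ) * (2 * r : ℂ)) • (Y * (Uᴴ * U) * Y) := by
    simp only [conjTranspose_add, conjTranspose_smul, conjTranspose_mul, hY.eq, Matrix.add_mul,
      Matrix.mul_add, Matrix.smul_mul, Matrix.mul_smul, Matrix.mul_assoc]
    simp only [star_mul', Complex.star_def, Complex.conj_ofReal, map_ofNat, smul_add, smul_smul]
    abel
  have h2 : (Y * Uᴴ * V).trace = (Uᴴ * V * Y).trace := by
    rw [Matrix.mul_assoc, trace_mul_comm]
  rw [h1] at h0
  simp only [trace_add, trace_smul, smul_eq_mul, h2, Complex.add_re] at h0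
  have e1 : ∀ z : ℂ, ((2 * r : ℂ) * z).re = 2 * r * z.re := by
    intro z
    rw [show (2 * r : ℂ) = ((2 * r : ℝ) : ℂ) by push_cast; ring, Complex.re_ofReal_mul]
  have e2 : ∀ z : ℂ, ((2 * r : ℂ) * (2 * r : ℂ) * z).re = (2 * r) ^ 2 * z.re := by
    intro z
    rw [show (2 * r : ℂ) * (2 * r : ℂ) = (((2 * r) ^ 2 : ℝ) : ℂ) by push_cast; ring,
      Complex.re_ofReal_mul]
  rw [e1, e1, e2] at h0
  rw [Matrix.add_mul, trace_add, Complex.add_re]
  linarith

end Vale.Agent.P371.Kin
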