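import Mathlib

/-!
# P371: definitions for the one-dimensional Lieb-Thirring constants

Vectors of `ℂ^m` are functions `Fin m → ℂ` and the inner product of `v` and `w` is
`star v ⬝ᵥ w = ∑ i, conj (v i) * w i`.
-/

open MeasureTheory Matrix
open scoped ENNReal ComplexOrder

namespace Vale.Agent.P371

/-- `f` is (the continuous representative of) an element of `H¹(ℝ; ℂ^m)` and `f'` is (a
representative of) its weak derivative: both are square integrable and `f` is the integral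
of `f'`. -/
structure IsH1 {m : ℕ} (f f' : ℝ → Fin m → ℂ) : Prop where
  memLp : MemLp f 2
  memLp_deriv : MemLp f' 2
  sub_eq : ∀ a b : ℝ, f b - f a = ∫ x in a..b, f' x

/-- The inner product of `L²(ℝ; ℂ^m)`. -/
noncomputable def ip {m : ℕ} (f g : ℝ → Fin m → ℂ) : ℂ := ∫ x, star (f x) ⬝ᵥ g x

/-- `tr (A^p)` for a Hermitian matrix `A` (functional calculus): the sum of the `p`-th powers of
the eigenvalues. -/
noncomputable def trPow {m : ℕ} (A : Matrix (Fin m) (Fin m) ℂ) (p : ℝ) : ℝ :=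
  open Classical in if hA : A.IsHermitian then ∑ i, hA.eigenvalues i ^ p else 0

/-- `∫ tr (W^p) dx`, as an extended nonnegative number. -/
noncomputable def intPow {m : ℕ} (W : ℝ → Matrix (Fin m) (Fin m) ℂ) (p : ℝ) : ℝ≥0∞ :=
  ∫⁻ x, ENNReal.ofReal (trPow (W x) p)

/-- The potentials of the problem, for the exponent `p = γ + 1/2`. -/
structure IsPotential {m : ℕ} (p : ℝ) (W : ℝ → Matrix (Fin m) (Fin m) ℂ) : Prop where
  measurable : ∀ i j, Measurable fun x => W x i j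
  posSemidef : ∀ x, (W x).PosSemidef
  finite : intPow W p < ∞

/-- `f` lies in the eigenspace of `H_W = -d²/dx² - W` for `lam`: `f ∈ H¹` and
`∫ ⟨φ', f'⟩ - ∫ ⟨φ, W f⟩ = lam ∫ ⟨φ, f⟩` for every `φ ∈ H¹`. -/
def IsEigen {m : ℕ} (W : ℝ → Matrix (Fin m) (Fin m) ℂ) (lam : ℝ) (f : ℝ → Fin m → ℂ) : Prop :=
  ∃ f', IsH1 f f' ∧ ∀ φ φ', IsH1 φ φ' → ip φ' f' - ip φ (fun x => W x *ᵥ f x) = lam * ip φ f

/-- `f₁, ..., f_N` are orthonormal in `L²(ℝ; ℂ^m)` and `f_j` is an eigenfunction of `H_W` for the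
negative eigenvalue `lam_j`. -/
structure IsNegSystem {m N : ℕ} (W : ℝ → Matrix (Fin m) (Fin m) ℂ) (lam : Fin N → ℝ)
    (f : Fin N → ℝ → Fin m → ℂ) : Prop where
  neg : ∀ j, lam j < 0
  eigen : ∀ j, IsEigen W (lam j) (f j)
  orthonormal : ∀ j k, ip (f j) (f k) = if j = k then 1 else 0

/-- `Tr (H_W)_-^γ = ∑ |lam_j|^γ`, the negative eigenvalues being counted with multiplicity: the
supremum of the sums over finite orthonormal systems of eigenfunctions. -/
noncomputable def negTrace {m : ℕ} (γ : ℝ) (W : ℝ → Matrix (Fin m) (Fin m) ℂ) : ℝ≥0∞ :=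
  ⨆ (N : ℕ) (lam : Fin N → ℝ) (f : Fin N → ℝ → Fin m → ℂ) (_ : IsNegSystem W lam f),
    ∑ j, ENNReal.ofReal (|lam j| ^ γ)

/-- `|lam_1|^γ` for the lowest eigenvalue `lam_1 < 0` (and `0` if there is none): the supremum of
`|lam|^γ` over the negative eigenvalues. -/
noncomputable def negLowest {m : ℕ} (γ : ℝ) (W : ℝ → Matrix (Fin m) (Fin m) ℂ) : ℝ≥0∞ :=
  ⨆ (lam : Fin 1 → ℝ) (f : Fin 1 → ℝ → Fin m → ℂ) (_ : IsNegSystem W lam f),
    ENNReal.ofReal (|lam 0| ^ γ)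

/-- The Lieb-Thirring constant `L_γ(m)`. -/
noncomputable def LT (γ : ℝ) (m : ℕ) : ℝ≥0∞ :=
  ⨆ (W : ℝ → Matrix (Fin m) (Fin m) ℂ) (_ : IsPotential (γ + 1 / 2) W)
    (_ : intPow W (γ + 1 / 2) ≠ 0), negTrace γ W / intPow W (γ + 1 / 2)

/-- The one-bound-state constant `L_γ^{(1)}`: scalar potentials, lowest eigenvalue only. -/
noncomputable def LTone (γ : ℝ) : ℝ≥0∞ :=
  ⨆ (W : ℝ → Matrix (Fin 1) (Fin 1) ℂ) (_ : IsPotential (γ + 1 / 2) W)
    (_ : intPow W (γ + 1 / 2) ≠ 0), negLowest γ W / intPow W (γ + 1 / 2)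

/-- The semiclassical constant `L_γ^cl`. -/
noncomputable def Lcl (γ : ℝ) : ℝ :=
  Real.Gamma (γ + 1) / (2 * √Real.pi * Real.Gamma (γ + 3 / 2))

end Vale.Agent.P371
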