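import Vale.Agent.P371.KinIneq

open MeasureTheory Matrix Filter Topology
open scoped ENNReal ComplexOrder

namespace Vale.Agent.P371

open Kin in
/-- The sharp kinetic inequality. -/
theorem kinFact (hMP : MPFact) : KinFact := by
  intro m N u u' hu hort
  set U : ℝ → Matrix (Fin m) (Fin N) ℂ := fun x => of fun i j => u j x i with hU
  set V : ℝ → Matrix (Fin m) (Fin N) ℂ := fun x => of fun i j => u' j x i with hV
  have hUc : ∀ i j, MemLp (fun x => u j x i) 2 := fun i j => (hu j).memLp.eval i
  have hVc : ∀ i j, MemLp (fun x => u' j x i) 2 := fun i j => (hu j).memLp_deriv.eval i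
  have hprod : ∀ f g : ℝ → ℂ, MemLp f 2 → MemLp g 2 → Integrable fun x => star (f x) * g x := by
    intro f g hf hg
    exact MemLp.integrable_mul (p := 2) (q := 2) hf.star hg
  have hloc : ∀ j, LocallyIntegrable (u' j) := fun j =>
    (hu j).memLp_deriv.locallyIntegrable (by norm_num)
  have hii : ∀ j a b, IntervalIntegrable (u' j) volume a b := fun j a b =>
    intervalIntegrable_iff.mpr
      (((hloc j).integrableOn_isCompact isCompact_uIcc).mono_set Set.uIoc_subset_uIcc)
  have hPeq : ∀ x j k, ((U x)ᴴ * U x) j k = star (u j x) ⬝ᵥ u k x := by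
    intro x j k
    rfl
  have hQeq : ∀ x j k, ((V x)ᴴ * V x) j k = star (u' j x) ⬝ᵥ u' k x := by
    intro x j k
    rfl
  have hPi : ∀ j k, Integrable fun x => star (u j x) ⬝ᵥ u k x := by
    intro j k
    simp only [dotProduct, Pi.star_apply]
    exact integrable_finsetSum _ fun i _ => hprod _ _ (hUc i j) (hUc i k)
  have hQi : ∀ j k, Integrable fun x => star (u' j x) ⬝ᵥ u' k x := by
    intro j k
    simp only [dotProduct, Pi.star_apply]
    exact integrable_finsetSum _ fun i _ => hprod _ _ (hVc i j) (hVc i k)
  have hdata : Data U V := by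
    refine ⟨?_, ?_, ?_, ?_, ?_⟩
    · intro i j
      exact (hVc i j).locallyIntegrable (by norm_num)
    · simp only [trace, diag_apply, hQeq]
      exact (integrable_finsetSum _ fun k _ => hQi k k).re
    · intro i j x y
      have h1 := congrFun ((hu j).sub_eq x y) i
      have h2 := (ContinuousLinearMap.proj (R := ℝ) (φ := fun _ : Fin m => ℂ)
        i).intervalIntegral_comp_comm (hii j x y)
      simp only [ContinuousLinearMap.proj_apply] at h2
      rw [Pi.sub_apply] at h1
      change u j y i - u j x i = ∫ t in x..y, u' j t i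
      rw [h1, h2]
    · intro j k
      exact hPi j k
    · intro j k
      exact hort j k
  have hres := kin_data hMP hdata
  have hd : ∀ x, ((dens u x) ^ 3).trace = ((Pm U x) ^ 3).trace := by
    intro x
    have h1 : dens u x = U x * (U x)ᴴ := by
      ext i k
      rw [dens, Matrix.sum_apply, mul_apply]
      rfl
    rw [h1, Pm, pow_succ, pow_two, pow_succ, pow_two]
    have h2 : (U x * (U x)ᴴ * (U x * (U x)ᴴ) * (U x * (U x)ᴴ)) =
        U x * ((U x)ᴴ * U x * ((U x)ᴴ * U x) * (U x)ᴴ) := by
      simp only [Matrix.mul_assoc]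
    rw [h2, trace_mul_comm]
    simp only [Matrix.mul_assoc]
  have hT : ∫ x, ((V x)ᴴ * V x).trace.re = ∑ j, (ip (u' j) (u' j)).re := by
    simp only [trace, diag_apply, hQeq, Complex.re_sum]
    have hQr : ∀ k, Integrable fun x => (star (u' k x) ⬝ᵥ u' k x).re := fun k => (hQi k k).re
    rw [integral_finsetSum _ fun k _ => hQr k]
    refine Finset.sum_congr rfl fun k _ => ?_
    exact integral_re (hQi k k)
  simp only [hd]
  rw [← hT]
  exact hres

end Vale.Agent.P371
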