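import Vale.Agent.P371.LowQ

/-!
# P371: module LOW, the lower bound at `γ = 1` from `W(x) = 3 sech²(2x)`
-/

open MeasureTheory Matrix Filter Topology
open scoped ENNReal ComplexOrder

namespace Vale.Agent.P371

/-! ### Integration by parts against `q'` -/

lemma low_intervalIntegrable {K : ℝ → ℝ} (hK : MemLp K 2) (a b : ℝ) :
    IntervalIntegrable K volume a b :=
  (hK.locallyIntegrable (by norm_num)).integrableOn_isCompact isCompact_uIcc
    |>.intervalIntegrable

lemma low_ibp_interval {K K' : ℝ → ℝ} (hK' : MemLp K' 2)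
    (hsub : ∀ a b : ℝ, K b - K a = ∫ x in a..b, K' x) (a b : ℝ) :
    ∫ x in a..b, (K' x * qd x + K x * (qf x - 3 * qf x ^ 5)) = K b * qd b - K a * qd a := by
  have hint : IntervalIntegrable K' volume a b := low_intervalIntegrable hK' a b
  have hKe : K = fun x => K a + ∫ t in a..x, K' t := by
    funext x
    rw [← hsub a x]; ring
  have hac0 : AbsolutelyContinuousOnInterval (fun x => ∫ t in a..x, K' t) a b :=
    hint.absolutelyContinuousOnInterval_intervalIntegral (by simp)
  have hconst : AbsolutelyContinuousOnInterval (fun _ : ℝ => K a) a b := by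
    have : LipschitzOnWith 0 (fun _ : ℝ => K a) (Set.uIcc a b) :=
      (LipschitzWith.const (K a)).lipschitzOnWith
    exact this.absolutelyContinuousOnInterval
  have hac : AbsolutelyContinuousOnInterval K a b := by
    rw [hKe]
    exact hconst.add hac0
  have hqd : AbsolutelyContinuousOnInterval qd a b := by
    have h1 : ContDiff ℝ 1 qd := by
      rw [contDiff_one_iff_deriv]
      refine ⟨fun x => (hasDerivAt_qd x).differentiableAt, ?_⟩
      have : deriv qd = fun x => qf x - 3 * qf x ^ 5 := by
        funext x; exact (hasDerivAt_qd x).deriv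
      rw [this]
      exact continuous_qdd
    exact h1.contDiffOn.absolutelyContinuousOnInterval
  rw [← hac.integral_deriv_mul_eq_sub hqd]
  apply intervalIntegral.integral_congr_ae
  filter_upwards [hint.ae_hasDerivAt_integral] with x hx hx2
  have h1 := (hx (Set.uIoc_subset_uIcc hx2) a (by simp)).const_add (K a)
  rw [← hKe] at h1
  rw [h1.deriv, (hasDerivAt_qd x).deriv]

lemma low_bound {K K' : ℝ → ℝ} (hK' : MemLp K' 2)
    (hsub : ∀ a b : ℝ, K b - K a = ∫ x in a..b, K' x) :
    ∃ C : ℝ, ∀ x, |K x| ≤ C + |x| := by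
  have hsq : Integrable fun x => K' x ^ 2 := hK'.integrable_sq
  refine ⟨|K 0| + ∫ x, K' x ^ 2, fun x => ?_⟩
  have h1 : |K x - K 0| ≤ |x| + ∫ x, K' x ^ 2 := by
    rw [hsub 0 x]
    have h2 : ‖∫ t in (0:ℝ)..x, K' t‖ ≤ |∫ t in (0:ℝ)..x, (1 + K' t ^ 2)| := by
      apply intervalIntegral.norm_integral_le_abs_of_norm_le
      · refine Eventually.of_forall fun t => ?_
        rw [Real.norm_eq_abs]
        nlinarith [sq_nonneg (|K' t| - 1), sq_abs (K' t), abs_nonneg (K' t)]
      · exact _root_.intervalIntegrable_const.add hsq.intervalIntegrable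
    rw [Real.norm_eq_abs] at h2
    refine h2.trans ?_
    rw [intervalIntegral.integral_add _root_.intervalIntegrable_const
      hsq.intervalIntegrable]
    simp only [intervalIntegral.integral_const, sub_zero, smul_eq_mul, mul_one]
    refine (abs_add_le _ _).trans ?_
    gcongr
    rw [intervalIntegral.abs_integral_eq_abs_integral_uIoc, abs_of_nonneg
      (setIntegral_nonneg measurableSet_uIoc fun t _ => sq_nonneg _)]
    exact setIntegral_le_integral hsq (Eventually.of_forall fun t => sq_nonneg _)
  have h3 := abs_sub_abs_le_abs_sub (K x) (K 0)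
  linarith

/-- Weak form of `q'' = q - 3 q⁵` against a real `H¹` function. -/
lemma low_weak_real {K K' : ℝ → ℝ} (hK : MemLp K 2) (hK' : MemLp K' 2)
    (hsub : ∀ a b : ℝ, K b - K a = ∫ x in a..b, K' x) :
    Integrable (fun x => K' x * qd x + K x * (qf x - 3 * qf x ^ 5)) ∧
    ∫ x, (K' x * qd x + K x * (qf x - 3 * qf x ^ 5)) = 0 := by
  have hint : Integrable (fun x => K' x * qd x + K x * (qf x - 3 * qf x ^ 5)) :=
    (hK'.integrable_mul memLp_qd).add (hK.integrable_mul memLp_qdd)
  refine ⟨hint, ?_⟩
  have h1 := intervalIntegral_tendsto_integral hint tendsto_neg_atTop_atBot tendsto_id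
    (l := atTop)
  obtain ⟨C, hC⟩ := low_bound hK' hsub
  have h2 : Tendsto (fun r : ℝ => K r * qd r) atTop (𝓝 0) := by
    refine squeeze_zero_norm (fun x => ?_) (tendsto_lin_mul_qd C atTop tendsto_abs_atTop_atTop)
    rw [norm_mul, Real.norm_eq_abs, Real.norm_eq_abs]
    exact mul_le_mul_of_nonneg_right (hC x) (abs_nonneg _)
  have h3 : Tendsto (fun r : ℝ => K (-r) * qd (-r)) atTop (𝓝 0) := by
    have : Tendsto (fun r : ℝ => K r * qd r) atBot (𝓝 0) := by
      refine squeeze_zero_norm (fun x => ?_) (tendsto_lin_mul_qd C atBot tendsto_abs_atBot_atTop)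
      rw [norm_mul, Real.norm_eq_abs, Real.norm_eq_abs]
      exact mul_le_mul_of_nonneg_right (hC x) (abs_nonneg _)
    exact this.comp tendsto_neg_atTop_atBot
  have h4 := h2.sub h3
  rw [sub_zero] at h4
  refine tendsto_nhds_unique h1 (h4.congr fun r => ?_)
  rw [low_ibp_interval hK' hsub]
  simp

/-- Weak form of `q'' = q - 3 q⁵` against a complex `H¹` function. -/
lemma low_weak_complex {k k' : ℝ → ℂ} (hk : MemLp k 2) (hk' : MemLp k' 2)
    (hsub : ∀ a b : ℝ, k b - k a = ∫ x in a..b, k' x) :
    ∫ x, (k' x * (qd x : ℂ) + k x * ((qf x - 3 * qf x ^ 5 : ℝ) : ℂ)) = 0 := by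
  have hint1 : Integrable (fun x => k' x * (qd x : ℂ)) := hk'.integrable_mul memLp_qd.ofReal
  have hint2 : Integrable (fun x => k x * ((qf x - 3 * qf x ^ 5 : ℝ) : ℂ)) :=
    hk.integrable_mul memLp_qdd.ofReal
  have hint := hint1.add hint2
  have hii : ∀ a b : ℝ, IntervalIntegrable k' volume a b := fun a b =>
    (hk'.locallyIntegrable (by norm_num)).integrableOn_isCompact isCompact_uIcc
      |>.intervalIntegrable
  have hre := (low_weak_real (K := fun x => (k x).re) (K' := fun x => (k' x).re) hk.re hk'.re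
    (fun a b => by
      have := congrArg Complex.re (hsub a b)
      rw [Complex.sub_re] at this
      rw [this]
      exact (Complex.reCLM.intervalIntegral_comp_comm (hii a b)).symm)).2
  have him := (low_weak_real (K := fun x => (k x).im) (K' := fun x => (k' x).im) hk.im hk'.im
    (fun a b => by
      have := congrArg Complex.im (hsub a b)
      rw [Complex.sub_im] at this
      rw [this]
      exact (Complex.imCLM.intervalIntegral_comp_comm (hii a b)).symm)).2
  apply Complex.ext
  · rw [Complex.zero_re, ← hre]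
    have := Complex.reCLM.integral_comp_comm hint
    simp only [Complex.reCLM_apply, Pi.add_apply] at this
    rw [← this]
    congr 1
    funext x
    simp [-Complex.ofReal_sub, -Complex.ofReal_mul, -Complex.ofReal_pow]
  · rw [Complex.zero_im, ← him]
    have := Complex.imCLM.integral_comp_comm hint
    simp only [Complex.imCLM_apply, Pi.add_apply] at this
    rw [← this]
    congr 1
    funext x
    simp [-Complex.ofReal_sub, -Complex.ofReal_mul, -Complex.ofReal_pow]

/-! ### Traces of powers of diagonal matrices -/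

lemma isHermitian_diag_real {m : ℕ} (d : Fin m → ℝ) :
    (Matrix.diagonal fun i => (d i : ℂ)).IsHermitian := by
  rw [Matrix.isHermitian_diagonal_iff]
  intro i
  simp [isSelfAdjoint_iff]

lemma trPow_diagonal {m : ℕ} (d : Fin m → ℝ) (p : ℝ) :
    trPow (Matrix.diagonal fun i => (d i : ℂ)) p = ∑ i, d i ^ p := by
  have hA := isHermitian_diag_real d
  have h1 := hA.roots_charpoly_eq_eigenvalues
  have h0 : (∏ i, (Polynomial.X - Polynomial.C ((d i : ℝ) : ℂ))).roots
      = Multiset.map (fun i => ((d i : ℝ) : ℂ)) Finset.univ.val := by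
    have h2 : (∏ i, (Polynomial.X - Polynomial.C ((d i : ℝ) : ℂ)))
        = ((Finset.univ.val.map fun i => ((d i : ℝ) : ℂ)).map
            fun a => Polynomial.X - Polynomial.C a).prod := by
      rw [Multiset.map_map]
      rfl
    rw [h2, Polynomial.roots_multiset_prod_X_sub_C]
  rw [Matrix.charpoly_diagonal, h0] at h1
  have h3 := congrArg (fun s : Multiset ℂ => (s.map fun z => z.re ^ p).sum) h1
  simp only [Multiset.map_map, Function.comp_def] at h3
  unfold trPow
  rw [dif_pos hA]
  change (Multiset.map (fun i => hA.eigenvalues i ^ p) Finset.univ.val).sum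
    = (Multiset.map (fun i => d i ^ p) Finset.univ.val).sum
  simpa using h3.symm

/-! ### The test potential -/

section
variable {m : ℕ} [NeZero m]

/-- The diagonal of the potential `3 sech²(2x) E₀₀`. -/
noncomputable def lowD (m : ℕ) [NeZero m] (x : ℝ) (i : Fin m) : ℝ :=
  if i = 0 then 3 * qf x ^ 4 else 0

/-- The potential `3 sech²(2x) E₀₀`. -/
noncomputable def lowW (m : ℕ) [NeZero m] (x : ℝ) : Matrix (Fin m) (Fin m) ℂ :=
  Matrix.diagonal fun i => (lowD m x i : ℂ)

/-- Scalar functions in the first coordinate. -/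
noncomputable def lowE (m : ℕ) [NeZero m] (g : ℝ → ℝ) (x : ℝ) (i : Fin m) : ℂ :=
  if i = 0 then (g x : ℂ) else 0

lemma trPow_lowW (x : ℝ) : trPow (lowW m x) (1 + 1 / 2) = 3 * √3 * qf x ^ 6 := by
  unfold lowW
  rw [trPow_diagonal]
  have h : ∀ i : Fin m, lowD m x i ^ ((1 : ℝ) + 1 / 2) =
      if i = 0 then 3 * √3 * qf x ^ 6 else 0 := by
    intro i
    unfold lowD
    split_ifs
    · have hq := qf_pos x
      rw [Real.rpow_add (by positivity), Real.rpow_one, ← Real.sqrt_eq_rpow,
        Real.sqrt_mul (by norm_num), show qf x ^ 4 = (qf x ^ 2) ^ 2 by ring,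
        Real.sqrt_sq (by positivity)]
      ring
    · rw [Real.zero_rpow (by norm_num)]
  simp_rw [h]
  simp

lemma intPow_lowW : intPow (lowW m) (1 + 1 / 2) = ENNReal.ofReal (3 * √3 * (Real.pi / 4)) := by
  unfold intPow
  simp_rw [trPow_lowW]
  rw [← ofReal_integral_eq_lintegral_ofReal (integrable_qf_six.const_mul _)
    (Eventually.of_forall fun x => by have := qf_pos x; positivity), integral_const_mul,
    integral_qf_six]

lemma lowW_potential : IsPotential (1 + 1 / 2) (lowW m) where
  measurable i j := by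
    unfold lowW lowD
    by_cases h : i = j
    · subst h
      simp only [Matrix.diagonal_apply_eq]
      by_cases h0 : i = 0
      · simp only [h0, if_true]
        exact (Complex.continuous_ofReal.comp (by have := continuous_qf; fun_prop)).measurable
      · simp [h0]
    · simp [Matrix.diagonal_apply_ne _ h]
  posSemidef x := by
    unfold lowW lowD
    rw [Matrix.posSemidef_diagonal_iff]
    intro i
    have := qf_pos x
    split_ifs
    · exact_mod_cast (by positivity : (0 : ℝ) ≤ 3 * qf x ^ 4)
    · simp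
  finite := by
    rw [intPow_lowW]
    exact ENNReal.ofReal_lt_top

lemma lowE_memLp {g : ℝ → ℝ} (hg : MemLp g 2) : MemLp (lowE m g) 2 := by
  rw [memLp_pi_iff]
  intro i
  unfold lowE
  by_cases h : i = 0
  · simp only [h, if_true]
    exact hg.ofReal
  · simp [h]

lemma lowE_isH1 (c : ℝ) :
    IsH1 (lowE m fun x => c * qf x) (lowE m fun x => c * qd x) where
  memLp := lowE_memLp (memLp_qf.const_mul c)
  memLp_deriv := lowE_memLp (memLp_qd.const_mul c)
  sub_eq a b := by
    have h : ∀ x, HasDerivAt (lowE m fun x => c * qf x) (lowE m (fun x => c * qd x) x) x := by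
      intro x
      rw [hasDerivAt_pi]
      intro i
      unfold lowE
      by_cases h : i = 0
      · simp only [h, if_true]
        exact ((hasDerivAt_qf x).const_mul c).ofReal_comp
      · simp [h, hasDerivAt_const]
    rw [intervalIntegral.integral_eq_sub_of_hasDerivAt (fun x _ => h x)]
    apply Continuous.intervalIntegrable
    rw [continuous_pi_iff]
    intro i
    unfold lowE
    by_cases h : i = 0
    · simp only [h, if_true]
      exact Complex.continuous_ofReal.comp (continuous_const.mul continuous_qd)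
    · simp [h, continuous_const]

lemma ip_lowE (φ : ℝ → Fin m → ℂ) (g : ℝ → ℝ) :
    ip φ (lowE m g) = ∫ x, star (φ x 0) * (g x : ℂ) := by
  unfold ip
  congr 1
  funext x
  unfold lowE dotProduct
  simp

lemma lowW_mulVec (g : ℝ → ℝ) (x : ℝ) :
    lowW m x *ᵥ lowE m g x = lowE m (fun x => 3 * qf x ^ 4 * g x) x := by
  funext i
  unfold lowW lowE lowD
  rw [Matrix.mulVec_diagonal]
  by_cases h : i = 0
  · simp [h]
  · simp [h]

lemma low_isEigen (c : ℝ) : IsEigen (lowW m) (-1) (lowE m fun x => c * qf x) := by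
  refine ⟨lowE m fun x => c * qd x, lowE_isH1 c, fun φ φ' hφ => ?_⟩
  simp_rw [lowW_mulVec]
  rw [ip_lowE, ip_lowE, ip_lowE]
  have h0 : MemLp (fun x => star (φ x 0)) 2 := ((memLp_pi_iff.1 hφ.memLp) 0).star
  have h1 : MemLp (fun x => star (φ' x 0)) 2 := ((memLp_pi_iff.1 hφ.memLp_deriv) 0).star
  have hsub : ∀ a b : ℝ, star (φ b 0) - star (φ a 0) = ∫ x in a..b, star (φ' x 0) := by
    intro a b
    have h := congrFun (hφ.sub_eq a b) 0
    rw [Pi.sub_apply] at h
    have hii : IntervalIntegrable φ' volume a b :=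
      (hφ.memLp_deriv.locallyIntegrable (by norm_num)).integrableOn_isCompact isCompact_uIcc
        |>.intervalIntegrable
    have h2 := (ContinuousLinearMap.proj (R := ℝ) (φ := fun _ : Fin m => ℂ) 0).intervalIntegral_comp_comm
      hii
    simp only [ContinuousLinearMap.proj_apply] at h2
    rw [← h2] at h
    rw [← star_sub, h]
    have hii0 : IntervalIntegrable (fun x => φ' x 0) volume a b :=
      (((memLp_pi_iff.1 hφ.memLp_deriv) 0).locallyIntegrable (by norm_num)).integrableOn_isCompact
        isCompact_uIcc |>.intervalIntegrable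
    exact (Complex.conjCLE.toContinuousLinearMap.intervalIntegral_comp_comm hii0).symm
  have hw := low_weak_complex h0 h1 hsub
  have i1 : Integrable (fun x => star (φ' x 0) * ((c * qd x : ℝ) : ℂ)) :=
    h1.integrable_mul (memLp_qd.const_mul c).ofReal
  have hq5 : MemLp (fun x => 3 * qf x ^ 5) 2 := by
    have := memLp_qf.sub memLp_qdd
    refine this.congr_norm ?_ ?_
    · have := continuous_qf
      exact (by fun_prop : Continuous fun x => 3 * qf x ^ 5).aestronglyMeasurable
    · refine Eventually.of_forall fun x => ?_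
      simp only [Pi.sub_apply]
      congr 1
      ring
  have i2 : Integrable (fun x => star (φ x 0) * ((3 * qf x ^ 4 * (c * qf x) : ℝ) : ℂ)) := by
    have := h0.integrable_mul (hq5.const_mul c).ofReal
    refine this.congr (Eventually.of_forall fun x => ?_)
    simp only [Pi.mul_apply]
    rw [show 3 * qf x ^ 4 * (c * qf x) = c * (3 * qf x ^ 5) by ring]
    rfl
  have i3 : Integrable (fun x => star (φ x 0) * ((c * qf x : ℝ) : ℂ)) :=
    h0.integrable_mul (memLp_qf.const_mul c).ofReal
  have i12 : Integrable (fun x => star (φ' x 0) * ((c * qd x : ℝ) : ℂ)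
      - star (φ x 0) * ((3 * qf x ^ 4 * (c * qf x) : ℝ) : ℂ)) := i1.sub i2
  rw [← integral_sub i1 i2, ← integral_const_mul, ← sub_eq_zero, ← integral_sub i12
    (i3.const_mul _)]
  have : ∀ x, (star (φ' x 0) * ((c * qd x : ℝ) : ℂ)
      - star (φ x 0) * ((3 * qf x ^ 4 * (c * qf x) : ℝ) : ℂ))
      - ((-1 : ℝ) : ℂ) * (star (φ x 0) * ((c * qf x : ℝ) : ℂ))
      = (c : ℂ) * (star (φ' x 0) * (qd x : ℂ)
        + star (φ x 0) * ((qf x - 3 * qf x ^ 5 : ℝ) : ℂ)) := by
    intro x
    push_cast
    ring
  simp_rw [this]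
  rw [integral_const_mul, hw, mul_zero]

lemma low_norm : ip (lowE m fun x => √(2 / Real.pi) * qf x)
    (lowE m fun x => √(2 / Real.pi) * qf x) = 1 := by
  rw [ip_lowE]
  have : ∀ x, star (lowE m (fun x => √(2 / Real.pi) * qf x) x 0)
      * ((√(2 / Real.pi) * qf x : ℝ) : ℂ) = ((2 / Real.pi * qf x ^ 2 : ℝ) : ℂ) := by
    intro x
    unfold lowE
    simp only [if_true]
    rw [← Complex.conj_ofReal (√(2 / Real.pi) * qf x)]
    simp only [RCLike.star_def, Complex.conj_ofReal]
    rw [← Complex.ofReal_mul]
    congr 1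
    have h := Real.sq_sqrt (show (0:ℝ) ≤ 2 / Real.pi by positivity)
    calc √(2 / Real.pi) * qf x * (√(2 / Real.pi) * qf x)
        = √(2 / Real.pi) ^ 2 * qf x ^ 2 := by ring
      _ = _ := by rw [h]
  simp_rw [this]
  rw [integral_complex_ofReal, integral_const_mul, integral_qf_sq]
  have : (2 / Real.pi * (Real.pi / 2) : ℝ) = 1 := by
    have := Real.pi_pos
    field_simp
  rw [this, Complex.ofReal_one]

lemma low_system : IsNegSystem (N := 1) (lowW m) (fun _ => -1)
    (fun _ => lowE m fun x => √(2 / Real.pi) * qf x) where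
  neg _ := by norm_num
  eigen _ := low_isEigen _
  orthonormal j k := by
    rw [Subsingleton.elim j k, if_pos rfl]
    exact low_norm

lemma low_quot : ENNReal.ofReal (4 / (3 * √3 * Real.pi))
    = ENNReal.ofReal (|(-1 : ℝ)| ^ (1 : ℝ)) / intPow (lowW m) (1 + 1 / 2) := by
  have hp : 0 < 3 * √3 * (Real.pi / 4) := by positivity
  rw [intPow_lowW, ← ENNReal.ofReal_div_of_pos hp]
  congr 1
  rw [abs_neg, abs_one, Real.rpow_one]
  field_simp

lemma intPow_lowW_ne : intPow (lowW m) (1 + 1 / 2) ≠ 0 := by
  rw [intPow_lowW]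
  have hp : 0 < 3 * √3 * (Real.pi / 4) := by positivity
  simpa using hp

lemma low_le_LT : ENNReal.ofReal (4 / (3 * √3 * Real.pi)) ≤ LT 1 m := by
  unfold LT
  refine le_iSup_of_le (lowW m) (le_iSup_of_le lowW_potential (le_iSup_of_le intPow_lowW_ne ?_))
  rw [low_quot (m := m)]
  gcongr
  unfold negTrace
  refine le_iSup_of_le 1 (le_iSup_of_le (fun _ => -1) (le_iSup_of_le _
    (le_iSup_of_le low_system ?_)))
  simp

end

lemma low_le_LTone : ENNReal.ofReal (4 / (3 * √3 * Real.pi)) ≤ LTone 1 := by
  unfold LTone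
  refine le_iSup_of_le (lowW 1) (le_iSup_of_le lowW_potential (le_iSup_of_le intPow_lowW_ne ?_))
  rw [low_quot (m := 1)]
  gcongr
  unfold negLowest
  refine le_iSup_of_le (fun _ => -1) (le_iSup_of_le _ (le_iSup_of_le low_system ?_))
  simp

/-- The one-bound-state constant is at most the scalar constant. -/
theorem LTone_le_LT (γ : ℝ) : LTone γ ≤ LT γ 1 := by
  unfold LTone LT
  refine iSup_mono fun W => iSup_mono fun hW => iSup_mono fun h0 => ?_
  gcongr
  unfold negLowest negTrace
  refine iSup_le fun lam => iSup_le fun f => iSup_le fun hf => ?_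
  refine le_iSup_of_le 1 (le_iSup_of_le lam (le_iSup_of_le f (le_iSup_of_le hf ?_)))
  simp

theorem lowFact : LowFact := by
  refine ⟨fun m hm => ?_, low_le_LTone⟩
  have : NeZero m := ⟨by omega⟩
  exact low_le_LT

end Vale.Agent.P371
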