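import Vale.Agent.P371.Defs

/-!
# P371: the statements of the modules (proved in the other files)
-/

open MeasureTheory Matrix
open scoped ENNReal ComplexOrder

namespace Vale.Agent.P371

/-- The density matrix `R(x) = ∑ⱼ uⱼ(x) uⱼ(x)^*`. -/
noncomputable def dens {m N : ℕ} (u : Fin N → ℝ → Fin m → ℂ) (x : ℝ) :
    Matrix (Fin m) (Fin m) ℂ :=
  ∑ j, vecMulVec (u j x) (star (u j x))

/-- Module MP (matrix positivity). -/
def MPFact : Prop :=
  ∀ (N : ℕ) (α : Fin N → ℝ) (P : Matrix (Fin N) (Fin N) ℂ), (∀ i, |α i| < Real.pi / 2) →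
    P.PosSemidef →
    0 ≤ (∑ i, ∑ j, ∑ k, P j i * P i k * P k j *
      (((Real.sinc ((α i - α k) / 2) - Real.cos ((α i - α k) / 2)) /
        (Real.cos ((α i + α j) / 2) * Real.cos ((α k + α j) / 2)) : ℝ) : ℂ)).re

/-- Module KIN (sharp kinetic inequality). -/
def KinFact : Prop :=
  ∀ (m N : ℕ) (u u' : Fin N → ℝ → Fin m → ℂ), (∀ j, IsH1 (u j) (u' j)) →
    (∀ j k, ip (u j) (u k) = if j = k then 1 else 0) →
    Integrable (fun x => ((dens u x) ^ 3).trace.re) ∧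
      Real.pi ^ 2 / 4 * ∫ x, ((dens u x) ^ 3).trace.re ≤ ∑ j, (ip (u' j) (u' j)).re

/-- Module UP (upper bound from the kinetic inequality). -/
def UpFact : Prop :=
  KinFact → ∀ m : ℕ, LT 1 m ≤ ENNReal.ofReal (4 / (3 * √3 * Real.pi))

/-- Module UPG (the lifted bound, for the second hand-in). -/
def UpGenFact : Prop :=
  KinFact → ∀ (m : ℕ) (γ : ℝ), 1 ≤ γ → LT γ m ≤ ENNReal.ofReal (2 / √3 * Lcl γ)

/-- Module LOW (lower bound from `W(x) = 3 sech²(2x)`, `u(x) = (cosh 2x)^(-1/2)`). -/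
def LowFact : Prop :=
  (∀ m : ℕ, 1 ≤ m → ENNReal.ofReal (4 / (3 * √3 * Real.pi)) ≤ LT 1 m) ∧
    ENNReal.ofReal (4 / (3 * √3 * Real.pi)) ≤ LTone 1

end Vale.Agent.P371
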