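import Mathlib
import Vale.Agent.P371.Iface

open MeasureTheory Matrix
open scoped ENNReal ComplexOrder ComplexConjugate

namespace Vale.Agent.P371

variable {m N : ℕ}

theorem spec_decomp {W : Matrix (Fin m) (Fin m) ℂ} (hA : W.IsHermitian) :
    W = (hA.eigenvectorUnitary : Matrix (Fin m) (Fin m) ℂ) *
      diagonal (fun i => (hA.eigenvalues i : ℂ)) *
      star (hA.eigenvectorUnitary : Matrix (Fin m) (Fin m) ℂ) := by
  have h := hA.spectral_theorem
  rw [Unitary.conjStarAlgAut_apply] at h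
  exact h

theorem unit_star_mul {W : Matrix (Fin m) (Fin m) ℂ} (hA : W.IsHermitian) :
    star (hA.eigenvectorUnitary : Matrix (Fin m) (Fin m) ℂ) *
      (hA.eigenvectorUnitary : Matrix (Fin m) (Fin m) ℂ) = 1 :=
  Unitary.coe_star_mul_self _

theorem unit_mul_star {W : Matrix (Fin m) (Fin m) ℂ} (hA : W.IsHermitian) :
    (hA.eigenvectorUnitary : Matrix (Fin m) (Fin m) ℂ) *
      star (hA.eigenvectorUnitary : Matrix (Fin m) (Fin m) ℂ) = 1 :=
  Unitary.coe_mul_star_self _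

theorem cube_psd {R : Matrix (Fin m) (Fin m) ℂ} (hR : R.PosSemidef) {s : ℝ} (hs : 0 ≤ s) :
    (R ^ 3 - ((3 * s ^ 2 : ℝ) : ℂ) • R + ((2 * s ^ 3 : ℝ) : ℂ) • (1 : Matrix (Fin m) (Fin m) ℂ)).PosSemidef := by
  have h1 : (R + ((2 * s : ℝ) : ℂ) • (1 : Matrix (Fin m) (Fin m) ℂ)).PosSemidef :=
    hR.add (PosSemidef.one.smul (by
      rw [Complex.zero_le_real]
      positivity))
  have h2 := h1.conjTranspose_mul_mul_same (R - ((s : ℝ) : ℂ) • (1 : Matrix (Fin m) (Fin m) ℂ))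
  have h3 : (R - ((s : ℝ) : ℂ) • (1 : Matrix (Fin m) (Fin m) ℂ))ᴴ =
      R - ((s : ℝ) : ℂ) • (1 : Matrix (Fin m) (Fin m) ℂ) := by
    rw [conjTranspose_sub, hR.1.eq, conjTranspose_smul, conjTranspose_one]
    simp
  rw [h3] at h2
  convert h2 using 1
  simp only [sub_mul, mul_sub, mul_add, add_mul, smul_mul_assoc, mul_smul_comm, mul_one, one_mul,
    smul_sub, smul_add, smul_smul, pow_succ, pow_zero]
  push_cast
  module

theorem diag_ineq {R : Matrix (Fin m) (Fin m) ℂ} (hR : R.PosSemidef)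
    {V : Matrix (Fin m) (Fin m) ℂ} (hV : star V * V = 1) {s : ℝ} (hs : 0 ≤ s) (k : Fin m) :
    0 ≤ ((star V * R ^ 3 * V) k k).re - 3 * s ^ 2 * ((star V * R * V) k k).re + 2 * s ^ 3 := by
  have h1 := (cube_psd hR hs).conjTranspose_mul_mul_same V
  have h2 := (Complex.le_def.1 (h1.diag_nonneg (i := k))).1
  have h3 : Vᴴ * (R ^ 3 - ((3 * s ^ 2 : ℝ) : ℂ) • R +
      ((2 * s ^ 3 : ℝ) : ℂ) • (1 : Matrix (Fin m) (Fin m) ℂ)) * V =
      star V * R ^ 3 * V - ((3 * s ^ 2 : ℝ) : ℂ) • (star V * R * V) +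
      ((2 * s ^ 3 : ℝ) : ℂ) • (1 : Matrix (Fin m) (Fin m) ℂ) := by
    rw [star_eq_conjTranspose] at hV ⊢
    simp only [sub_mul, mul_sub, mul_add, add_mul, smul_mul_assoc, mul_smul_comm, mul_one, hV]
  rw [h3] at h2
  simp only [Matrix.add_apply, Matrix.sub_apply, Matrix.smul_apply, Matrix.one_apply_eq, smul_eq_mul, mul_one, Complex.zero_re,
    Complex.add_re, Complex.sub_re, Complex.re_ofReal_mul, Complex.ofReal_re] at h2
  exact h2

theorem sum_diag_conj {V M : Matrix (Fin m) (Fin m) ℂ} (hV : V * star V = 1) :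
    ∑ k, (star V * M * V) k k = M.trace := by
  have h1 : (star V * M * V).trace = M.trace := by
    rw [Matrix.trace_mul_comm, ← Matrix.mul_assoc, hV, Matrix.one_mul]
  rw [← h1]
  rfl

theorem quad_decomp {W : Matrix (Fin m) (Fin m) ℂ} (hA : W.IsHermitian) (f : Fin m → ℂ) :
    (star f ⬝ᵥ (W *ᵥ f)).re = ∑ k, hA.eigenvalues k *
      ‖(star (hA.eigenvectorUnitary : Matrix (Fin m) (Fin m) ℂ) *ᵥ f) k‖ ^ 2 := by
  set V : Matrix (Fin m) (Fin m) ℂ := (hA.eigenvectorUnitary : Matrix (Fin m) (Fin m) ℂ) with hV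
  have h1 : star f ⬝ᵥ (W *ᵥ f) = star (star V *ᵥ f) ⬝ᵥ
      (diagonal (fun i => (hA.eigenvalues i : ℂ)) *ᵥ (star V *ᵥ f)) := by
    conv_lhs => rw [spec_decomp hA]
    rw [← hV, Matrix.mul_assoc, ← mulVec_mulVec, ← mulVec_mulVec, dotProduct_mulVec,
      star_mulVec, star_eq_conjTranspose, conjTranspose_conjTranspose]
  rw [h1]
  simp only [dotProduct, mulVec_diagonal, Pi.star_apply, Complex.re_sum]
  refine Finset.sum_congr rfl fun k _ => ?_
  have h2 : star ((star V *ᵥ f) k) * ((hA.eigenvalues k : ℂ) * (star V *ᵥ f) k) =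
      ((hA.eigenvalues k * ‖(star V *ᵥ f) k‖ ^ 2 : ℝ) : ℂ) := by
    rw [Complex.ofReal_mul, ← Complex.normSq_eq_norm_sq, Complex.normSq_eq_conj_mul_self]
    simp only [RCLike.star_def]
    ring
  rw [h2, Complex.ofReal_re]

theorem quad_self {V : Matrix (Fin m) (Fin m) ℂ} (hV : V * star V = 1) (f : Fin m → ℂ) :
    (star f ⬝ᵥ f).re = ∑ k, ‖(star V *ᵥ f) k‖ ^ 2 := by
  have h1 : star f ⬝ᵥ f = star (star V *ᵥ f) ⬝ᵥ (star V *ᵥ f) := by
    rw [star_mulVec, star_eq_conjTranspose, conjTranspose_conjTranspose, ← dotProduct_mulVec,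
      mulVec_mulVec, ← star_eq_conjTranspose, hV, one_mulVec]
  rw [h1]
  simp only [dotProduct, Pi.star_apply, Complex.re_sum]
  refine Finset.sum_congr rfl fun k _ => ?_
  have h2 : star ((star V *ᵥ f) k) * (star V *ᵥ f) k = ((‖(star V *ᵥ f) k‖ ^ 2 : ℝ) : ℂ) := by
    rw [← Complex.normSq_eq_norm_sq, Complex.normSq_eq_conj_mul_self]
    rfl
  rw [h2, Complex.ofReal_re]

theorem dens_diag (u : Fin N → ℝ → Fin m → ℂ) (x : ℝ) (V : Matrix (Fin m) (Fin m) ℂ) (k : Fin m) :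
    ((star V * dens u x * V) k k).re = ∑ j, ‖(star V *ᵥ u j x) k‖ ^ 2 := by
  have h1 : star V * dens u x * V = ∑ j, vecMulVec (star V *ᵥ u j x) (star (star V *ᵥ u j x)) := by
    unfold dens
    rw [Finset.mul_sum, Finset.sum_mul]
    refine Finset.sum_congr rfl fun j _ => ?_
    rw [mul_vecMulVec, vecMulVec_mul, star_mulVec, star_eq_conjTranspose,
      conjTranspose_conjTranspose]
  rw [h1, Matrix.sum_apply, Complex.re_sum]
  refine Finset.sum_congr rfl fun j _ => ?_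
  rw [vecMulVec_apply, Pi.star_apply]
  have h2 : (star V *ᵥ u j x) k * star ((star V *ᵥ u j x) k) =
      ((‖(star V *ᵥ u j x) k‖ ^ 2 : ℝ) : ℂ) := by
    rw [← Complex.normSq_eq_norm_sq, Complex.normSq_eq_conj_mul_self, mul_comm]
    rfl
  rw [h2, Complex.ofReal_re]

theorem dens_psd (u : Fin N → ℝ → Fin m → ℂ) (x : ℝ) : (dens u x).PosSemidef :=
  posSemidef_sum _ fun _ _ => posSemidef_vecMulVec_self_star _

noncomputable def LL : ℝ := 4 / (3 * √3 * Real.pi)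

theorem LL_pos : 0 < LL := by
  unfold LL
  positivity

theorem young_term {w : ℝ} (hw : 0 ≤ w) :
    ∃ s : ℝ, 0 ≤ s ∧ Real.pi ^ 2 / 4 * (3 * s ^ 2) = w ∧
      Real.pi ^ 2 / 4 * (2 * s ^ 3) = LL * w ^ (3 / 2 : ℝ) := by
  have hpi := Real.pi_pos
  have h3 : (0 : ℝ) < √3 := by positivity
  have h33 : √3 ^ 2 = (3 : ℝ) := Real.sq_sqrt (by norm_num)
  refine ⟨2 / (√3 * Real.pi) * √w, by positivity, ?_, ?_⟩
  · rw [mul_pow, Real.sq_sqrt hw, div_pow, mul_pow, h33]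
    field_simp
    norm_num
  · have h1 : w ^ (3 / 2 : ℝ) = √w ^ 3 := by
      rw [Real.sqrt_eq_rpow, ← Real.rpow_natCast, ← Real.rpow_mul hw]
      norm_num
    rw [h1]
    unfold LL
    have h4 : √3 ^ 3 = 3 * √3 := by
      rw [pow_succ, h33]
    rw [mul_pow, div_pow, mul_pow, h4]
    field_simp
    norm_num

theorem young_sum (u : Fin N → ℝ → Fin m → ℂ) (x : ℝ) {V : Matrix (Fin m) (Fin m) ℂ}
    (hV : star V * V = 1) (hV' : V * star V = 1) (w : Fin m → ℝ) (hw : ∀ k, 0 ≤ w k) :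
    ∑ k, w k * ∑ j, ‖(star V *ᵥ u j x) k‖ ^ 2 ≤
      Real.pi ^ 2 / 4 * ((dens u x) ^ 3).trace.re + LL * ∑ k, w k ^ (3 / 2 : ℝ) := by
  choose s hs0 hs1 hs2 using fun k => young_term (hw k)
  have h1 : ((dens u x) ^ 3).trace.re = ∑ k, ((star V * (dens u x) ^ 3 * V) k k).re := by
    rw [← sum_diag_conj hV', Complex.re_sum]
  rw [h1, Finset.mul_sum, Finset.mul_sum, ← Finset.sum_add_distrib]
  refine Finset.sum_le_sum fun k _ => ?_
  have h2 := diag_ineq (dens_psd u x) hV (hs0 k) k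
  rw [dens_diag] at h2
  have h3 := mul_le_mul_of_nonneg_left h2 (by positivity : 0 ≤ Real.pi ^ 2 / 4)
  rw [← hs2 k]
  conv_lhs => rw [← hs1 k]
  linarith

end Vale.Agent.P371
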