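import Mathlib
import Vale.Agent.P371.MatYoung

open MeasureTheory Matrix
open scoped ENNReal ComplexOrder ComplexConjugate

namespace Vale.Agent.P371

variable {m N : ℕ}

theorem ofReal_integral_le (f : ℝ → ℝ) :
    ENNReal.ofReal (∫ x, f x) ≤ ∫⁻ x, ENNReal.ofReal (f x) := by
  by_cases hf : Integrable f
  · have h1 : ∫ x, f x ≤ ∫ x, max (f x) 0 := integral_mono hf hf.pos_part fun x => le_max_left _ _
    refine (ENNReal.ofReal_le_ofReal h1).trans ?_
    rw [ofReal_integral_eq_lintegral_ofReal hf.pos_part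
      (Filter.Eventually.of_forall fun x => le_max_right _ _)]
    refine lintegral_mono fun x => ?_
    simp
  · rw [integral_undef hf]
    simp

/-- eigenvalues of the potential -/
noncomputable def evs {p : ℝ} {W : ℝ → Matrix (Fin m) (Fin m) ℂ} (hW : IsPotential p W)
    (x : ℝ) (k : Fin m) : ℝ := (hW.posSemidef x).1.eigenvalues k

/-- eigenvector matrix of the potential -/
noncomputable def evm {p : ℝ} {W : ℝ → Matrix (Fin m) (Fin m) ℂ} (hW : IsPotential p W)
    (x : ℝ) : Matrix (Fin m) (Fin m) ℂ := ((hW.posSemidef x).1.eigenvectorUnitary :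
      Matrix (Fin m) (Fin m) ℂ)

noncomputable def aj {p : ℝ} {W : ℝ → Matrix (Fin m) (Fin m) ℂ} (hW : IsPotential p W)
    (τ : ℝ) (f : ℝ → Fin m → ℂ) (x : ℝ) : ℝ :=
  ∑ k, max (evs hW x k - τ) 0 * ‖(star (evm hW x) *ᵥ f x) k‖ ^ 2

theorem aj_nonneg {p : ℝ} {W : ℝ → Matrix (Fin m) (Fin m) ℂ} (hW : IsPotential p W)
    (τ : ℝ) (f : ℝ → Fin m → ℂ) (x : ℝ) : 0 ≤ aj hW τ f x :=
  Finset.sum_nonneg fun _ _ => mul_nonneg (le_max_right _ _) (by positivity)

theorem single_ineq {p : ℝ} {W : ℝ → Matrix (Fin m) (Fin m) ℂ} (hW : IsPotential p W)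
    {τ : ℝ} (hτ : 0 ≤ τ) {f : ℝ → Fin m → ℂ} (h1 : ip f f = 1) :
    ENNReal.ofReal ((ip f (fun x => W x *ᵥ f x)).re - τ) ≤ ∫⁻ x, ENNReal.ofReal (aj hW τ f x) := by
  have hint : Integrable fun x => star (f x) ⬝ᵥ f x := by
    by_contra hc
    unfold ip at h1
    rw [integral_undef hc] at h1
    exact zero_ne_one h1
  have hone : ∫ x, (star (f x) ⬝ᵥ f x).re = 1 := by
    have h2 := integral_re hint
    unfold ip at h1
    rw [h1] at h2
    simpa using h2
  have hre1 : Integrable fun x => (star (f x) ⬝ᵥ f x).re := hint.re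
  by_cases hF : Integrable fun x => star (f x) ⬝ᵥ (W x *ᵥ f x)
  · have h2 : (ip f (fun x => W x *ᵥ f x)).re = ∫ x, (star (f x) ⬝ᵥ (W x *ᵥ f x)).re :=
      (integral_re hF).symm
    have hre2 : Integrable fun x => (star (f x) ⬝ᵥ (W x *ᵥ f x)).re := hF.re
    have h3 : (ip f (fun x => W x *ᵥ f x)).re - τ =
        ∫ x, ((star (f x) ⬝ᵥ (W x *ᵥ f x)).re - τ * (star (f x) ⬝ᵥ f x).re) := by
      rw [integral_sub hre2 (hre1.const_mul τ), integral_const_mul, hone, h2, mul_one]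
    rw [h3]
    refine (ofReal_integral_le _).trans (lintegral_mono fun x => ENNReal.ofReal_le_ofReal ?_)
    rw [quad_decomp (hW.posSemidef x).1, quad_self (unit_mul_star (hW.posSemidef x).1),
      Finset.mul_sum, ← Finset.sum_sub_distrib]
    unfold aj
    refine Finset.sum_le_sum fun k _ => ?_
    rw [← sub_mul]
    exact mul_le_mul_of_nonneg_right (le_max_left _ _) (by positivity)
  · have h2 : ip f (fun x => W x *ᵥ f x) = 0 := integral_undef hF
    rw [h2, Complex.zero_re, zero_sub, ENNReal.ofReal_of_nonpos (by linarith)]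
    exact bot_le

theorem aj_sum {p : ℝ} {W : ℝ → Matrix (Fin m) (Fin m) ℂ} (hW : IsPotential p W)
    (τ : ℝ) (f : Fin N → ℝ → Fin m → ℂ) (x : ℝ) :
    ∑ j, ENNReal.ofReal (aj hW τ (f j) x) ≤
      ENNReal.ofReal (Real.pi ^ 2 / 4 * ((dens f x) ^ 3).trace.re) +
      ENNReal.ofReal LL * ∑ k, ENNReal.ofReal (max (evs hW x k - τ) 0 ^ (3 / 2 : ℝ)) := by
  have hnn : ∀ k, 0 ≤ max (evs hW x k - τ) 0 := fun k => le_max_right _ _
  have hy := young_sum f x (unit_star_mul (hW.posSemidef x).1) (unit_mul_star (hW.posSemidef x).1)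
    (fun k => max (evs hW x k - τ) 0) hnn
  rw [← ENNReal.ofReal_sum_of_nonneg fun j _ => aj_nonneg hW τ (f j) x,
    ← ENNReal.ofReal_sum_of_nonneg fun k _ => Real.rpow_nonneg (hnn k) _,
    ← ENNReal.ofReal_mul LL_pos.le]
  have h1 : ∑ j, aj hW τ (f j) x = ∑ k, max (evs hW x k - τ) 0 *
      ∑ j, ‖(star (evm hW x) *ᵥ f j x) k‖ ^ 2 := by
    unfold aj
    rw [Finset.sum_comm]
    refine Finset.sum_congr rfl fun k _ => ?_
    rw [Finset.mul_sum]
  rw [h1, ← ENNReal.ofReal_add]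
  · exact ENNReal.ofReal_le_ofReal hy
  · have h2 := ((dens_psd f x).pow 3).trace_nonneg
    have h3 := (Complex.le_def.1 h2).1
    rw [Complex.zero_re] at h3
    positivity
  · have := LL_pos
    have h4 : 0 ≤ ∑ k, max (evs hW x k - τ) 0 ^ (3 / 2 : ℝ) :=
      Finset.sum_nonneg fun k _ => Real.rpow_nonneg (hnn k) _
    positivity

theorem sum_lintegral_le (g : Fin N → ℝ → ℝ≥0∞) :
    ∑ j, ∫⁻ x, g j x ≤ ∫⁻ x, ∑ j, g j x := by
  induction N with
  | zero => simp
  | succ n ih =>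
    simp only [Fin.sum_univ_succ]
    refine (add_le_add_right (ih _) _).trans ?_
    exact le_lintegral_add _ _

theorem lt_all_big (hKin : KinFact) {p : ℝ} {W : ℝ → Matrix (Fin m) (Fin m) ℂ}
    (hW : IsPotential p W) {lam : Fin N → ℝ} {f : Fin N → ℝ → Fin m → ℂ}
    (hsys : IsNegSystem W lam f) {τ : ℝ} (hτ : 0 ≤ τ) (hall : ∀ j, τ < -lam j) :
    ∑ j, ENNReal.ofReal (-lam j - τ) ≤ ENNReal.ofReal LL *
      ∫⁻ x, ∑ k, ENNReal.ofReal (max (evs hW x k - τ) 0 ^ (3 / 2 : ℝ)) := by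
  choose f' hH hE using hsys.eigen
  obtain ⟨hRi, hRk⟩ := hKin m N f f' hH hsys.orthonormal
  have hone : ∀ j, ip (f j) (f j) = 1 := fun j => by
    rw [hsys.orthonormal j j, if_pos rfl]
  have heq : ∀ j, (ip (f' j) (f' j)).re - (ip (f j) (fun x => W x *ᵥ f j x)).re = lam j := by
    intro j
    have h1 := hE j (f j) (f' j) (hH j)
    rw [hone j, mul_one] at h1
    have h2 := congrArg Complex.re h1
    simpa using h2
  have hT0 : ∀ j, 0 ≤ (ip (f' j) (f' j)).re := by
    intro j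
    have hnn : ∀ x, 0 ≤ (star (f' j x) ⬝ᵥ f' j x).re := fun x => by
      have := (Complex.le_def.1 (dotProduct_star_self_nonneg (f' j x))).1
      simpa using this
    unfold ip
    by_cases hi : Integrable fun x => star (f' j x) ⬝ᵥ f' j x
    · have h2 : (∫ x, star (f' j x) ⬝ᵥ f' j x).re = ∫ x, (star (f' j x) ⬝ᵥ f' j x).re :=
        (integral_re hi).symm
      rw [h2]
      exact integral_nonneg hnn
    · rw [integral_undef hi, Complex.zero_re]
  have hpt : ∀ j, ENNReal.ofReal (-lam j - τ) + ENNReal.ofReal ((ip (f' j) (f' j)).re) ≤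
      ∫⁻ x, ENNReal.ofReal (aj hW τ (f j) x) := by
    intro j
    have hj := hall j
    rw [← ENNReal.ofReal_add (by linarith) (hT0 j)]
    have h3 : -lam j - τ + (ip (f' j) (f' j)).re =
        (ip (f j) (fun x => W x *ᵥ f j x)).re - τ := by linarith [heq j]
    rw [h3]
    exact single_ineq hW hτ (hone j)
  have hs := Finset.sum_le_sum fun (j : Fin N) (_ : j ∈ Finset.univ) => hpt j
  rw [Finset.sum_add_distrib, ← ENNReal.ofReal_sum_of_nonneg fun j _ => hT0 j] at hs
  have hbig : ∫⁻ x, ∑ j, ENNReal.ofReal (aj hW τ (f j) x) ≤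
      ENNReal.ofReal (∑ j, (ip (f' j) (f' j)).re) + ENNReal.ofReal LL *
        ∫⁻ x, ∑ k, ENNReal.ofReal (max (evs hW x k - τ) 0 ^ (3 / 2 : ℝ)) := by
    refine (lintegral_mono fun x => aj_sum hW τ f x).trans ?_
    have hm : AEMeasurable (fun x => ENNReal.ofReal (Real.pi ^ 2 / 4 *
        ((dens f x) ^ 3).trace.re)) := (hRi.const_mul _).aestronglyMeasurable.aemeasurable.ennreal_ofReal
    rw [lintegral_add_left' hm, lintegral_const_mul' _ _ ENNReal.ofReal_ne_top]
    refine add_le_add_left ?_ _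
    rw [← ofReal_integral_eq_lintegral_ofReal (hRi.const_mul _)
      (Filter.Eventually.of_forall fun x => ?_), integral_const_mul]
    · exact ENNReal.ofReal_le_ofReal hRk
    · have h2 := ((dens_psd f x).pow 3).trace_nonneg
      have h3 := (Complex.le_def.1 h2).1
      rw [Complex.zero_re] at h3
      positivity
  have hfin := (hs.trans (sum_lintegral_le _)).trans hbig
  rw [add_comm] at hfin
  exact (ENNReal.add_le_add_iff_left ENNReal.ofReal_ne_top).1 hfin

theorem lt_tau (hKin : KinFact) {p : ℝ} {W : ℝ → Matrix (Fin m) (Fin m) ℂ}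
    (hW : IsPotential p W) {lam : Fin N → ℝ} {f : Fin N → ℝ → Fin m → ℂ}
    (hsys : IsNegSystem W lam f) {τ : ℝ} (hτ : 0 ≤ τ) :
    ∑ j, ENNReal.ofReal (-lam j - τ) ≤ ENNReal.ofReal LL *
      ∫⁻ x, ∑ k, ENNReal.ofReal (max (evs hW x k - τ) 0 ^ (3 / 2 : ℝ)) := by
  have e := (Fintype.equivFin {j : Fin N // τ < -lam j}).symm
  have hsum : ∑ j, ENNReal.ofReal (-lam j - τ) =
      ∑ i : Fin (Fintype.card {j : Fin N // τ < -lam j}), ENNReal.ofReal (-lam (e i).1 - τ) := by
    rw [e.sum_comp (fun j : {j : Fin N // τ < -lam j} => ENNReal.ofReal (-lam j.1 - τ)),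
      ← Finset.sum_subtype (Finset.univ.filter fun j => τ < -lam j) (by simp)
      (fun j => ENNReal.ofReal (-lam j - τ))]
    refine (Finset.sum_filter_of_ne fun j _ hne => ?_).symm
    by_contra hc
    exact hne (ENNReal.ofReal_of_nonpos (by linarith))
  rw [hsum]
  refine lt_all_big hKin hW (lam := fun i => lam (e i).1) (f := fun i => f (e i).1) ?_ hτ
    fun i => (e i).2
  refine ⟨fun i => hsys.neg _, fun i => hsys.eigen _, fun i j => ?_⟩
  rw [hsys.orthonormal]
  congr 1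
  rw [← Subtype.ext_iff, e.injective.eq_iff]

theorem intPow_eq {p : ℝ} {W : ℝ → Matrix (Fin m) (Fin m) ℂ} (hW : IsPotential p W) (r : ℝ) :
    intPow W r = ∫⁻ x, ∑ k, ENNReal.ofReal (evs hW x k ^ r) := by
  unfold intPow trPow
  refine lintegral_congr fun x => ?_
  rw [dif_pos (hW.posSemidef x).1, ENNReal.ofReal_sum_of_nonneg]
  · rfl
  · intro k _
    exact Real.rpow_nonneg ((hW.posSemidef x).eigenvalues_nonneg k) _

theorem evs_nonneg {p : ℝ} {W : ℝ → Matrix (Fin m) (Fin m) ℂ} (hW : IsPotential p W)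
    (x : ℝ) (k : Fin m) : 0 ≤ evs hW x k := (hW.posSemidef x).eigenvalues_nonneg k

theorem upFact : UpFact := by
  intro hKin m
  unfold LT
  refine iSup_le fun W => iSup_le fun hW => iSup_le fun hne => ?_
  have hfin : intPow W (1 + 1 / 2) < ∞ := hW.finite
  rw [ENNReal.div_le_iff_le_mul (Or.inl hne) (Or.inl hfin.ne)]
  unfold negTrace
  refine iSup_le fun N => iSup_le fun lam => iSup_le fun f => iSup_le fun hsys => ?_
  have h1 := lt_tau hKin hW hsys le_rfl
  have h2 : ∀ j, ENNReal.ofReal (-lam j - 0) = ENNReal.ofReal (|lam j| ^ (1 : ℝ)) := by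
    intro j
    rw [Real.rpow_one, sub_zero, abs_of_neg (hsys.neg j)]
  have h3 : ∀ x k, max (evs hW x k - 0) 0 = evs hW x k := fun x k => by
    rw [sub_zero, max_eq_left (evs_nonneg hW x k)]
  have h4 : ∀ x k, evs hW x k ^ (3 / 2 : ℝ) = evs hW x k ^ ((1 : ℝ) + 1 / 2) := fun x k => by
    norm_num
  simp only [h2, h3, h4] at h1
  rw [intPow_eq hW]
  exact h1

end Vale.Agent.P371
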