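import Mathlib
import Vale.Agent.P371.Up

open MeasureTheory Matrix Set Filter Topology
open scoped ENNReal ComplexOrder ComplexConjugate

namespace Vale.Agent.P371

variable {m N : ℕ}

theorem pow_decomp {W V : Matrix (Fin m) (Fin m) ℂ} {d : Fin m → ℂ}
    (hW : W = V * diagonal d * star V) (h1 : star V * V = 1) (h2 : V * star V = 1) (n : ℕ) :
    W ^ n = V * diagonal (d ^ n) * star V := by
  induction n with
  | zero =>
    have : (diagonal (d ^ 0) : Matrix (Fin m) (Fin m) ℂ) = 1 := by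
      rw [pow_zero]
      exact diagonal_one
    rw [this, Matrix.mul_one, h2, pow_zero]
  | succ n ih =>
    rw [pow_succ, ih, hW]
    calc V * diagonal (d ^ n) * star V * (V * diagonal d * star V)
        = V * diagonal (d ^ n) * (star V * V) * diagonal d * star V := by
          simp only [Matrix.mul_assoc]
      _ = V * diagonal (d ^ (n + 1)) * star V := by
          rw [h1, Matrix.mul_one, Matrix.mul_assoc V, diagonal_mul_diagonal, pow_succ]
          rfl

theorem trace_pow_eq {W : Matrix (Fin m) (Fin m) ℂ} (hA : W.IsHermitian) (n : ℕ) :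
    (W ^ n).trace.re = ∑ k, hA.eigenvalues k ^ n := by
  rw [pow_decomp (spec_decomp hA) (unit_star_mul hA) (unit_mul_star hA) n, Matrix.trace_mul_comm,
    ← Matrix.mul_assoc, unit_star_mul, Matrix.one_mul, trace_diagonal, Complex.re_sum]
  refine Finset.sum_congr rfl fun k _ => ?_
  rw [Pi.pow_apply, ← Complex.ofReal_pow, Complex.ofReal_re]

theorem pow_meas {W : ℝ → Matrix (Fin m) (Fin m) ℂ} (hW : ∀ i j, Measurable fun x => W x i j)
    (n : ℕ) (i j : Fin m) : Measurable fun x => (W x ^ n) i j := by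
  induction n generalizing i j with
  | zero =>
    simp only [pow_zero]
    exact measurable_const
  | succ n ih =>
    simp only [pow_succ, Matrix.mul_apply]
    exact Finset.measurable_sum _ fun k _ => (ih i k).mul (hW k j)

theorem sum_pow_meas {p : ℝ} {W : ℝ → Matrix (Fin m) (Fin m) ℂ} (hW : IsPotential p W) (n : ℕ) :
    Measurable fun x => ∑ k, evs hW x k ^ n := by
  have h1 : (fun x => ∑ k, evs hW x k ^ n) = fun x => ((W x ^ n).trace).re := by
    funext x
    exact (trace_pow_eq (hW.posSemidef x).1 n).symm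
  rw [h1]
  have h2 : Measurable fun x => (W x ^ n).trace :=
    Finset.measurable_sum _ fun k _ => pow_meas hW.measurable n k k
  exact Complex.measurable_re.comp h2

theorem sum_poly_meas {p : ℝ} {W : ℝ → Matrix (Fin m) (Fin m) ℂ} (hW : IsPotential p W)
    (P : Polynomial ℝ) : Measurable fun x => ∑ k, P.eval (evs hW x k) := by
  have h1 : (fun x => ∑ k, P.eval (evs hW x k)) =
      fun x => ∑ i ∈ P.support, P.coeff i * ∑ k, evs hW x k ^ i := by
    funext x
    simp only [Polynomial.eval_eq_sum, Polynomial.sum_def]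
    rw [Finset.sum_comm]
    refine Finset.sum_congr rfl fun i _ => ?_
    rw [Finset.mul_sum]
  rw [h1]
  exact Finset.measurable_sum _ fun i _ => (sum_pow_meas hW i).const_mul _

theorem sum_cont_meas {p : ℝ} {W : ℝ → Matrix (Fin m) (Fin m) ℂ} (hW : IsPotential p W)
    {g : ℝ → ℝ} (hg : Continuous g) : Measurable fun x => ∑ k, g (evs hW x k) := by
  have hP : ∀ n : ℕ, ∃ P : Polynomial ℝ, ∀ t ∈ Icc (-(n : ℝ)) n,
      |P.eval t - g t| < 1 / ((n : ℝ) + 1) := fun n =>
    exists_polynomial_near_of_continuousOn _ _ g hg.continuousOn _ (by positivity)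
  choose P hP using hP
  refine measurable_of_tendsto_metrizable (fun n => sum_poly_meas hW (P n)) ?_
  rw [tendsto_pi_nhds]
  intro x
  refine tendsto_finsetSum _ fun k _ => ?_
  rw [tendsto_iff_norm_sub_tendsto_zero]
  refine squeeze_zero' (Eventually.of_forall fun n => norm_nonneg _) ?_
    tendsto_one_div_add_atTop_nhds_zero_nat
  obtain ⟨n₀, hn₀⟩ := exists_nat_ge |evs hW x k|
  filter_upwards [eventually_ge_atTop n₀] with n hn
  have h1 : |evs hW x k| ≤ n := hn₀.trans (by exact_mod_cast hn)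
  exact (hP n _ (abs_le.1 h1)).le

theorem beta_scale {a b v : ℝ} (ha : 0 < a) (hb : 1 < b) (hv : 0 ≤ v) :
    ∫⁻ τ in Ioi 0, ENNReal.ofReal (τ ^ (a - 1)) * ENNReal.ofReal (max (v - τ) 0 ^ (b - 1)) =
      ENNReal.ofReal (v ^ (a + b - 1) * ProbabilityTheory.beta a b) := by
  have hb0 : 0 < b := by linarith
  have hbeta := ProbabilityTheory.beta_pos ha hb0
  rcases hv.eq_or_lt with hv0 | hv0
  · have h0 : ∀ τ ∈ Ioi (0 : ℝ), ENNReal.ofReal (τ ^ (a - 1)) *
        ENNReal.ofReal (max (v - τ) 0 ^ (b - 1)) = 0 := by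
      intro τ hτ
      have hτ0 : 0 < τ := hτ
      rw [max_eq_right (by linarith), Real.zero_rpow (by linarith), ENNReal.ofReal_zero, mul_zero]
    rw [setLIntegral_congr_fun measurableSet_Ioi h0, ← hv0, Real.zero_rpow (by linarith)]
    simp
  · set F : ℝ → ℝ≥0∞ := (Ioi (0 : ℝ)).indicator fun τ => ENNReal.ofReal (τ ^ (a - 1)) *
      ENNReal.ofReal (max (v - τ) 0 ^ (b - 1)) with hF
    have hFm : Measurable F := by
      refine Measurable.indicator ?_ measurableSet_Ioi
      fun_prop
    rw [← lintegral_indicator measurableSet_Ioi, ← hF]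
    have h1 : ∫⁻ τ, F τ = ENNReal.ofReal v * ∫⁻ x, F (v * x) := by
      conv_lhs => rw [← Real.smul_map_volume_mul_left hv0.ne']
      rw [lintegral_smul_measure, lintegral_map hFm (by fun_prop), abs_of_pos hv0, smul_eq_mul]
    have h2 : ∀ x, F (v * x) = ENNReal.ofReal (v ^ (a + b - 2) * ProbabilityTheory.beta a b) *
        ProbabilityTheory.betaPDF a b x := by
      intro x
      by_cases hx : 0 < x
      · have hvx : v * x ∈ Ioi (0 : ℝ) := mul_pos hv0 hx
        rw [hF, indicator_of_mem hvx]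
        by_cases hx1 : x < 1
        · rw [ProbabilityTheory.betaPDF_of_pos_lt_one hx hx1,
            ← ENNReal.ofReal_mul (by positivity), ← ENNReal.ofReal_mul (by positivity)]
          congr 1
          have h3 : max (v - v * x) 0 = v * (1 - x) := by
            rw [max_eq_left (by nlinarith)]
            ring
          rw [h3, Real.mul_rpow hv0.le hx.le, Real.mul_rpow hv0.le (by linarith)]
          have h4 : v ^ (a + b - 2) = v ^ (a - 1) * v ^ (b - 1) := by
            rw [← Real.rpow_add hv0]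
            congr 1
            ring
          rw [h4]
          field_simp
        · rw [ProbabilityTheory.betaPDF_eq_zero_of_one_le (not_lt.1 hx1), mul_zero,
            max_eq_right (by nlinarith [not_lt.1 hx1]), Real.zero_rpow (by linarith)]
          simp
      · have hvx : v * x ∉ Ioi (0 : ℝ) := fun hc => hx ((mul_pos_iff_of_pos_left hv0).1 hc)
        rw [hF, indicator_of_notMem hvx,
          ProbabilityTheory.betaPDF_eq_zero_of_nonpos (not_lt.1 hx), mul_zero]
    rw [h1]
    simp only [h2]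
    rw [lintegral_const_mul' _ _ ENNReal.ofReal_ne_top,
      ProbabilityTheory.lintegral_betaPDF_eq_one ha hb0, mul_one, ← ENNReal.ofReal_mul hv0.le]
    congr 1
    have h5 : v ^ (a + b - 1) = v * v ^ (a + b - 2) := by
      rw [← Real.rpow_one_add' hv0.le (by linarith)]
      congr 1
      ring
    rw [h5]
    ring

theorem gamma_five_half : Real.Gamma (5 / 2) = 3 / 4 * √Real.pi := by
  have h1 : Real.Gamma (3 / 2 + 1) = 3 / 2 * Real.Gamma (3 / 2) := Real.Gamma_add_one (by norm_num)
  have h2 : Real.Gamma (1 / 2 + 1) = 1 / 2 * Real.Gamma (1 / 2) := Real.Gamma_add_one (by norm_num)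
  rw [show (5 / 2 : ℝ) = 3 / 2 + 1 by norm_num, h1, show (3 / 2 : ℝ) = 1 / 2 + 1 by norm_num, h2,
    Real.Gamma_one_half_eq]
  ring

theorem LL_eq : LL = 2 / √3 * Lcl 1 := by
  unfold LL Lcl
  rw [show (1 : ℝ) + 3 / 2 = 5 / 2 by norm_num, gamma_five_half, show (1 : ℝ) + 1 = 2 by norm_num,
    Real.Gamma_two]
  have h := Real.sq_sqrt Real.pi_pos.le
  have h0 : 0 < √Real.pi := Real.sqrt_pos.2 Real.pi_pos
  have h3 : (0 : ℝ) < √3 := by positivity
  have h1 : 2 * √Real.pi * (3 / 4 * √Real.pi) = 3 / 2 * Real.pi := by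
    rw [← h]
    ring_nf
    rw [Real.sqrt_sq h0.le]
  rw [h1]
  field_simp
  norm_num

theorem beta_ratio {γ : ℝ} (hγ : 1 < γ) :
    LL * ProbabilityTheory.beta (γ - 1) (5 / 2) / ProbabilityTheory.beta (γ - 1) 2 =
      2 / √3 * Lcl γ := by
  rw [LL_eq]
  unfold Lcl ProbabilityTheory.beta
  have h1 : 0 < Real.Gamma (γ - 1) := Real.Gamma_pos_of_pos (by linarith)
  have h2 : 0 < Real.Gamma (γ + 3 / 2) := Real.Gamma_pos_of_pos (by linarith)
  have h3 : 0 < Real.Gamma (γ + 1) := Real.Gamma_pos_of_pos (by linarith)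
  have h4 : 0 < √Real.pi := Real.sqrt_pos.2 Real.pi_pos
  have h5 : (0 : ℝ) < √3 := by positivity
  rw [show γ - 1 + 5 / 2 = γ + 3 / 2 by ring, show γ - 1 + 2 = γ + 1 by ring, Real.Gamma_two,
    show (1 : ℝ) + 3 / 2 = 5 / 2 by norm_num, gamma_five_half, show (1 : ℝ) + 1 = 2 by norm_num,
    Real.Gamma_two]
  field_simp

theorem joint_meas {p : ℝ} {W : ℝ → Matrix (Fin m) (Fin m) ℂ} (hW : IsPotential p W) :
    Measurable (Function.uncurry fun τ x => ∑ k, max (evs hW x k - τ) 0 ^ (3 / 2 : ℝ)) := by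
  refine measurable_uncurry_of_continuous_of_measurable (fun x => ?_) fun τ => ?_
  · refine continuous_finsetSum _ fun k _ => ?_
    refine Continuous.rpow_const (by fun_prop) fun _ => Or.inr (by norm_num)
  · refine sum_cont_meas hW (g := fun t => max (t - τ) 0 ^ (3 / 2 : ℝ)) ?_
    exact Continuous.rpow_const (by fun_prop) fun _ => Or.inr (by norm_num)

theorem sum_ofReal {p : ℝ} {W : ℝ → Matrix (Fin m) (Fin m) ℂ} (hW : IsPotential p W) (τ x : ℝ) :
    ∑ k, ENNReal.ofReal (max (evs hW x k - τ) 0 ^ (3 / 2 : ℝ)) =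
      ENNReal.ofReal (∑ k, max (evs hW x k - τ) 0 ^ (3 / 2 : ℝ)) :=
  (ENNReal.ofReal_sum_of_nonneg fun _ _ => Real.rpow_nonneg (le_max_right _ _) _).symm

theorem lt_gen (hKin : KinFact) {γ p : ℝ} (hγ : 1 ≤ γ) {W : ℝ → Matrix (Fin m) (Fin m) ℂ}
    (hW : IsPotential p W) {lam : Fin N → ℝ} {f : Fin N → ℝ → Fin m → ℂ}
    (hsys : IsNegSystem W lam f) :
    ∑ j, ENNReal.ofReal (|lam j| ^ γ) ≤
      ENNReal.ofReal (2 / √3 * Lcl γ) * intPow W (γ + 1 / 2) := by
  rw [intPow_eq hW]
  rcases hγ.eq_or_lt with hγ1 | hγ1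
  · have h1 := lt_tau hKin hW hsys le_rfl
    have h2 : ∀ j, ENNReal.ofReal (-lam j - 0) = ENNReal.ofReal (|lam j| ^ (1 : ℝ)) := by
      intro j
      rw [Real.rpow_one, sub_zero, abs_of_neg (hsys.neg j)]
    have h3 : ∀ x k, max (evs hW x k - 0) 0 = evs hW x k := fun x k => by
      rw [sub_zero, max_eq_left (evs_nonneg hW x k)]
    simp only [h2, h3] at h1
    rw [← hγ1, ← LL_eq, show (1 : ℝ) + 1 / 2 = 3 / 2 by norm_num]
    exact h1
  · have hb2 := ProbabilityTheory.beta_pos (α := γ - 1) (β := 2) (by linarith) (by norm_num)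
    have hb5 := ProbabilityTheory.beta_pos (α := γ - 1) (β := 5 / 2) (by linarith) (by norm_num)
    have hlhs : ∀ j, ENNReal.ofReal (|lam j| ^ γ) * ENNReal.ofReal (ProbabilityTheory.beta (γ - 1) 2) =
        ∫⁻ τ in Ioi 0, ENNReal.ofReal (τ ^ (γ - 1 - 1)) * ENNReal.ofReal (-lam j - τ) := by
      intro j
      have hl := hsys.neg j
      have h3 := beta_scale (a := γ - 1) (b := 2) (v := -lam j) (by linarith) (by norm_num)
        (by linarith)
      rw [show γ - 1 + 2 - 1 = γ by ring] at h3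
      rw [abs_of_neg hl, ← ENNReal.ofReal_mul (Real.rpow_nonneg (by linarith) _), ← h3]
      refine lintegral_congr fun τ => ?_
      rw [show (2 : ℝ) - 1 = 1 by norm_num, Real.rpow_one]
      congr 1
      simp
    have hrhs : ∀ x, ∫⁻ τ in Ioi 0, ENNReal.ofReal (τ ^ (γ - 1 - 1)) *
        ∑ k, ENNReal.ofReal (max (evs hW x k - τ) 0 ^ (3 / 2 : ℝ)) =
        ENNReal.ofReal (ProbabilityTheory.beta (γ - 1) (5 / 2)) *
          ∑ k, ENNReal.ofReal (evs hW x k ^ (γ + 1 / 2)) := by
      intro x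
      simp only [Finset.mul_sum]
      rw [lintegral_finsetSum _ fun k _ => by fun_prop]
      refine Finset.sum_congr rfl fun k _ => ?_
      have h3 := beta_scale (a := γ - 1) (b := 5 / 2) (v := evs hW x k) (by linarith) (by norm_num)
        (evs_nonneg hW x k)
      rw [show (5 : ℝ) / 2 - 1 = 3 / 2 by norm_num, show γ - 1 + 5 / 2 - 1 = γ + 1 / 2 by ring] at h3
      rw [h3, mul_comm, ENNReal.ofReal_mul hb5.le]
    have hmain : (∑ j, ENNReal.ofReal (|lam j| ^ γ)) *
        ENNReal.ofReal (ProbabilityTheory.beta (γ - 1) 2) ≤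
        ENNReal.ofReal LL * (ENNReal.ofReal (ProbabilityTheory.beta (γ - 1) (5 / 2)) *
          ∫⁻ x, ∑ k, ENNReal.ofReal (evs hW x k ^ (γ + 1 / 2))) := by
      rw [Finset.sum_mul]
      simp only [hlhs]
      rw [← lintegral_finsetSum _ fun i _ => by fun_prop]
      calc ∫⁻ τ in Ioi 0, ∑ j, ENNReal.ofReal (τ ^ (γ - 1 - 1)) * ENNReal.ofReal (-lam j - τ)
          ≤ ∫⁻ τ in Ioi 0, ENNReal.ofReal (τ ^ (γ - 1 - 1)) * (ENNReal.ofReal LL *
            ∫⁻ x, ∑ k, ENNReal.ofReal (max (evs hW x k - τ) 0 ^ (3 / 2 : ℝ))) := by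
            refine lintegral_mono_ae ?_
            filter_upwards [ae_restrict_mem measurableSet_Ioi] with τ hτ
            rw [← Finset.mul_sum]
            have hτ0 : 0 < τ := hτ
            gcongr
            exact lt_tau hKin hW hsys hτ0.le
        _ = ENNReal.ofReal LL * ∫⁻ τ in Ioi 0, ∫⁻ x, ENNReal.ofReal (τ ^ (γ - 1 - 1)) *
            ∑ k, ENNReal.ofReal (max (evs hW x k - τ) 0 ^ (3 / 2 : ℝ)) := by
            rw [← lintegral_const_mul' _ _ ENNReal.ofReal_ne_top]
            refine lintegral_congr fun τ => ?_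
            rw [lintegral_const_mul' _ _ ENNReal.ofReal_ne_top]
            ring
        _ = ENNReal.ofReal LL * ∫⁻ x, ∫⁻ τ in Ioi 0, ENNReal.ofReal (τ ^ (γ - 1 - 1)) *
            ∑ k, ENNReal.ofReal (max (evs hW x k - τ) 0 ^ (3 / 2 : ℝ)) := by
            simp only [sum_ofReal]
            rw [lintegral_lintegral_swap]
            apply Measurable.aemeasurable
            have h5 := (joint_meas hW).ennreal_ofReal
            have h6 : Measurable fun z : ℝ × ℝ => ENNReal.ofReal (z.1 ^ (γ - 1 - 1)) := by fun_prop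
            exact h6.mul h5
        _ = _ := by
            simp only [hrhs]
            rw [lintegral_const_mul' _ _ ENNReal.ofReal_ne_top]
    have hb2' : ENNReal.ofReal (ProbabilityTheory.beta (γ - 1) 2) ≠ 0 := by
      simpa using hb2
    rw [← ENNReal.le_div_iff_mul_le (Or.inl hb2') (Or.inl ENNReal.ofReal_ne_top)] at hmain
    refine hmain.trans (le_of_eq ?_)
    rw [← beta_ratio hγ1, ← mul_assoc, ← ENNReal.ofReal_mul LL_pos.le,
      ENNReal.ofReal_div_of_pos hb2, ENNReal.div_eq_inv_mul, ENNReal.div_eq_inv_mul, mul_assoc]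

theorem upGenFact : UpGenFact := by
  intro hKin m γ hγ
  unfold LT
  refine iSup_le fun W => iSup_le fun hW => iSup_le fun hne => ?_
  have hfin : intPow W (γ + 1 / 2) < ∞ := hW.finite
  rw [ENNReal.div_le_iff_le_mul (Or.inl hne) (Or.inl hfin.ne)]
  unfold negTrace
  exact iSup_le fun N => iSup_le fun lam => iSup_le fun f => iSup_le fun hsys =>
    lt_gen hKin hγ hW hsys

end Vale.Agent.P371
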