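import Vale.Agent.P371.MP
import Vale.Agent.P371.Kin
import Vale.Agent.P371.Up
import Vale.Agent.P371.UpGen
import Vale.Agent.P371.Low

open MeasureTheory

namespace Vale.Agent.P371

theorem kin_sharp : KinFact := kinFact mpFact

theorem sharp_value (m : ℕ) (hm : 1 ≤ m) : LT 1 m = ENNReal.ofReal (4 / (3 * √3 * Real.pi)) :=
  le_antisymm (upFact kin_sharp m) (lowFact.1 m hm)

theorem sharp_value_one : LTone 1 = ENNReal.ofReal (4 / (3 * √3 * Real.pi)) :=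
  le_antisymm ((LTone_le_LT 1).trans (upFact kin_sharp 1)) lowFact.2

theorem sharp_one (m : ℕ) (hm : 1 ≤ m) :
    LT 1 m = LTone 1 ∧ LT 1 m = LT 1 1 ∧ LT 1 m = ENNReal.ofReal (4 / (3 * √3 * Real.pi)) := by
  refine ⟨?_, ?_, sharp_value m hm⟩
  · rw [sharp_value m hm, sharp_value_one]
  · rw [sharp_value m hm, sharp_value 1 le_rfl]

theorem Lone_formula : 2 * (((1 : ℝ) - 1 / 2) / (1 + 1 / 2)) ^ ((1 : ℝ) - 1 / 2) * Lcl 1 =
    4 / (3 * √3 * Real.pi) := by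
  have h3 : (0 : ℝ) < √3 := Real.sqrt_pos.mpr (by norm_num)
  have h33 : √3 * √3 = 3 := Real.mul_self_sqrt (by norm_num)
  have hpi : (0 : ℝ) < √Real.pi := Real.sqrt_pos.mpr Real.pi_pos
  have hpp : √Real.pi * √Real.pi = Real.pi := Real.mul_self_sqrt Real.pi_pos.le
  have e1 : (((1 : ℝ) - 1 / 2) / (1 + 1 / 2)) ^ ((1 : ℝ) - 1 / 2) = 1 / √3 := by
    rw [show ((1 : ℝ) - 1 / 2) / (1 + 1 / 2) = 1 / 3 by norm_num,
      show (1 : ℝ) - 1 / 2 = 1 / 2 by norm_num, ← Real.sqrt_eq_rpow, Real.sqrt_div' _ (by norm_num),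
      Real.sqrt_one]
  have e2 : Lcl 1 = 2 / (3 * Real.pi) := by
    unfold Lcl
    rw [show (1 : ℝ) + 1 = 2 by norm_num, show (1 : ℝ) + 3 / 2 = 5 / 2 by norm_num,
      Real.Gamma_two, gamma_five_half]
    rw [show 2 * √Real.pi * (3 / 4 * √Real.pi) = 3 / 2 * (√Real.pi * √Real.pi) by ring, hpp]
    field_simp
  rw [e1, e2]
  field_simp
  norm_num

theorem sharp_all (m : ℕ) (hm : 1 ≤ m) :
    LT 1 m = LTone 1 ∧ LT 1 m = LT 1 1 ∧
      LT 1 m = ENNReal.ofReal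
        (2 * (((1 : ℝ) - 1 / 2) / (1 + 1 / 2)) ^ ((1 : ℝ) - 1 / 2) * Lcl 1) ∧
      LT 1 m = ENNReal.ofReal (4 / (3 * √3 * Real.pi)) ∧
      ∀ γ : ℝ, 1 ≤ γ → LT γ m ≤ ENNReal.ofReal (2 / √3 * Lcl γ) := by
  obtain ⟨h1, h2, h3⟩ := sharp_one m hm
  refine ⟨h1, h2, ?_, h3, fun γ hγ => upGenFact kin_sharp m γ hγ⟩
  rw [Lone_formula]
  exact h3

end Vale.Agent.P371
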