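import Vale.Agent.P371.Ac
import Vale.Agent.P371.AlgMain

open MeasureTheory Matrix Filter Topology
open scoped ENNReal ComplexOrder

namespace Vale.Agent.P371.Kin

/-- the data of an orthonormal system, as a matrix -/
structure Data {m N : ℕ} (U V : ℝ → Matrix (Fin m) (Fin N) ℂ) : Prop where
  hV : ∀ i j, LocallyIntegrable (fun x => V x i j) volume
  hV2 : Integrable (fun x => ((V x)ᴴ * V x).trace.re)
  hUV : ∀ i j x y, U y i j - U x i j = ∫ t in x..y, V t i j
  hP : ∀ j k, Integrable (fun x => ((U x)ᴴ * U x) j k)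
  hG : ∀ j k, ∫ x, ((U x)ᴴ * U x) j k = if j = k then 1 else 0

/-- `P = U^* U` -/
def Pm {m N : ℕ} (U : ℝ → Matrix (Fin m) (Fin N) ℂ) (x : ℝ) : Matrix (Fin N) (Fin N) ℂ :=
  (U x)ᴴ * U x

/-- `G(x) = ∫_{-∞}^x P` -/
noncomputable def Gm {m N : ℕ} (U : ℝ → Matrix (Fin m) (Fin N) ℂ) (x : ℝ) :
    Matrix (Fin N) (Fin N) ℂ :=
  of fun j k => ∫ t in Set.Iic x, Pm U t j k

/-- `A = β (G - 1/2)` -/
noncomputable def Am {m N : ℕ} (β : ℝ) (U : ℝ → Matrix (Fin m) (Fin N) ℂ) (x : ℝ) :
    Matrix (Fin N) (Fin N) ℂ :=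
  (β : ℂ) • (Gm U x + (-(1 / 2) : ℂ) • 1)

variable {m N : ℕ} {U V : ℝ → Matrix (Fin m) (Fin N) ℂ}

lemma Data.ii (h : Data U V) (i j) (a b : ℝ) :
    IntervalIntegrable (fun x => V x i j) volume a b :=
  intervalIntegrable_iff.mpr
    (((h.hV i j).integrableOn_isCompact isCompact_uIcc).mono_set Set.uIoc_subset_uIcc)

lemma Data.cont (h : Data U V) (i j) : Continuous fun x => U x i j := by
  have h1 : (fun x => U x i j) = fun x => U 0 i j + ∫ t in (0 : ℝ)..x, V t i j := by
    funext x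
    rw [← h.hUV i j 0 x]
    ring
  rw [h1]
  exact continuous_const.add (intervalIntegral.continuous_primitive (fun a b => h.ii i j a b) 0)

lemma Data.contP (h : Data U V) (j k) : Continuous fun x => Pm U x j k := by
  simp only [Pm, mul_apply, conjTranspose_apply]
  exact continuous_finsetSum _ fun i _ => (h.cont i j).star.mul (h.cont i k)

lemma Data.intP (h : Data U V) (j k) : Integrable (fun x => Pm U x j k) := h.hP j k

lemma Data.intG (h : Data U V) (j k) : ∫ x, Pm U x j k = if j = k then 1 else 0 := h.hG j k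

lemma Pm_psd (x : ℝ) : (Pm U x).PosSemidef := posSemidef_conjTranspose_mul_self _

lemma Data.ae_deriv (h : Data U V) : ∀ᵐ x, MD U (V x) x := by
  have h1 : ∀ i j, ∀ᵐ x, HasDerivAt (fun y => U y i j) (V x i j) x := by
    intro i j
    filter_upwards [_root_.LocallyIntegrable.ae_hasDerivAt_integral (h.hV i j)] with x hx
    have h1 : (fun x => U x i j) = fun x => U 0 i j + ∫ t in (0 : ℝ)..x, V t i j := by
      funext x
      rw [← h.hUV i j 0 x]
      ring
    rw [h1]
    exact (hx 0).const_add _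
  filter_upwards [ae_all_iff.mpr fun i => ae_all_iff.mpr fun j => h1 i j] with x hx
  exact hx

lemma Data.macU (h : Data U V) (a b : ℝ) : MAC U a b :=
  fun i j => ac_primitive (fun a b => h.ii i j a b) (h.hUV i j) a b

lemma Data.macP (h : Data U V) (a b : ℝ) : MAC (Pm U) a b :=
  (h.macU a b).conjTranspose.mul (h.macU a b)

lemma Data.Gsub (h : Data U V) (j k) (x y : ℝ) :
    Gm U y j k - Gm U x j k = ∫ t in x..y, Pm U t j k :=
  intervalIntegral.integral_Iic_sub_Iic (h.intP j k).integrableOn (h.intP j k).integrableOn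

lemma Data.macG (h : Data U V) (a b : ℝ) : MAC (Gm U) a b := by
  intro j k
  exact ac_primitive (f := fun x => Gm U x j k) (f' := fun x => Pm U x j k)
    (fun a b => (h.contP j k).intervalIntegrable a b) (fun x y => h.Gsub j k x y) a b

lemma Data.mdG (h : Data U V) (x : ℝ) : MD (Gm U) (Pm U x) x := by
  intro j k
  have h1 : (fun x => Gm U x j k) = fun x => Gm U 0 j k + ∫ t in (0 : ℝ)..x, Pm U t j k := by
    funext x
    rw [← h.Gsub j k 0 x]
    ring
  have h2 : HasDerivAt (fun x => ∫ t in (0 : ℝ)..x, Pm U t j k) (Pm U x j k) x :=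
    intervalIntegral.integral_hasDerivAt_right ((h.contP j k).intervalIntegrable 0 x)
      ((h.contP j k).stronglyMeasurableAtFilter _ _) (h.contP j k).continuousAt
  rw [h1]
  exact h2.const_add _

lemma Data.macA (h : Data U V) (β a b : ℝ) : MAC (Am β U) a b := by
  have h1 : MAC (fun _ : ℝ => ((-(1 / 2) : ℂ) • 1 : Matrix (Fin N) (Fin N) ℂ)) a b :=
    fun i j => ac_const _ a b
  have h2 := ((h.macG a b).add h1).smul (β : ℂ)
  exact h2

lemma Data.mdA (h : Data U V) (β x : ℝ) : MD (Am β U) ((β : ℂ) • Pm U x) x := by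
  have h1 : MD (fun _ : ℝ => ((-(1 / 2) : ℂ) • 1 : Matrix (Fin N) (Fin N) ℂ)) 0 x :=
    fun i j => hasDerivAt_const _ _
  have := ((h.mdG x).add h1).smul (β : ℂ)
  rwa [add_zero] at this

/-- quadratic form of `G` -/
lemma Data.quad (h : Data U V) (x : ℝ) (v : Fin N → ℂ) :
    star v ⬝ᵥ (Gm U x *ᵥ v) = ∫ t in Set.Iic x, star v ⬝ᵥ (Pm U t *ᵥ v) := by
  simp only [dotProduct, mulVec, Finset.mul_sum]
  have hj : ∀ j k, Integrable (fun t => star v j * (Pm U t j k * v k))
      (volume.restrict (Set.Iic x)) := fun j k =>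
    (((h.intP j k).integrableOn (s := Set.Iic x)).mul_const _).const_mul _
  rw [integral_finsetSum _ fun j _ => integrable_finsetSum _ fun k _ => hj j k]
  refine Finset.sum_congr rfl fun j _ => ?_
  rw [integral_finsetSum _ fun k _ => hj j k]
  refine Finset.sum_congr rfl fun k _ => ?_
  rw [integral_const_mul, integral_mul_const]
  rfl

lemma Data.quad_int (h : Data U V) (v : Fin N → ℂ) :
    Integrable fun t => star v ⬝ᵥ (Pm U t *ᵥ v) := by
  simp only [dotProduct, mulVec, Finset.mul_sum]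
  exact integrable_finsetSum _ fun j _ => integrable_finsetSum _ fun k _ =>
    ((h.intP j k).mul_const _).const_mul _

lemma Data.quad_top (h : Data U V) (v : Fin N → ℂ) :
    ∫ t, star v ⬝ᵥ (Pm U t *ᵥ v) = star v ⬝ᵥ v := by
  simp only [dotProduct, mulVec, Finset.mul_sum]
  have hj : ∀ j k, Integrable (fun t => star v j * (Pm U t j k * v k)) := fun j k =>
    ((h.intP j k).mul_const _).const_mul _
  rw [integral_finsetSum _ fun j _ => integrable_finsetSum _ fun k _ => hj j k]
  refine Finset.sum_congr rfl fun j _ => ?_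
  rw [integral_finsetSum _ fun k _ => hj j k]
  have h1 : ∀ k, ∫ a, star v j * (Pm U a j k * v k) = if j = k then star v j * v k else 0 := by
    intro k
    rw [integral_const_mul, integral_mul_const]
    rw [h.intG j k]
    split_ifs <;> simp
  simp only [h1]
  simp

lemma Pm_quad_nonneg (v : Fin N → ℂ) (t : ℝ) : 0 ≤ (star v ⬝ᵥ (Pm U t *ᵥ v)).re :=
  (Complex.le_def.mp ((Pm_psd t).dotProduct_mulVec_nonneg v)).1

lemma Data.quad_bounds (h : Data U V) (x : ℝ) (v : Fin N → ℂ) :
    0 ≤ (star v ⬝ᵥ (Gm U x *ᵥ v)).re ∧ (star v ⬝ᵥ (Gm U x *ᵥ v)).re ≤ (star v ⬝ᵥ v).re := by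
  have hi : Integrable fun t => (star v ⬝ᵥ (Pm U t *ᵥ v)).re := (h.quad_int v).re
  have h1 : (star v ⬝ᵥ (Gm U x *ᵥ v)).re = ∫ t in Set.Iic x, (star v ⬝ᵥ (Pm U t *ᵥ v)).re := by
    rw [h.quad x v]
    exact (integral_re (h.quad_int v).integrableOn).symm
  have h2 : (star v ⬝ᵥ v).re = ∫ t, (star v ⬝ᵥ (Pm U t *ᵥ v)).re := by
    rw [← h.quad_top v]
    exact (integral_re (h.quad_int v)).symm
  rw [h1, h2]
  constructor
  · exact integral_nonneg fun t => Pm_quad_nonneg v t
  · exact setIntegral_le_integral hi (Eventually.of_forall fun t => Pm_quad_nonneg v t)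

lemma Gm_herm (_ : Data U V) (x : ℝ) : (Gm U x).IsHermitian := by
  ext j k
  rw [conjTranspose_apply]
  change star (∫ t in Set.Iic x, Pm U t k j) = ∫ t in Set.Iic x, Pm U t j k
  rw [Complex.star_def, ← integral_conj]
  congr 1
  funext t
  have := (Pm_psd (U := U) t).isHermitian.apply j k
  rw [← this]
  rfl

lemma Am_herm (h : Data U V) (β x : ℝ) : (Am β U x).IsHermitian := by
  rw [Matrix.IsHermitian, Am, conjTranspose_smul, conjTranspose_add, (Gm_herm h x).eq,
    conjTranspose_smul, conjTranspose_one]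
  simp

lemma Am_eig (h : Data U V) {β : ℝ} (hβ : 0 ≤ β) (x : ℝ) (i : Fin N) :
    |(Am_herm h β x).eigenvalues i| ≤ β / 2 := by
  set hA := Am_herm h β x
  set v : Fin N → ℂ := ⇑(hA.eigenvectorBasis i) with hv
  have hn : (star v ⬝ᵥ v).re = 1 := by
    have h1 : inner ℂ (hA.eigenvectorBasis i) (hA.eigenvectorBasis i) = (1 : ℂ) := by
      rw [inner_self_eq_norm_sq_to_K, hA.eigenvectorBasis.orthonormal.1 i]
      simp
    rw [EuclideanSpace.inner_eq_star_dotProduct, dotProduct_comm] at h1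
    rw [hv, h1]
    simp
  have hq := h.quad_bounds x v
  have he : hA.eigenvalues i = (star v ⬝ᵥ (Am β U x *ᵥ v)).re := hA.eigenvalues_eq i
  have he2 : star v ⬝ᵥ (Am β U x *ᵥ v) =
      (β : ℂ) * (star v ⬝ᵥ (Gm U x *ᵥ v)) + (β : ℂ) * (((-(1 / 2) : ℝ) : ℂ) * (star v ⬝ᵥ v)) := by
    rw [Am, smul_mulVec, add_mulVec, smul_mulVec, one_mulVec, dotProduct_smul, dotProduct_add,
      dotProduct_smul]
    simp only [smul_eq_mul]
    push_cast
    ring
  rw [he, he2, Complex.add_re, Complex.re_ofReal_mul, Complex.re_ofReal_mul,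
    Complex.re_ofReal_mul, hn, abs_le]
  rw [hn] at hq
  constructor <;> nlinarith [hq.1, hq.2]

end Vale.Agent.P371.Kin
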