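import Vale.Agent.P371.KinData

open MeasureTheory Matrix Filter Topology
open scoped ENNReal ComplexOrder

namespace Vale.Agent.P371.Kin

variable {m N : ℕ} {U V : ℝ → Matrix (Fin m) (Fin N) ℂ}

/-- the subsolution -/
noncomputable def Sf (β : ℝ) (d : ℕ) (c : ℕ → ℝ) (U : ℝ → Matrix (Fin m) (Fin N) ℂ) (x : ℝ) : ℝ :=
  -(β / 4) * (Pm U x * X d c (Am β U x) (Pm U x)).trace.re

lemma Sf_ac (h : Data U V) (β : ℝ) (d : ℕ) (c : ℕ → ℝ) (a b : ℝ) :
    AbsolutelyContinuousOnInterval (Sf β d c U) a b := by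
  have := ((h.macP a b).mul ((h.macA β a b).X (h.macP a b) d c)).trace_re
  exact this.const_mul _

lemma contCube (h : Data U V) : Continuous fun x => ((Pm U x) ^ 3).trace.re := by
  simp only [pow_succ, pow_zero, one_mul, trace, diag_apply, mul_apply]
  refine Complex.continuous_re.comp (continuous_finsetSum _ fun i _ =>
    continuous_finsetSum _ fun j _ => ?_)
  exact (continuous_finsetSum _ fun k _ => (h.contP _ _).mul (h.contP _ _)).mul (h.contP _ _)

/-- the inequality on a bounded interval -/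
lemma interval_ineq (h : Data U V) {β κ : ℝ} (hβ : 0 ≤ β) {d : ℕ} {c : ℕ → ℝ}
    (halg : ∀ (A P : Matrix (Fin N) (Fin N) ℂ) (hA : A.IsHermitian),
      (∀ i, |hA.eigenvalues i| ≤ β / 2) → P.PosSemidef →
      κ * (P ^ 3).trace.re ≤ Q d c A P - (X d c A P * P * X d c A P).trace.re)
    {a b : ℝ} (hab : a ≤ b) :
    Sf β d c U b - Sf β d c U a ≤
      (∫ x, ((V x)ᴴ * V x).trace.re) - κ * (β ^ 2 / 4) * ∫ x in a..b, ((Pm U x) ^ 3).trace.re := by
  rw [← (Sf_ac h β d c a b).integral_deriv_eq_sub]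
  have h1 : ∫ x in a..b, deriv (Sf β d c U) x ≤
      ∫ x in a..b, (((V x)ᴴ * V x).trace.re - κ * (β ^ 2 / 4) * ((Pm U x) ^ 3).trace.re) := by
    refine intervalIntegral.integral_mono_ae hab (Sf_ac h β d c a b).intervalIntegrable_deriv
      ((h.hV2.intervalIntegrable).sub (((contCube h).intervalIntegrable a b).const_mul _)) ?_
    filter_upwards [h.ae_deriv] with x hx
    have hPd : MD (Pm U) ((V x)ᴴ * U x + (U x)ᴴ * V x) x := hx.conjTranspose.mul hx
    have hd := (hasDerivAt_form (h.mdA β x) hPd (Am_herm h β x) (Pm_psd x).isHermitian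
      d c).const_mul (-(β / 4))
    have hd2 : deriv (Sf β d c U) x = _ := hd.deriv
    rw [hd2]
    have e1 := square_ge (U x) (V x) (X d c (Am β U x) (Pm U x))
      (X_herm (Am_herm h β x) (Pm_psd x).isHermitian d c) (β / 4)
    have e2 := halg (Am β U x) (Pm U x) (Am_herm h β x) (Am_eig h hβ x) (Pm_psd x)
    rw [show (U x)ᴴ * U x = Pm U x from rfl] at e1
    nlinarith [mul_le_mul_of_nonneg_left e2 (show 0 ≤ β ^ 2 / 4 by positivity)]
  refine h1.trans ?_
  rw [intervalIntegral.integral_sub (h.hV2.intervalIntegrable)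
    (((contCube h).intervalIntegrable a b).const_mul _), intervalIntegral.integral_const_mul]
  have h2 : ∫ x in a..b, ((V x)ᴴ * V x).trace.re ≤ ∫ x, ((V x)ᴴ * V x).trace.re := by
    rw [intervalIntegral.integral_of_le hab]
    refine setIntegral_le_integral h.hV2 (Eventually.of_forall fun x => ?_)
    exact trace_nonneg (posSemidef_conjTranspose_mul_self (V x))
  linarith

/-- entry bound for `A` -/
lemma Am_entry (h : Data U V) {β : ℝ} (hβ : 0 ≤ β) (x : ℝ) (i j : Fin N) :
    ‖Am β U x i j‖ ≤ β * (N + 1) := by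
  have h1 : ‖Gm U x i j‖ ≤ N := by
    have htr : Integrable fun t => (Pm U t).trace.re := by
      simp only [trace, diag_apply]
      exact (integrable_finsetSum _ fun k _ => h.intP k k).re
    have htr2 : ∫ t, (Pm U t).trace.re = N := by
      have : ∫ t, (Pm U t).trace = N := by
        simp only [trace, diag_apply]
        rw [integral_finsetSum _ fun k _ => h.intP k k]
        simp [h.intG]
      have h3 := integral_re (f := fun t => (Pm U t).trace) (μ := volume) (by
        simp only [trace, diag_apply]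
        exact integrable_finsetSum _ fun k _ => h.intP k k)
      rw [this] at h3
      simpa using h3
    calc ‖Gm U x i j‖ = ‖∫ t in Set.Iic x, Pm U t i j‖ := rfl
      _ ≤ ∫ t in Set.Iic x, ‖Pm U t i j‖ := norm_integral_le_integral_norm _
      _ ≤ ∫ t in Set.Iic x, (Pm U t).trace.re :=
          integral_mono (h.intP i j).norm.integrableOn htr.integrableOn
            fun t => norm_entry_le (Pm_psd t) i j
      _ ≤ ∫ t, (Pm U t).trace.re :=
          setIntegral_le_integral htr (Eventually.of_forall fun t => trace_nonneg (Pm_psd t))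
      _ = N := htr2
  have h2 : ‖((-(1 / 2) : ℂ) • (1 : Matrix (Fin N) (Fin N) ℂ)) i j‖ ≤ 1 := by
    rw [Matrix.smul_apply, smul_eq_mul, norm_mul, Matrix.one_apply]
    split_ifs <;> norm_num
  rw [Am, Matrix.smul_apply, Matrix.add_apply, smul_eq_mul, norm_mul, Complex.norm_real,
    Real.norm_eq_abs, abs_of_nonneg hβ]
  gcongr
  exact (norm_add_le _ _).trans (add_le_add h1 h2)

lemma Z_entry {A P : Matrix (Fin N) (Fin N) ℂ} {r p : ℝ} (hr : 0 ≤ r) (hp : 0 ≤ p)
    (hA : ∀ i j, ‖A i j‖ ≤ r) (hP : ∀ i j, ‖P i j‖ ≤ p) (n : ℕ) :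
    ∀ i j, ‖Z A P n i j‖ ≤ (N * r) ^ n * p := by
  induction n with
  | zero => intro i j; simpa [Z] using hP i j
  | succ n ih =>
    intro i j
    have hb : 0 ≤ (N * r) ^ n * p := by positivity
    have h1 : ‖(A * Z A P n) i j‖ ≤ (N * r) ^ (n + 1) * p := by
      rw [mul_apply]
      refine (norm_sum_le _ _).trans ?_
      calc ∑ k, ‖A i k * Z A P n k j‖ ≤ ∑ _k : Fin N, r * ((N * r) ^ n * p) :=
            Finset.sum_le_sum fun k _ => by
              rw [norm_mul]
              exact mul_le_mul (hA i k) (ih k j) (norm_nonneg _) hr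
        _ = (N * r) ^ (n + 1) * p := by
            rw [Finset.sum_const, Finset.card_univ, Fintype.card_fin, nsmul_eq_mul]; ring
    have h2 : ‖(Z A P n * A) i j‖ ≤ (N * r) ^ (n + 1) * p := by
      rw [mul_apply]
      refine (norm_sum_le _ _).trans ?_
      calc ∑ k, ‖Z A P n i k * A k j‖ ≤ ∑ _k : Fin N, ((N * r) ^ n * p) * r :=
            Finset.sum_le_sum fun k _ => by
              rw [norm_mul]
              exact mul_le_mul (ih i k) (hA k j) (norm_nonneg _) hb
        _ = (N * r) ^ (n + 1) * p := by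
            rw [Finset.sum_const, Finset.card_univ, Fintype.card_fin, nsmul_eq_mul]; ring
    rw [Z, Matrix.smul_apply, Matrix.add_apply, smul_eq_mul, norm_mul]
    have h3 : ‖(1 / 2 : ℂ)‖ = 1 / 2 := by norm_num
    rw [h3]
    have := norm_add_le ((A * Z A P n) i j) ((Z A P n * A) i j)
    linarith

/-- `S` is bounded by a multiple of `(tr P)^2`. -/
lemma Sf_bound (h : Data U V) {β : ℝ} (hβ : 0 ≤ β) (d : ℕ) (c : ℕ → ℝ) :
    ∃ C : ℝ, 0 ≤ C ∧ ∀ x, |Sf β d c U x| ≤ C * (Pm U x).trace.re ^ 2 := by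
  refine ⟨β / 4 * ((N : ℝ) * (N * ∑ n ∈ Finset.range d, |c n| * (N * (β * (N + 1))) ^ n)),
    by positivity, fun x => ?_⟩
  set p := (Pm U x).trace.re with hp
  have hp0 : 0 ≤ p := trace_nonneg (Pm_psd x)
  have hP : ∀ i j, ‖Pm U x i j‖ ≤ p := fun i j => norm_entry_le (Pm_psd x) i j
  have hX : ∀ i j, ‖X d c (Am β U x) (Pm U x) i j‖ ≤
      (∑ n ∈ Finset.range d, |c n| * (N * (β * (N + 1))) ^ n) * p := by
    intro i j
    rw [X, Matrix.sum_apply, Finset.sum_mul]
    refine (norm_sum_le _ _).trans (Finset.sum_le_sum fun n _ => ?_)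
    rw [Matrix.smul_apply, smul_eq_mul, norm_mul, Complex.norm_real, Real.norm_eq_abs, mul_assoc]
    gcongr
    exact Z_entry (by positivity) hp0 (Am_entry h hβ x) hP n i j
  have htr : |(Pm U x * X d c (Am β U x) (Pm U x)).trace.re| ≤
      (N : ℝ) * (N * (p * ((∑ n ∈ Finset.range d, |c n| * (N * (β * (N + 1))) ^ n) * p))) := by
    refine (Complex.abs_re_le_norm _).trans ?_
    rw [trace]
    refine (norm_sum_le _ _).trans ?_
    calc ∑ i, ‖(Pm U x * X d c (Am β U x) (Pm U x)).diag i‖ ≤ ∑ _i : Fin N,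
          (N * (p * ((∑ n ∈ Finset.range d, |c n| * (N * (β * (N + 1))) ^ n) * p))) := by
          refine Finset.sum_le_sum fun i _ => ?_
          rw [diag_apply, mul_apply]
          refine (norm_sum_le _ _).trans ?_
          calc ∑ j, ‖Pm U x i j * X d c (Am β U x) (Pm U x) j i‖ ≤ ∑ _j : Fin N,
                (p * ((∑ n ∈ Finset.range d, |c n| * (N * (β * (N + 1))) ^ n) * p)) := by
                refine Finset.sum_le_sum fun j _ => ?_
                rw [norm_mul]
                exact mul_le_mul (hP i j) (hX j i) (norm_nonneg _) hp0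
            _ = _ := by
                rw [Finset.sum_const, Finset.card_univ, Fintype.card_fin, nsmul_eq_mul]
      _ = _ := by
          rw [Finset.sum_const, Finset.card_univ, Fintype.card_fin, nsmul_eq_mul]
  rw [Sf, abs_mul, abs_neg, abs_of_nonneg (by positivity : 0 ≤ β / 4)]
  calc β / 4 * |(Pm U x * X d c (Am β U x) (Pm U x)).trace.re| ≤ β / 4 *
        ((N : ℝ) * (N * (p * ((∑ n ∈ Finset.range d, |c n| * (N * (β * (N + 1))) ^ n) * p)))) := by
        gcongr
    _ = _ := by ring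

lemma trP_int (h : Data U V) : Integrable fun t => (Pm U t).trace.re := by
  simp only [trace, diag_apply]
  exact (integrable_finsetSum _ fun k _ => h.intP k k).re

/-- points far out where `tr P` is small -/
lemma exists_small (h : Data U V) {δ : ℝ} (hδ : 0 < δ) (M : ℝ) :
    (∃ x, M ≤ x ∧ (Pm U x).trace.re < δ) ∧ ∃ x, x ≤ M ∧ (Pm U x).trace.re < δ := by
  constructor
  · by_contra hcon
    push Not at hcon
    have h1 : IntegrableOn (fun _ : ℝ => δ) (Set.Ici M) := by
      refine (trP_int h).integrableOn.mono' aestronglyMeasurable_const ?_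
      rw [ae_restrict_iff' measurableSet_Ici]
      exact Eventually.of_forall fun x hx => by
        rw [Real.norm_eq_abs, abs_of_pos hδ]
        exact hcon x hx
    rw [integrableOn_const_iff] at h1
    rcases h1 with h1 | h1
    · exact hδ.ne' (by simpa using h1)
    · simp at h1
  · by_contra hcon
    push Not at hcon
    have h1 : IntegrableOn (fun _ : ℝ => δ) (Set.Iic M) := by
      refine (trP_int h).integrableOn.mono' aestronglyMeasurable_const ?_
      rw [ae_restrict_iff' measurableSet_Iic]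
      exact Eventually.of_forall fun x hx => by
        rw [Real.norm_eq_abs, abs_of_pos hδ]
        exact hcon x hx
    rw [integrableOn_const_iff] at h1
    rcases h1 with h1 | h1
    · exact hδ.ne' (by simpa using h1)
    · simp at h1

/-- the inequality on the line, with a loss -/
lemma line_ineq (h : Data U V) {β κ : ℝ} (hβ : 0 < β) (hκ : 0 < κ) {d : ℕ} {c : ℕ → ℝ}
    (halg : ∀ (A P : Matrix (Fin N) (Fin N) ℂ) (hA : A.IsHermitian),
      (∀ i, |hA.eigenvalues i| ≤ β / 2) → P.PosSemidef →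
      κ * (P ^ 3).trace.re ≤ Q d c A P - (X d c A P * P * X d c A P).trace.re) :
    Integrable (fun x => ((Pm U x) ^ 3).trace.re) ∧
      κ * (β ^ 2 / 4) * ∫ x, ((Pm U x) ^ 3).trace.re ≤ ∫ x, ((V x)ᴴ * V x).trace.re := by
  obtain ⟨C, hC0, hC⟩ := Sf_bound h hβ.le d c
  set T := ∫ x, ((V x)ᴴ * V x).trace.re with hT
  have hn : ∀ n : ℕ, 0 < 1 / ((n : ℝ) + 1) := fun n => by positivity
  choose b hb using fun n : ℕ => (exists_small h (hn n) n).1
  choose a ha using fun n : ℕ => (exists_small h (hn n) (-n)).2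
  have hbt : Tendsto b atTop atTop :=
    tendsto_atTop_mono (fun n => (hb n).1) tendsto_natCast_atTop_atTop
  have hat : Tendsto a atTop atBot :=
    tendsto_atBot_mono (fun n => (ha n).1) (tendsto_neg_atTop_atBot.comp tendsto_natCast_atTop_atTop)
  have hab : ∀ n, a n ≤ b n := fun n => by
    have h1 := (ha n).1
    have h2 := (hb n).1
    have h3 : (0 : ℝ) ≤ n := Nat.cast_nonneg n
    linarith
  have hs : ∀ x : ℝ, ∀ n : ℕ, (Pm U x).trace.re < 1 / ((n : ℝ) + 1) →
      |Sf β d c U x| ≤ C * (1 / ((n : ℝ) + 1)) := by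
    intro x n hx
    refine (hC x).trans ?_
    have h0 := trace_nonneg (Pm_psd (U := U) x)
    have h1 : 1 / ((n : ℝ) + 1) ≤ 1 := by
      rw [div_le_one (by positivity)]
      have : (0 : ℝ) ≤ n := Nat.cast_nonneg n
      linarith
    have h2 : (Pm U x).trace.re ^ 2 ≤ 1 / ((n : ℝ) + 1) := by nlinarith
    gcongr
  have hle : ∀ n : ℕ, κ * (β ^ 2 / 4) * ∫ x in a n..b n, ((Pm U x) ^ 3).trace.re ≤
      T + 2 * C * (1 / ((n : ℝ) + 1)) := by
    intro n
    have h1 := interval_ineq h hβ.le halg (hab n)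
    have h2 := (abs_le.mp (hs (b n) n (hb n).2)).1
    have h3 := (abs_le.mp (hs (a n) n (ha n).2)).2
    linarith
  have hk : 0 < κ * (β ^ 2 / 4) := by positivity
  have hint : Integrable (fun x => ((Pm U x) ^ 3).trace.re) := by
    refine integrable_of_intervalIntegral_norm_bounded ((T + 2 * C) / (κ * (β ^ 2 / 4)))
      (fun n => ?_) hat hbt (Eventually.of_forall fun n => ?_)
    · exact ((contCube h).integrableOn_Icc).mono_set Set.Ioc_subset_Icc_self
    · rw [le_div_iff₀ hk, mul_comm]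
      have h1 : ∀ x, ‖((Pm U x) ^ 3).trace.re‖ = ((Pm U x) ^ 3).trace.re := fun x => by
        rw [Real.norm_eq_abs, abs_of_nonneg (trace_cube_nonneg (Pm_psd x))]
      simp only [h1]
      have h2 := hle n
      have h3 : 1 / ((n : ℝ) + 1) ≤ 1 := by
        rw [div_le_one (by positivity)]
        have : (0 : ℝ) ≤ n := Nat.cast_nonneg n
        linarith
      nlinarith
  refine ⟨hint, ?_⟩
  have h1 : Tendsto (fun n => κ * (β ^ 2 / 4) * ∫ x in a n..b n, ((Pm U x) ^ 3).trace.re) atTop
      (𝓝 (κ * (β ^ 2 / 4) * ∫ x, ((Pm U x) ^ 3).trace.re)) :=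
    (intervalIntegral_tendsto_integral hint hat hbt).const_mul _
  have h2 : Tendsto (fun n : ℕ => T + 2 * C * (1 / ((n : ℝ) + 1))) atTop (𝓝 (T + 2 * C * 0)) :=
    (tendsto_one_div_add_atTop_nhds_zero_nat.const_mul _).const_add _
  have h3 := le_of_tendsto_of_tendsto' h1 h2 hle
  simpa using h3

/-- The sharp inequality in matrix form. -/
theorem kin_data (hMP : MPFact) (h : Data U V) :
    Integrable (fun x => ((Pm U x) ^ 3).trace.re) ∧
      Real.pi ^ 2 / 4 * ∫ x, ((Pm U x) ^ 3).trace.re ≤ ∫ x, ((V x)ᴴ * V x).trace.re := by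
  have key : ∀ r : ℝ, 0 < r → r < 1 →
      Integrable (fun x => ((Pm U x) ^ 3).trace.re) ∧
      r * ((r * Real.pi) ^ 2 / 4) * ∫ x, ((Pm U x) ^ 3).trace.re ≤
        ∫ x, ((V x)ᴴ * V x).trace.re := by
    intro r hr0 hr1
    obtain ⟨d, c, halg⟩ := alg_main hMP N (b := r * Real.pi / 2)
      (by positivity) (by nlinarith [Real.pi_pos]) hr1
    exact line_ineq h (β := r * Real.pi) (by positivity) hr0 halg
  refine ⟨(key (1 / 2) (by norm_num) (by norm_num)).1, ?_⟩
  set I := ∫ x, ((Pm U x) ^ 3).trace.re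
  have h1 : Tendsto (fun r : ℝ => r * ((r * Real.pi) ^ 2 / 4) * I) (𝓝[<] 1)
      (𝓝 (1 * ((1 * Real.pi) ^ 2 / 4) * I)) := by
    apply tendsto_nhdsWithin_of_tendsto_nhds
    have : Continuous fun r : ℝ => r * ((r * Real.pi) ^ 2 / 4) * I := by fun_prop
    exact this.tendsto 1
  have h2 : ∀ᶠ r : ℝ in 𝓝[<] 1, r * ((r * Real.pi) ^ 2 / 4) * I ≤
      ∫ x, ((V x)ᴴ * V x).trace.re := by
    filter_upwards [Ioo_mem_nhdsLT (show (0 : ℝ) < 1 by norm_num)] with r hr
    exact (key r hr.1 hr.2).2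
  have h3 := le_of_tendsto h1 h2
  simpa using h3

end Vale.Agent.P371.Kin
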