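import Vale.Agent.P371.Iface

/-!
# P371: calculus of `q(x) = (cosh 2x)^(-1/2)`
-/

open MeasureTheory Matrix Filter Topology
open scoped ENNReal ComplexOrder

namespace Vale.Agent.P371

/-- `q(x) = (cosh 2x)^(-1/2)`. -/
noncomputable def qf (x : ℝ) : ℝ := (√(Real.cosh (2 * x)))⁻¹

/-- `S(x) = sinh 2x`. -/
noncomputable def qS (x : ℝ) : ℝ := Real.sinh (2 * x)

lemma qf_pos (x : ℝ) : 0 < qf x := by
  unfold qf
  have : 0 < Real.cosh (2 * x) := Real.cosh_pos _
  positivity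

lemma qf_sq (x : ℝ) : qf x ^ 2 = (Real.cosh (2 * x))⁻¹ := by
  unfold qf
  rw [inv_pow, Real.sq_sqrt (Real.cosh_pos _).le]

lemma qf_sq_mul (x : ℝ) : qf x ^ 2 * Real.cosh (2 * x) = 1 := by
  rw [qf_sq, inv_mul_cancel₀ (Real.cosh_pos _).ne']

lemma qS_sq (x : ℝ) : qS x ^ 2 = Real.cosh (2 * x) ^ 2 - 1 := by
  unfold qS
  have := Real.cosh_sq (2 * x)
  linarith

lemma qS_sq_q (x : ℝ) : qS x ^ 2 * qf x ^ 4 = 1 - qf x ^ 4 := by
  rw [qS_sq]
  have h := qf_sq_mul x
  have h2 : qf x ^ 4 * Real.cosh (2 * x) ^ 2 = 1 := by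
    calc qf x ^ 4 * Real.cosh (2 * x) ^ 2 = (qf x ^ 2 * Real.cosh (2 * x)) ^ 2 := by ring
      _ = 1 := by rw [h]; norm_num
  linarith

lemma hasDerivAt_two_mul (x : ℝ) : HasDerivAt (fun y : ℝ => 2 * y) 2 x := by
  simpa using (hasDerivAt_id x).const_mul (2 : ℝ)

lemma hasDerivAt_cosh2 (x : ℝ) :
    HasDerivAt (fun y : ℝ => Real.cosh (2 * y)) (2 * qS x) x := by
  have := (Real.hasDerivAt_cosh (2 * x)).comp x (hasDerivAt_two_mul x)
  refine this.congr_deriv ?_
  unfold qS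
  ring

lemma hasDerivAt_qS (x : ℝ) :
    HasDerivAt qS (2 * Real.cosh (2 * x)) x := by
  have := (Real.hasDerivAt_sinh (2 * x)).comp x (hasDerivAt_two_mul x)
  refine this.congr_deriv ?_
  ring

lemma hasDerivAt_qf (x : ℝ) : HasDerivAt qf (-(qS x * qf x ^ 3)) x := by
  have hc : Real.cosh (2 * x) ≠ 0 := (Real.cosh_pos _).ne'
  have hs : √(Real.cosh (2 * x)) ≠ 0 := by
    have : 0 < Real.cosh (2 * x) := Real.cosh_pos _
    positivity
  have h := ((hasDerivAt_cosh2 x).sqrt hc).inv hs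
  refine h.congr_deriv ?_
  unfold qf
  field_simp

/-- The derivative of `q`. -/
noncomputable def qd (x : ℝ) : ℝ := -(qS x * qf x ^ 3)

lemma hasDerivAt_qd (x : ℝ) : HasDerivAt qd (qf x - 3 * qf x ^ 5) x := by
  have h := ((hasDerivAt_qS x).mul ((hasDerivAt_qf x).pow 3)).neg
  refine h.congr_deriv ?_
  have h1 := qf_sq_mul x
  have h2 := qS_sq_q x
  simp only [Nat.cast_ofNat, Nat.add_one_sub_one, Pi.pow_apply]
  have e1 : 2 * Real.cosh (2 * x) * qf x ^ 3 = 2 * qf x := by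
    calc 2 * Real.cosh (2 * x) * qf x ^ 3 = 2 * qf x * (qf x ^ 2 * Real.cosh (2 * x)) := by ring
      _ = _ := by rw [h1]; ring
  have e2 : qS x * (3 * qf x ^ 2 * -(qS x * qf x ^ 3)) = -3 * qf x * (1 - qf x ^ 4) := by
    rw [← h2]; ring
  rw [e1, e2]
  ring

lemma continuous_qf : Continuous qf :=
  continuous_iff_continuousAt.2 fun x => (hasDerivAt_qf x).continuousAt

lemma continuous_qd : Continuous qd :=
  continuous_iff_continuousAt.2 fun x => (hasDerivAt_qd x).continuousAt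

lemma continuous_qdd : Continuous fun x => qf x - 3 * qf x ^ 5 := by
  have := continuous_qf
  fun_prop

lemma qf_le_one (x : ℝ) : qf x ≤ 1 := by
  have h1 : 1 ≤ Real.cosh (2 * x) := Real.one_le_cosh _
  have h2 := qf_sq_mul x
  have h3 := qf_pos x
  by_contra h
  push Not at h
  nlinarith [mul_pos h3 h3]

lemma one_add_sq_le_cosh (x : ℝ) : 1 + x ^ 2 ≤ Real.cosh (2 * x) := by
  rw [Real.cosh_two_mul]
  have h1 := Real.cosh_sq x
  have h2 : |x| ≤ |Real.sinh x| := by
    rw [Real.abs_sinh]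
    exact Real.self_le_sinh_iff.2 (abs_nonneg x)
  have h3 : x ^ 2 ≤ Real.sinh x ^ 2 := sq_le_sq.2 h2
  nlinarith [sq_nonneg x]

lemma qf_sq_le (x : ℝ) : qf x ^ 2 ≤ (1 + x ^ 2)⁻¹ := by
  rw [qf_sq]
  have : 0 < 1 + x ^ 2 := by positivity
  exact inv_anti₀ this (one_add_sq_le_cosh x)

lemma integrable_qf_sq : Integrable fun x => qf x ^ 2 := by
  refine Integrable.mono' integrable_inv_one_add_sq (continuous_qf.pow 2).aestronglyMeasurable ?_
  refine Eventually.of_forall fun x => ?_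
  rw [Real.norm_of_nonneg (by positivity)]
  exact qf_sq_le x

lemma integrable_qf_six : Integrable fun x => qf x ^ 6 := by
  refine Integrable.mono' integrable_qf_sq (continuous_qf.pow 6).aestronglyMeasurable ?_
  refine Eventually.of_forall fun x => ?_
  rw [Real.norm_of_nonneg (by have := qf_pos x; positivity)]
  exact pow_le_pow_of_le_one (qf_pos x).le (qf_le_one x) (by norm_num)

lemma qd_sq_le (x : ℝ) : qd x ^ 2 ≤ qf x ^ 2 := by
  unfold qd
  have h2 := qS_sq_q x
  have h3 := qf_pos x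
  have : (-(qS x * qf x ^ 3)) ^ 2 = (1 - qf x ^ 4) * qf x ^ 2 := by
    rw [← h2]; ring
  rw [this]
  have h4 : 0 < qf x ^ 4 := by positivity
  nlinarith [mul_pos h4 (pow_pos h3 2)]

lemma memLp_qf : MemLp qf 2 := by
  rw [memLp_two_iff_integrable_sq continuous_qf.aestronglyMeasurable]
  exact integrable_qf_sq

lemma memLp_qd : MemLp qd 2 := by
  rw [memLp_two_iff_integrable_sq continuous_qd.aestronglyMeasurable]
  refine Integrable.mono' integrable_qf_sq (continuous_qd.pow 2).aestronglyMeasurable ?_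
  refine Eventually.of_forall fun x => ?_
  rw [Real.norm_of_nonneg (by positivity)]
  exact qd_sq_le x

lemma memLp_qdd : MemLp (fun x => qf x - 3 * qf x ^ 5) 2 := by
  rw [memLp_two_iff_integrable_sq continuous_qdd.aestronglyMeasurable]
  refine Integrable.mono' (integrable_qf_sq.const_mul 9) (continuous_qdd.pow 2).aestronglyMeasurable
    ?_
  refine Eventually.of_forall fun x => ?_
  rw [Real.norm_of_nonneg (by positivity)]
  have h3 := qf_pos x
  have h4 := qf_le_one x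
  have h5 : qf x ^ 5 ≤ qf x := by
    calc qf x ^ 5 ≤ qf x ^ 1 := pow_le_pow_of_le_one h3.le h4 (by norm_num)
      _ = qf x := pow_one _
  have h6 : 0 < qf x ^ 5 := by positivity
  have : |qf x - 3 * qf x ^ 5| ≤ |3 * qf x| := by
    rw [abs_of_pos (by positivity : 0 < 3 * qf x), abs_le]
    constructor <;> linarith
  calc (qf x - 3 * qf x ^ 5) ^ 2 ≤ (3 * qf x) ^ 2 := sq_le_sq.2 this
    _ = 9 * qf x ^ 2 := by ring

lemma tendsto_qS_atTop : Tendsto qS atTop atTop := by
  refine tendsto_atTop_mono' _ ?_ tendsto_id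
  filter_upwards [eventually_ge_atTop (0 : ℝ)] with x hx
  unfold qS
  have := Real.self_le_sinh_iff.2 (show (0 : ℝ) ≤ 2 * x by linarith)
  simp only [id]
  linarith

lemma tendsto_qS_atBot : Tendsto qS atBot atBot := by
  have h := tendsto_neg_atTop_atBot.comp (tendsto_qS_atTop.comp tendsto_neg_atBot_atTop)
  refine h.congr fun x => ?_
  simp [qS, Real.sinh_neg]

lemma tendsto_arctan_qS_atTop : Tendsto (fun x => Real.arctan (qS x)) atTop (𝓝 (Real.pi / 2)) :=
  (tendsto_nhds_of_tendsto_nhdsWithin Real.tendsto_arctan_atTop).comp tendsto_qS_atTop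

lemma tendsto_arctan_qS_atBot :
    Tendsto (fun x => Real.arctan (qS x)) atBot (𝓝 (-(Real.pi / 2))) :=
  (tendsto_nhds_of_tendsto_nhdsWithin Real.tendsto_arctan_atBot).comp tendsto_qS_atBot

lemma hasDerivAt_arctan_qS (x : ℝ) :
    HasDerivAt (fun x => Real.arctan (qS x)) (2 * qf x ^ 2) x := by
  have h := (hasDerivAt_qS x).arctan
  refine h.congr_deriv ?_
  rw [qS_sq, qf_sq]
  have hc : Real.cosh (2 * x) ≠ 0 := (Real.cosh_pos _).ne'
  have : 1 + (Real.cosh (2 * x) ^ 2 - 1) = Real.cosh (2 * x) ^ 2 := by ring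
  rw [this]
  field_simp

lemma integral_qf_sq : ∫ x, qf x ^ 2 = Real.pi / 2 := by
  have h := integral_of_hasDerivAt_of_tendsto hasDerivAt_arctan_qS
    (integrable_qf_sq.const_mul 2) tendsto_arctan_qS_atBot tendsto_arctan_qS_atTop
  rw [integral_const_mul] at h
  linarith

lemma abs_qS_le (x : ℝ) : |qS x * qf x ^ 4| ≤ qf x ^ 2 := by
  have h3 := qf_pos x
  apply abs_le_of_sq_le_sq _ (by positivity)
  have h2 := qS_sq_q x
  calc (qS x * qf x ^ 4) ^ 2 = (qS x ^ 2 * qf x ^ 4) * qf x ^ 4 := by ring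
    _ = (1 - qf x ^ 4) * qf x ^ 4 := by rw [h2]
    _ ≤ 1 * qf x ^ 4 := by
        have : 0 < qf x ^ 4 := by positivity
        nlinarith
    _ = (qf x ^ 2) ^ 2 := by ring

lemma tendsto_qf_sq (l : Filter ℝ) (hl : Tendsto (fun x : ℝ => x ^ 2) l atTop) :
    Tendsto (fun x => qf x ^ 2) l (𝓝 0) := by
  refine squeeze_zero (fun x => by positivity) qf_sq_le ?_
  exact (tendsto_atTop_add_const_left _ 1 hl).inv_tendsto_atTop

lemma sq_atTop : Tendsto (fun x : ℝ => x ^ 2) atTop atTop := tendsto_pow_atTop (by norm_num)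

lemma sq_atBot : Tendsto (fun x : ℝ => x ^ 2) atBot atTop :=
  (sq_atTop.comp tendsto_neg_atBot_atTop).congr fun x => by simp

lemma tendsto_qS_qf (l : Filter ℝ) (hl : Tendsto (fun x : ℝ => x ^ 2) l atTop) :
    Tendsto (fun x => qS x * qf x ^ 4) l (𝓝 0) :=
  squeeze_zero_norm (fun x => abs_qS_le x) (tendsto_qf_sq l hl)

lemma integral_qf_six : ∫ x, qf x ^ 6 = Real.pi / 4 := by
  have hd : ∀ x, HasDerivAt (fun x => qS x * qf x ^ 4 + Real.arctan (qS x)) (4 * qf x ^ 6) x := by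
    intro x
    have h := ((hasDerivAt_qS x).mul ((hasDerivAt_qf x).pow 4)).add (hasDerivAt_arctan_qS x)
    refine h.congr_deriv ?_
    have h1 := qf_sq_mul x
    have h2 := qS_sq_q x
    simp only [Nat.cast_ofNat, Nat.add_one_sub_one, Pi.pow_apply]
    have e1 : 2 * Real.cosh (2 * x) * qf x ^ 4 = 2 * qf x ^ 2 := by
      calc 2 * Real.cosh (2 * x) * qf x ^ 4
          = 2 * qf x ^ 2 * (qf x ^ 2 * Real.cosh (2 * x)) := by ring
        _ = _ := by rw [h1]; ring
    have e2 : qS x * (4 * qf x ^ 3 * -(qS x * qf x ^ 3)) = -4 * qf x ^ 2 * (1 - qf x ^ 4) := by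
      rw [← h2]; ring
    rw [e1, e2]
    ring
  have h := integral_of_hasDerivAt_of_tendsto hd (integrable_qf_six.const_mul 4)
    ((tendsto_qS_qf _ sq_atBot).add tendsto_arctan_qS_atBot)
    ((tendsto_qS_qf _ sq_atTop).add tendsto_arctan_qS_atTop)
  rw [integral_const_mul] at h
  linarith

/-- `|x| |q'(x)|` tends to `0`. -/
lemma tendsto_lin_mul_qd (C : ℝ) (l : Filter ℝ) (hl : Tendsto (fun x : ℝ => |x|) l atTop) :
    Tendsto (fun x => (C + |x|) * |qd x|) l (𝓝 0) := by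
  have h1 : ∀ x : ℝ, |qd x| ≤ √2 * Real.exp (-|x|) := by
    intro x
    apply abs_le_of_sq_le_sq _ (by positivity)
    refine (qd_sq_le x).trans ?_
    rw [qf_sq, mul_pow, Real.sq_sqrt (by norm_num)]
    have h2 : Real.exp (2 * |x|) / 2 ≤ Real.cosh (2 * x) := by
      rw [← Real.cosh_abs, abs_mul, abs_of_pos (by norm_num : (0:ℝ) < 2), Real.cosh_eq]
      have := Real.exp_pos (-(2 * |x|))
      linarith
    have h3 : 0 < Real.exp (2 * |x|) / 2 := by positivity
    refine (inv_anti₀ h3 h2).trans ?_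
    rw [inv_div, ← Real.exp_nat_mul]
    push_cast
    rw [show 2 * -|x| = -(2 * |x|) by ring, Real.exp_neg]
    exact le_of_eq (by field_simp)
  have h4 : Tendsto (fun t : ℝ => (|C| + t) * (√2 * Real.exp (-t))) atTop (𝓝 0) := by
    have e0 := Real.tendsto_exp_neg_atTop_nhds_zero
    have e1 : Tendsto (fun t : ℝ => t ^ 1 * Real.exp (-t)) atTop (𝓝 0) :=
      Real.tendsto_pow_mul_exp_neg_atTop_nhds_zero 1
    have := (e0.const_mul (|C| * √2)).add (e1.const_mul √2)
    simp only [mul_zero, add_zero] at this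
    refine this.congr fun t => ?_
    ring
  refine squeeze_zero_norm (fun x => ?_) (h4.comp hl)
  simp only [Function.comp_apply]
  rw [norm_mul, Real.norm_eq_abs, Real.norm_eq_abs, abs_abs]
  refine mul_le_mul ?_ (h1 x) (abs_nonneg _) (by positivity)
  refine (abs_add_le _ _).trans ?_
  rw [abs_abs]

end Vale.Agent.P371
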