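import Vale.Agent.P371.Iface

/-!
# P371: matrix positivity
-/

open MeasureTheory Matrix Filter Topology
open scoped ENNReal ComplexOrder ComplexConjugate

namespace Vale.Agent.P371

variable {N : ℕ}

/-- quadratic form of a kernel -/
noncomputable def mpQ (M : Fin N → Fin N → ℂ) (v : Fin N → ℂ) : ℂ :=
  ∑ i, ∑ k, conj (v i) * M i k * v k

/-- the real part of the quadratic form is nonnegative -/
def mpNN (M : Fin N → Fin N → ℂ) : Prop := ∀ v, 0 ≤ (mpQ M v).re

theorem mpNN_rank {M : Fin N → Fin N → ℂ} (h : mpNN M) (w : Fin N → ℂ) :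
    mpNN (fun i k => conj (w i) * w k * M i k) := by
  intro v
  have h1 : mpQ (fun i k => conj (w i) * w k * M i k) v = mpQ M (fun i => w i * v i) := by
    unfold mpQ
    refine Finset.sum_congr rfl fun i _ => Finset.sum_congr rfl fun k _ => ?_
    rw [map_mul]
    ring
  rw [h1]
  exact h _

theorem mpNN_add {M M' : Fin N → Fin N → ℂ} (h : mpNN M) (h' : mpNN M') :
    mpNN (fun i k => M i k + M' i k) := by
  intro v
  have h1 : mpQ (fun i k => M i k + M' i k) v = mpQ M v + mpQ M' v := by
    unfold mpQ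
    rw [← Finset.sum_add_distrib]
    refine Finset.sum_congr rfl fun i _ => ?_
    rw [← Finset.sum_add_distrib]
    refine Finset.sum_congr rfl fun k _ => ?_
    ring
  rw [h1, Complex.add_re]
  exact add_nonneg (h v) (h' v)

theorem mpNN_smul {M : Fin N → Fin N → ℂ} (h : mpNN M) {c : ℝ} (hc : 0 ≤ c) :
    mpNN (fun i k => (c : ℂ) * M i k) := by
  intro v
  have h1 : mpQ (fun i k => (c : ℂ) * M i k) v = (c : ℂ) * mpQ M v := by
    unfold mpQ
    rw [Finset.mul_sum]
    refine Finset.sum_congr rfl fun i _ => ?_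
    rw [Finset.mul_sum]
    refine Finset.sum_congr rfl fun k _ => ?_
    ring
  rw [h1, Complex.re_ofReal_mul]
  exact mul_nonneg hc (h v)

theorem mpNN_zero : mpNN (fun _ _ => (0 : ℂ) : Fin N → Fin N → ℂ) := by
  intro v
  simp [mpQ]

theorem mpNN_lim {M : ℕ → Fin N → Fin N → ℂ} {M' : Fin N → Fin N → ℂ} (h : ∀ n, mpNN (M n))
    (hl : ∀ i k, Tendsto (fun n => M n i k) atTop (𝓝 (M' i k))) : mpNN M' := by
  intro v
  have h1 : Tendsto (fun n => mpQ (M n) v) atTop (𝓝 (mpQ M' v)) := by
    unfold mpQ
    refine tendsto_finsetSum _ fun i _ => tendsto_finsetSum _ fun k _ => ?_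
    exact ((hl i k).const_mul _).mul_const _
  have h2 := (Complex.continuous_re.tendsto _).comp h1
  exact ge_of_tendsto' h2 fun n => h n v

theorem mp_tan_lt {x : ℝ} (hx : |x| < Real.pi / 4) : |Real.tan x| < 1 := by
  have hpi := Real.pi_pos
  rw [abs_lt] at hx ⊢
  constructor
  · have := Real.tan_lt_tan_of_lt_of_lt_pi_div_two (x := -x) (y := Real.pi / 4) (by linarith)
      (by linarith) (by linarith)
    rw [Real.tan_neg, Real.tan_pi_div_four] at this
    linarith
  · have := Real.tan_lt_tan_of_lt_of_lt_pi_div_two (x := x) (y := Real.pi / 4) (by linarith)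
      (by linarith) (by linarith)
    rwa [Real.tan_pi_div_four] at this

theorem mp_cos_pos {x : ℝ} (hx : |x| < Real.pi / 2) : 0 < Real.cos x :=
  Real.cos_pos_of_mem_Ioo ⟨by linarith [(abs_lt.1 hx).1], (abs_lt.1 hx).2⟩

theorem mpNN_sec {M : Fin N → Fin N → ℂ} (h : mpNN M) (x : Fin N → ℝ)
    (hx : ∀ i, |x i| < Real.pi / 4) :
    mpNN (fun i k => ((1 / Real.cos (x i + x k) : ℝ) : ℂ) * M i k) := by
  have hpi := Real.pi_pos
  have hcos : ∀ i, 0 < Real.cos (x i) := fun i => mp_cos_pos (by linarith [hx i])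
  set w : ℕ → Fin N → ℝ := fun l i => Real.tan (x i) ^ l / Real.cos (x i) with hw
  refine mpNN_lim (M := fun n i k => ((∑ l ∈ Finset.range n, w l i * w l k : ℝ) : ℂ) * M i k) ?_ ?_
  · intro n
    induction n with
    | zero =>
      simp only [Finset.range_zero, Finset.sum_empty, Complex.ofReal_zero, zero_mul]
      exact mpNN_zero
    | succ n ih =>
      have h1 := mpNN_add ih (mpNN_rank h (fun i => (w n i : ℂ)))
      convert h1 using 3 with i k
      rw [Finset.sum_range_succ, Complex.conj_ofReal]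
      push_cast
      ring
  · intro i k
    have hg : HasSum (fun l : ℕ => w l i * w l k) (1 / Real.cos (x i + x k)) := by
      have hlt : |Real.tan (x i) * Real.tan (x k)| < 1 := by
        rw [abs_mul]
        exact mul_lt_one_of_nonneg_of_lt_one_left (abs_nonneg _) (mp_tan_lt (hx i))
          (mp_tan_lt (hx k)).le
      have h1 := (hasSum_geometric_of_abs_lt_one hlt).mul_left
        (1 / (Real.cos (x i) * Real.cos (x k)))
      have hf : (fun l : ℕ => w l i * w l k) = fun l : ℕ =>
          1 / (Real.cos (x i) * Real.cos (x k)) * (Real.tan (x i) * Real.tan (x k)) ^ l := by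
        funext l
        simp only [hw]
        rw [mul_pow]
        have := (hcos i).ne'
        have := (hcos k).ne'
        field_simp
      have h2 : Real.cos (x i + x k) =
            Real.cos (x i) * Real.cos (x k) * (1 - Real.tan (x i) * Real.tan (x k)) := by
        rw [Real.cos_add, Real.tan_eq_sin_div_cos, Real.tan_eq_sin_div_cos]
        have := (hcos i).ne'
        have := (hcos k).ne'
        field_simp
      rw [hf, h2]
      have e : (1 / (Real.cos (x i) * Real.cos (x k) * (1 - Real.tan (x i) * Real.tan (x k))) : ℝ)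
          = 1 / (Real.cos (x i) * Real.cos (x k)) * (1 - Real.tan (x i) * Real.tan (x k))⁻¹ := by
        rw [one_div, one_div, mul_inv (Real.cos (x i) * Real.cos (x k))]
      rw [e]
      exact h1
    have h3 := hg.tendsto_sum_nat
    exact ((Complex.continuous_ofReal.tendsto _).comp h3).mul_const _

theorem mp_sinc_integral (δ : ℝ) :
    ∫ s in (-1 : ℝ)..1, Complex.exp ((s * δ : ℝ) * Complex.I) = 2 * (Real.sinc δ : ℂ) := by
  by_cases hδ : δ = 0
  · subst hδ
    simp
    norm_num
  · have h1 := intervalIntegral.integral_comp_mul_right (a := -1) (b := 1)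
      (fun t : ℝ => Complex.exp ((t : ℂ) * Complex.I)) hδ
    have h2 := integral_exp_mul_I_eq_sinc δ
    rw [h1]
    rw [neg_one_mul, one_mul, h2]
    have h3 : (δ : ℂ) ≠ 0 := by exact_mod_cast hδ
    rw [Complex.real_smul]
    push_cast
    field_simp

theorem mpNN_sinc {M : Fin N → Fin N → ℂ} (h : mpNN M) (θ : Fin N → ℝ) :
    mpNN (fun i k => (Real.sinc (θ i - θ k) : ℂ) * M i k) := by
  intro v
  set W : ℝ → Fin N → ℂ := fun s i => Complex.exp ((-(s * θ i) : ℝ) * Complex.I) * v i with hW
  have hcont : Continuous (fun s => mpQ M (W s)) := by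
    unfold mpQ
    simp only [hW]
    fun_prop
  have h1 : 2 * mpQ (fun i k => (Real.sinc (θ i - θ k) : ℂ) * M i k) v =
      ∫ s in (-1 : ℝ)..1, mpQ M (W s) := by
    have h2 : ∀ s : ℝ, mpQ M (W s) = ∑ i, ∑ k,
        Complex.exp ((s * (θ i - θ k) : ℝ) * Complex.I) * (conj (v i) * M i k * v k) := by
      intro s
      unfold mpQ
      refine Finset.sum_congr rfl fun i _ => Finset.sum_congr rfl fun k _ => ?_
      simp only [hW]
      rw [map_mul, ← Complex.exp_conj, map_mul, Complex.conj_ofReal, Complex.conj_I]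
      have h3 : Complex.exp ((s * (θ i - θ k) : ℝ) * Complex.I) =
          Complex.exp ((-(s * θ i) : ℝ) * -Complex.I) *
            Complex.exp ((-(s * θ k) : ℝ) * Complex.I) := by
        rw [← Complex.exp_add]
        congr 1
        push_cast
        ring
      rw [h3]
      ring
    simp_rw [h2]
    rw [intervalIntegral.integral_finsetSum]
    · unfold mpQ
      rw [Finset.mul_sum]
      refine Finset.sum_congr rfl fun i _ => ?_
      rw [intervalIntegral.integral_finsetSum]
      · rw [Finset.mul_sum]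
        refine Finset.sum_congr rfl fun k _ => ?_
        rw [intervalIntegral.integral_mul_const, mp_sinc_integral]
        ring
      · intro k _
        apply Continuous.intervalIntegrable
        fun_prop
    · intro i _
      apply Continuous.intervalIntegrable
      fun_prop
  have h4 : (∫ s in (-1 : ℝ)..1, mpQ M (W s)).re = ∫ s in (-1 : ℝ)..1, (mpQ M (W s)).re := by
    have := Complex.reCLM.intervalIntegral_comp_comm (hcont.intervalIntegrable (-1) 1 (μ := volume))
    exact this.symm
  have h5 : 0 ≤ ∫ s in (-1 : ℝ)..1, (mpQ M (W s)).re :=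
    intervalIntegral.integral_nonneg (by norm_num) fun s _ => h (W s)
  have h6 : (2 * mpQ (fun i k => (Real.sinc (θ i - θ k) : ℂ) * M i k) v).re =
      2 * (mpQ (fun i k => (Real.sinc (θ i - θ k) : ℂ) * M i k) v).re := by
    simp [Complex.mul_re]
  rw [← h4, ← h1, h6] at h5
  linarith

/-- the interpolating kernel -/
noncomputable def mpC (α : Fin N → ℝ) (t : ℝ) (B : Fin N → Fin N → ℂ) (n : ℝ) :
    Fin N → Fin N → ℂ :=
  fun i k => (Real.cos (n * ((α i + α k) / 2) + (1 - n) * t) : ℂ) * B i k

theorem mpC_mid {α : Fin N → ℝ} (hα : ∀ i, |α i| < Real.pi / 2) {t : ℝ}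
    (ht : |t| < Real.pi / 2) {B : Fin N → Fin N → ℂ} {n n' : ℝ} (hnn : |n - n'| ≤ 1)
    (h : mpNN (mpC α t B n)) (h' : mpNN (mpC α t B n')) :
    mpNN (mpC α t B ((n + n') / 2)) := by
  have hpi := Real.pi_pos
  set x : Fin N → ℝ := fun i => (n - n') * (α i - t) / 4 with hx
  have hxlt : ∀ i, |x i| < Real.pi / 4 := by
    intro i
    simp only [hx]
    have h1 : |α i - t| < Real.pi := by
      have := abs_sub (α i) t
      have := hα i
      linarith
    rw [abs_div, abs_mul, abs_of_pos (by norm_num : (0 : ℝ) < 4)]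
    have h2 : |n - n'| * |α i - t| ≤ 1 * |α i - t| :=
      mul_le_mul_of_nonneg_right hnn (abs_nonneg _)
    linarith
  have h1 := mpNN_smul (mpNN_sec (mpNN_add h h') x hxlt) (by norm_num : (0 : ℝ) ≤ 1 / 2)
  convert h1 using 3 with i k
  unfold mpC
  have hc : 0 < Real.cos (x i + x k) := by
    apply mp_cos_pos
    have := abs_add_le (x i) (x k)
    have := hxlt i
    have := hxlt k
    linarith
  have h2 : Real.cos (n * ((α i + α k) / 2) + (1 - n) * t) +
      Real.cos (n' * ((α i + α k) / 2) + (1 - n') * t) =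
      2 * Real.cos ((n + n') / 2 * ((α i + α k) / 2) + (1 - (n + n') / 2) * t) *
        Real.cos (x i + x k) := by
    rw [Real.cos_add_cos]
    simp only [hx]
    congr 1
    · congr 2
      ring
    · congr 1
      ring
  rw [← add_mul, ← Complex.ofReal_add, h2]
  push_cast
  have hcC : (Real.cos (x i + x k) : ℂ) ≠ 0 := by exact_mod_cast hc.ne'
  push_cast at hcC
  field_simp

theorem mpC_all {α : Fin N → ℝ} (hα : ∀ i, |α i| < Real.pi / 2) {t : ℝ}
    (ht : |t| < Real.pi / 2) {B : Fin N → Fin N → ℂ} (h0 : mpNN (mpC α t B 0))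
    (h1 : mpNN (mpC α t B 1)) {n : ℝ} (hn0 : 0 ≤ n) (hn1 : n ≤ 1) : mpNN (mpC α t B n) := by
  set S : Set ℝ := {m | mpNN (mpC α t B m)} with hS
  have hclosed : IsClosed S := by
    have : S = ⋂ v : Fin N → ℂ, {m | 0 ≤ (mpQ (mpC α t B m) v).re} := by
      ext m
      simp only [hS, Set.mem_iInter]
      rfl
    rw [this]
    refine isClosed_iInter fun v => isClosed_le continuous_const ?_
    unfold mpQ mpC
    fun_prop
  by_contra hcon
  have hA : (S ∩ Set.Icc 0 n).Nonempty := ⟨0, h0, le_rfl, hn0⟩
  have hB : (S ∩ Set.Icc n 1).Nonempty := ⟨1, h1, hn1, le_rfl⟩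
  have hAc : IsClosed (S ∩ Set.Icc 0 n) := hclosed.inter isClosed_Icc
  have hBc : IsClosed (S ∩ Set.Icc n 1) := hclosed.inter isClosed_Icc
  have hAb : BddAbove (S ∩ Set.Icc 0 n) := ⟨n, fun y hy => hy.2.2⟩
  have hBb : BddBelow (S ∩ Set.Icc n 1) := ⟨n, fun y hy => hy.2.1⟩
  have ha := hAc.csSup_mem hA hAb
  have hb := hBc.csInf_mem hB hBb
  set a := sSup (S ∩ Set.Icc 0 n) with hadef
  set b := sInf (S ∩ Set.Icc n 1) with hbdef
  have han : a < n := lt_of_le_of_ne ha.2.2 (fun h => hcon (h ▸ ha.1))
  have hbn : n < b := lt_of_le_of_ne hb.2.1 (fun h => hcon (h ▸ hb.1))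
  have hmid : (a + b) / 2 ∈ S := by
    refine mpC_mid hα ht ?_ ha.1 hb.1
    rw [abs_le]
    constructor <;> linarith [ha.2.1, hb.2.2]
  rcases le_total ((a + b) / 2) n with hle | hle
  · have := le_csSup hAb ⟨hmid, by linarith [ha.2.1], hle⟩
    linarith
  · have := csInf_le hBb ⟨hmid, hle, by linarith [hb.2.2]⟩
    linarith

/-- the function of the symmetrised sum -/
noncomputable def mpPsi (a b : ℝ) : ℝ :=
  Real.cos ((a + b) / 2) * (Real.sinc ((a - b) / 2) - Real.cos ((a - b) / 2))

theorem mpPsi_symm (a b : ℝ) : mpPsi a b = mpPsi b a := by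
  unfold mpPsi
  rw [add_comm a b, show (a - b) / 2 = -((b - a) / 2) by ring, Real.sinc_neg, Real.cos_neg]

theorem mpPsi_self (a : ℝ) : mpPsi a a = 0 := by
  unfold mpPsi
  simp

theorem mpPsi_ne {a b : ℝ} (h : a ≠ b) :
    mpPsi a b = (Real.sin a - Real.sin b) / (a - b) - (Real.cos a + Real.cos b) / 2 := by
  have h1 : a - b ≠ 0 := sub_ne_zero.2 h
  unfold mpPsi
  rw [Real.sinc_of_ne_zero (by intro hh; apply h1; linarith), Real.sin_sub_sin, Real.cos_add_cos]
  field_simp

theorem mpPsi_int (a b t : ℝ) : mpPsi a t + mpPsi b t - mpPsi a b =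
    (a - t) * (b - t) * ∫ n in (0 : ℝ)..1, n * (1 - n) *
      (Real.sinc (n * ((a - b) / 2)) * Real.cos (n * ((a + b) / 2) + (1 - n) * t)) := by
  by_cases hat : a = t
  · subst hat
    rw [mpPsi_self, mpPsi_symm b a]
    ring
  by_cases hbt : b = t
  · subst hbt
    rw [mpPsi_self]
    ring
  have hx : a - t ≠ 0 := sub_ne_zero.2 hat
  have hy : b - t ≠ 0 := sub_ne_zero.2 hbt
  by_cases hab : a = b
  · subst hab
    rw [mpPsi_self, mpPsi_ne hat]
    have hint : ∫ n in (0 : ℝ)..1, n * (1 - n) *
        (Real.sinc (n * ((a - a) / 2)) * Real.cos (n * ((a + a) / 2) + (1 - n) * t)) =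
        -(Real.cos a + Real.cos t) / (a - t) ^ 2 + 2 * (Real.sin a - Real.sin t) / (a - t) ^ 3 := by
      have hd : ∀ n ∈ Set.uIcc (0 : ℝ) 1, HasDerivAt (fun n : ℝ =>
          (n - n ^ 2) * Real.sin (t + n * (a - t)) / (a - t) +
          (1 - 2 * n) * Real.cos (t + n * (a - t)) / (a - t) ^ 2 +
          2 * Real.sin (t + n * (a - t)) / (a - t) ^ 3)
          (n * (1 - n) * (Real.sinc (n * ((a - a) / 2)) *
            Real.cos (n * ((a + a) / 2) + (1 - n) * t))) n := by
        intro n _
        have e1 : HasDerivAt (fun n : ℝ => t + n * (a - t)) (a - t) n := by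
          simpa using ((hasDerivAt_id n).mul_const (a - t)).const_add t
        have e2 := e1.sin
        have e3 := e1.cos
        have e4 : HasDerivAt (fun n : ℝ => n - n ^ 2) (1 - 2 * n) n :=
          ((hasDerivAt_id' n).fun_sub (hasDerivAt_pow 2 n)).congr_deriv (by norm_num)
        have e5 : HasDerivAt (fun n : ℝ => 1 - 2 * n) (-2) n := by
          simpa using ((hasDerivAt_id n).const_mul 2).const_sub 1
        have e6 := (((e4.fun_mul e2).div_const (a - t)).fun_add
          ((e5.fun_mul e3).div_const ((a - t) ^ 2))).fun_add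
          ((e2.const_mul 2).div_const ((a - t) ^ 3))
        refine e6.congr_deriv ?_
        rw [sub_self, zero_div, mul_zero, Real.sinc_zero,
          show n * ((a + a) / 2) + (1 - n) * t = t + n * (a - t) by ring]
        field_simp
        ring
      rw [intervalIntegral.integral_eq_sub_of_hasDerivAt hd]
      · rw [show t + 1 * (a - t) = a by ring, show t + 0 * (a - t) = t by ring]
        field_simp
        ring
      · apply Continuous.intervalIntegrable
        fun_prop
    rw [hint]
    field_simp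
    ring
  · have hab' : a - b ≠ 0 := sub_ne_zero.2 hab
    rw [mpPsi_ne hat, mpPsi_ne hbt, mpPsi_ne hab]
    have hI : ∀ x : ℝ, x ≠ 0 → ∫ n in (0 : ℝ)..1, (1 - n) * Real.sin (t + n * x) =
        Real.cos t / x - (Real.sin (t + x) - Real.sin t) / x ^ 2 := by
      intro x hx0
      have hd : ∀ n ∈ Set.uIcc (0 : ℝ) 1, HasDerivAt (fun n : ℝ =>
          -(1 - n) * Real.cos (t + n * x) / x - Real.sin (t + n * x) / x ^ 2)
          ((1 - n) * Real.sin (t + n * x)) n := by
        intro n _
        have e1 : HasDerivAt (fun n : ℝ => t + n * x) x n := by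
          simpa using ((hasDerivAt_id n).mul_const x).const_add t
        have e2 := e1.sin
        have e3 := e1.cos
        have e5 : HasDerivAt (fun n : ℝ => -(1 - n)) 1 n :=
          (((hasDerivAt_id' n).const_sub 1).fun_neg).congr_deriv (by norm_num)
        have e6 := ((e5.fun_mul e3).div_const x).fun_sub (e2.div_const (x ^ 2))
        refine e6.congr_deriv ?_
        field_simp
        ring
      rw [intervalIntegral.integral_eq_sub_of_hasDerivAt hd]
      · rw [one_mul, zero_mul, add_zero]
        field_simp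
        ring
      · apply Continuous.intervalIntegrable
        fun_prop
    have hint : ∫ n in (0 : ℝ)..1, n * (1 - n) *
        (Real.sinc (n * ((a - b) / 2)) * Real.cos (n * ((a + b) / 2) + (1 - n) * t)) =
        ((∫ n in (0 : ℝ)..1, (1 - n) * Real.sin (t + n * (a - t))) -
          ∫ n in (0 : ℝ)..1, (1 - n) * Real.sin (t + n * (b - t))) / (a - b) := by
      rw [← intervalIntegral.integral_sub, ← intervalIntegral.integral_div]
      · refine intervalIntegral.integral_congr fun n _ => ?_
        by_cases hn : n = 0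
        · subst hn; simp
        · rw [Real.sinc_of_ne_zero (by
            intro hh
            rcases mul_eq_zero.1 hh with h | h
            · exact hn h
            · apply hab'; linarith)]
          have h2 : Real.sin (t + n * (a - t)) - Real.sin (t + n * (b - t)) =
              2 * Real.sin (n * ((a - b) / 2)) * Real.cos (n * ((a + b) / 2) + (1 - n) * t) := by
            rw [Real.sin_sub_sin]
            congr 1
            · congr 2
              ring
            · congr 1
              ring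
          have h3 : (1 - n) * Real.sin (t + n * (a - t)) - (1 - n) * Real.sin (t + n * (b - t)) =
              (1 - n) * (2 * Real.sin (n * ((a - b) / 2)) *
                Real.cos (n * ((a + b) / 2) + (1 - n) * t)) := by
            rw [← h2]; ring
          rw [h3]
          field_simp
      · apply Continuous.intervalIntegrable
        fun_prop
      · apply Continuous.intervalIntegrable
        fun_prop
    rw [hint, hI _ hx, hI _ hy, show t + (a - t) = a by ring, show t + (b - t) = b by ring]
    field_simp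
    ring

theorem mpSum_nonneg {α : Fin N → ℝ} (hα : ∀ i, |α i| < Real.pi / 2) {B : Fin N → Fin N → ℂ}
    (hB : mpNN B) (hBc : ∀ i j, conj (B i j) = B j i)
    (h1 : mpNN (fun i k => (Real.cos ((α i + α k) / 2) : ℂ) * B i k)) (j : Fin N) :
    0 ≤ (∑ i, ∑ k, ((mpPsi (α i) (α j) + mpPsi (α k) (α j) - mpPsi (α i) (α k) : ℝ) : ℂ) *
      (B j i * B i k * B k j)).re := by
  set v : Fin N → ℂ := fun k => ((α k - α j : ℝ) : ℂ) * B k j with hv
  set F : ℝ → Fin N → Fin N → ℂ := fun n i k =>
    (Real.sinc (n * (α i / 2) - n * (α k / 2)) : ℂ) * mpC α (α j) B n i k with hF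
  have hcont : Continuous (fun n : ℝ => ((n * (1 - n) : ℝ) : ℂ) * mpQ (F n) v) := by
    unfold mpQ
    simp only [hF, mpC]
    fun_prop
  have hnn : ∀ n : ℝ, 0 ≤ n → n ≤ 1 → mpNN (F n) := by
    intro n hn0 hn1
    refine mpNN_sinc (mpC_all hα (hα j) ?_ ?_ hn0 hn1) (fun i => n * (α i / 2))
    · have := mpNN_smul hB (mp_cos_pos (hα j)).le
      convert this using 3 with i k
      unfold mpC
      rw [zero_mul, sub_zero, one_mul, zero_add]
    · convert h1 using 3 with i k
      unfold mpC
      rw [sub_self, one_mul, zero_mul, add_zero]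
  have hkey : (∑ i, ∑ k, ((mpPsi (α i) (α j) + mpPsi (α k) (α j) - mpPsi (α i) (α k) : ℝ) : ℂ) *
      (B j i * B i k * B k j)) = ∫ n in (0 : ℝ)..1, ((n * (1 - n) : ℝ) : ℂ) * mpQ (F n) v := by
    have h2 : ∀ n : ℝ, ((n * (1 - n) : ℝ) : ℂ) * mpQ (F n) v = ∑ i, ∑ k,
        ((n * (1 - n) * (Real.sinc (n * ((α i - α k) / 2)) *
          Real.cos (n * ((α i + α k) / 2) + (1 - n) * α j)) : ℝ) : ℂ) *
        ((((α i - α j) * (α k - α j) : ℝ) : ℂ) * (B j i * B i k * B k j)) := by
      intro n
      unfold mpQ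
      rw [Finset.mul_sum]
      refine Finset.sum_congr rfl fun i _ => ?_
      rw [Finset.mul_sum]
      refine Finset.sum_congr rfl fun k _ => ?_
      simp only [hF, hv, mpC]
      rw [map_mul, hBc, Complex.conj_ofReal,
        show n * (α i / 2) - n * (α k / 2) = n * ((α i - α k) / 2) by ring]
      push_cast
      ring
    simp_rw [h2]
    rw [intervalIntegral.integral_finsetSum]
    · refine Finset.sum_congr rfl fun i _ => ?_
      rw [intervalIntegral.integral_finsetSum]
      · refine Finset.sum_congr rfl fun k _ => ?_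
        rw [intervalIntegral.integral_mul_const, intervalIntegral.integral_ofReal, mpPsi_int]
        push_cast
        ring
      · intro k _
        apply Continuous.intervalIntegrable
        fun_prop
    · intro i _
      apply Continuous.intervalIntegrable
      fun_prop
  rw [hkey]
  have h4 : (∫ n in (0 : ℝ)..1, ((n * (1 - n) : ℝ) : ℂ) * mpQ (F n) v).re =
      ∫ n in (0 : ℝ)..1, (((n * (1 - n) : ℝ) : ℂ) * mpQ (F n) v).re := by
    have := Complex.reCLM.intervalIntegral_comp_comm (hcont.intervalIntegrable 0 1 (μ := volume))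
    exact this.symm
  rw [h4]
  refine intervalIntegral.integral_nonneg (by norm_num) fun n hn => ?_
  rw [Complex.re_ofReal_mul]
  exact mul_nonneg (mul_nonneg hn.1 (by linarith [hn.2])) (hnn n hn.1 hn.2 v)

/-- Module MP. -/
theorem mpFact : MPFact := by
  intro N α P hα hP
  have hpi := Real.pi_pos
  have hc : ∀ i j, 0 < Real.cos ((α i + α j) / 2) := by
    intro i j
    apply mp_cos_pos
    rw [abs_div, abs_of_pos (by norm_num : (0 : ℝ) < 2)]
    have := abs_add_le (α i) (α j)
    have := hα i
    have := hα j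
    linarith
  set B : Fin N → Fin N → ℂ := fun i j =>
    ((1 / Real.cos (α i / 2 + α j / 2) : ℝ) : ℂ) * P i j with hBdef
  have hPc : ∀ i j, conj (P i j) = P j i := fun i j => hP.1.apply j i
  have hBc : ∀ i j, conj (B i j) = B j i := by
    intro i j
    simp only [hBdef]
    rw [map_mul, Complex.conj_ofReal, hPc, add_comm (α i / 2)]
  have hPnn : mpNN (fun i j => P i j) := by
    intro v
    have h := hP.dotProduct_mulVec_nonneg v
    have h2 : mpQ (fun i j => P i j) v = star v ⬝ᵥ (P *ᵥ v) := by
      unfold mpQ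
      simp only [dotProduct, mulVec, Pi.star_apply, Finset.mul_sum]
      refine Finset.sum_congr rfl fun i _ => Finset.sum_congr rfl fun k _ => ?_
      rw [Complex.star_def]
      ring
    rw [h2]
    exact (Complex.le_def.1 h).1
  have hB : mpNN B := mpNN_sec hPnn (fun i => α i / 2) (fun i => by
    rw [abs_div, abs_of_pos (by norm_num : (0 : ℝ) < 2)]
    linarith [hα i])
  have hBP : ∀ i k, (Real.cos ((α i + α k) / 2) : ℂ) * B i k = P i k := by
    intro i k
    simp only [hBdef]
    rw [show α i / 2 + α k / 2 = (α i + α k) / 2 by ring]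
    have h := (hc i k).ne'
    rw [← mul_assoc, ← Complex.ofReal_mul, mul_one_div_cancel h]
    simp
  have h1 : mpNN (fun i k => (Real.cos ((α i + α k) / 2) : ℂ) * B i k) := by
    simp_rw [hBP]
    exact hPnn
  -- the terms
  set T : Fin N → Fin N → Fin N → ℂ := fun i j k => B j i * B i k * B k j with hT
  set Ψ : Fin N → Fin N → ℂ := fun i k => ((mpPsi (α i) (α k) : ℝ) : ℂ) with hΨ
  have hΨs : ∀ i k, Ψ i k = Ψ k i := by
    intro i k
    simp only [hΨ]
    rw [mpPsi_symm]
  have hterm : ∀ i j k, P j i * P i k * P k j *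
      (((Real.sinc ((α i - α k) / 2) - Real.cos ((α i - α k) / 2)) /
        (Real.cos ((α i + α j) / 2) * Real.cos ((α k + α j) / 2)) : ℝ) : ℂ) =
      Ψ i k * T i j k := by
    intro i j k
    simp only [hΨ, hT, mpPsi]
    rw [← hBP j i, ← hBP i k, ← hBP k j, add_comm (α j) (α i)]
    have e1 : (Real.cos ((α i + α j) / 2) : ℂ) ≠ 0 := by exact_mod_cast (hc i j).ne'
    have e2 : (Real.cos ((α k + α j) / 2) : ℂ) ≠ 0 := by exact_mod_cast (hc k j).ne'
    rw [Complex.ofReal_div, Complex.ofReal_mul, Complex.ofReal_mul]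
    field_simp
  have hS : (∑ i, ∑ j, ∑ k, P j i * P i k * P k j *
      (((Real.sinc ((α i - α k) / 2) - Real.cos ((α i - α k) / 2)) /
        (Real.cos ((α i + α j) / 2) * Real.cos ((α k + α j) / 2)) : ℝ) : ℂ)) =
      ∑ i, ∑ j, ∑ k, Ψ i k * T i j k := by
    refine Finset.sum_congr rfl fun i _ => Finset.sum_congr rfl fun j _ =>
      Finset.sum_congr rfl fun k _ => hterm i j k
  rw [hS]
  -- the cyclic relabelling
  have hcyc1 : ∑ i, ∑ j, ∑ k, Ψ i k * T i j k = ∑ i, ∑ j, ∑ k, Ψ i j * T i j k := by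
    calc ∑ i, ∑ j, ∑ k, Ψ i k * T i j k = ∑ j, ∑ k, ∑ i, Ψ j i * T j k i := rfl
      _ = ∑ j, ∑ i, ∑ k, Ψ j i * T j k i := by
          refine Finset.sum_congr rfl fun j _ => ?_
          exact Finset.sum_comm
      _ = ∑ i, ∑ j, ∑ k, Ψ j i * T j k i := Finset.sum_comm
      _ = ∑ i, ∑ j, ∑ k, Ψ i j * T i j k := by
          refine Finset.sum_congr rfl fun i _ => Finset.sum_congr rfl fun j _ =>
            Finset.sum_congr rfl fun k _ => ?_
          rw [hΨs j i]
          simp only [hT]
          ring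
  have hcyc2 : ∑ i, ∑ j, ∑ k, Ψ i k * T i j k = ∑ i, ∑ j, ∑ k, Ψ k j * T i j k := by
    calc ∑ i, ∑ j, ∑ k, Ψ i k * T i j k = ∑ k, ∑ i, ∑ j, Ψ k j * T k i j := rfl
      _ = ∑ i, ∑ k, ∑ j, Ψ k j * T k i j := Finset.sum_comm
      _ = ∑ i, ∑ j, ∑ k, Ψ k j * T k i j := by
          refine Finset.sum_congr rfl fun i _ => ?_
          exact Finset.sum_comm
      _ = ∑ i, ∑ j, ∑ k, Ψ k j * T i j k := by
          refine Finset.sum_congr rfl fun i _ => Finset.sum_congr rfl fun j _ =>
            Finset.sum_congr rfl fun k _ => ?_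
          simp only [hT]
          ring
  have hfin : ∑ i, ∑ j, ∑ k, Ψ i k * T i j k = ∑ j, ∑ i, ∑ k,
      ((mpPsi (α i) (α j) + mpPsi (α k) (α j) - mpPsi (α i) (α k) : ℝ) : ℂ) *
      (B j i * B i k * B k j) := by
    have h5 : ∑ i, ∑ j, ∑ k, Ψ i k * T i j k =
        ∑ i, ∑ j, ∑ k, Ψ i j * T i j k + ∑ i, ∑ j, ∑ k, Ψ k j * T i j k -
          ∑ i, ∑ j, ∑ k, Ψ i k * T i j k := by
      rw [← hcyc1, ← hcyc2]
      ring
    rw [h5, Finset.sum_comm (f := fun i j => ∑ k, Ψ i j * T i j k),
      Finset.sum_comm (f := fun i j => ∑ k, Ψ k j * T i j k),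
      Finset.sum_comm (f := fun i j => ∑ k, Ψ i k * T i j k), ← Finset.sum_add_distrib,
      ← Finset.sum_sub_distrib]
    refine Finset.sum_congr rfl fun j _ => ?_
    rw [← Finset.sum_add_distrib, ← Finset.sum_sub_distrib]
    refine Finset.sum_congr rfl fun i _ => ?_
    rw [← Finset.sum_add_distrib, ← Finset.sum_sub_distrib]
    refine Finset.sum_congr rfl fun k _ => ?_
    simp only [hΨ, hT]
    push_cast
    ring
  rw [hfin, Complex.re_sum]
  exact Finset.sum_nonneg fun j _ => mpSum_nonneg hα hB hBc h1 j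

end Vale.Agent.P371
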